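import Crest.Agent.R330.NB.Defs
import Crest.Agent.R330.IU

/-! # Row 330, NB/A (statements frozen; see `R330/Blueprint.lean`, `R330/NB/Defs.lean`) -/

set_option autoImplicit false
set_option linter.unusedSectionVars false

noncomputable section

open MeasureTheory Filter Topology Metric
open scoped InnerProductSpace ContDiff Matrix
open Crest.MathPhysics.MatrixQM (GammaNine)

namespace Crest.Agent.R330

variable {E F : Type} [NormedAddCommGroup E] [InnerProductSpace ℝ E] [FiniteDimensional ℝ E]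
  [MeasurableSpace E] [BorelSpace E]
  [NormedAddCommGroup F] [InnerProductSpace ℂ F] [FiniteDimensional ℂ F]
  {K : Type} [Group K] [TopologicalSpace K] [IsTopologicalGroup K]
  [CompactSpace K] [MeasurableSpace K] [BorelSpace K]
  {𝔤 : Lie E} {Γ : Grp 𝔤 K} {C : Cl (Th E) F} {σ : Spn}

/-! ### cones and regions -/

namespace ICone

variable {S : Set (X E)}

theorem nonempty (h : ICone Γ S) : S.Nonempty := ⟨0, h.zero⟩

/-- A rotation as a linear isometry. -/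
def nbAa_rotI {O : Matrix (Fin 9) (Fin 9) ℝ} (hO : Oᵀ * O = 1) : X E →ₗᵢ[ℝ] X E :=
  ⟨mat O, norm_mat_orth O hO⟩

theorem nbAa_img_ax (h : ICone Γ S) (k : K) : Γ.ax k '' S = S := by
  refine Set.Subset.antisymm ?_ fun x hx => ⟨Γ.ax k⁻¹ x, h.ax _ _ hx, ?_⟩
  · rintro _ ⟨x, hx, rfl⟩
    exact h.ax k x hx
  · rw [← Γ.ax_mul, mul_inv_cancel, Γ.ax_one]

theorem nbAa_img_rot (h : ICone Γ S) {O : Matrix (Fin 9) (Fin 9) ℝ} (hO : Oᵀ * O = 1) :
    nbAa_rotI hO '' S = S := by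
  have hO' : O * Oᵀ = 1 := mul_eq_one_comm.1 hO
  refine Set.Subset.antisymm ?_ fun x hx => ⟨mat Oᵀ x, h.rot _ (by simpa using hO') _ hx, ?_⟩
  · rintro _ ⟨x, hx, rfl⟩
    exact h.rot O hO x hx
  · change (mat O ∘ₗ mat Oᵀ) x = x
    rw [← mat_mul, hO', mat_one, LinearMap.id_apply]

/-- `Γ.ax k` is a bijective isometry preserving `S` (inverse `Γ.ax k⁻¹`; `Grp.ax_mul`,
`Grp.ax_one`); use `Metric.infDist_image` or a direct `le_antisymm`. -/
theorem infDist_ax (h : ICone Γ S) (k : K) (x : X E) : infDist (Γ.ax k x) S = infDist x S := by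
  conv_lhs => rw [← nbAa_img_ax h k]
  exact infDist_image (Γ.ax k).isometry

/-- Inverse `mat Oᵀ` (`Matrix.mul_eq_one_comm`, `mat_mul`, `mat_one`, `norm_mat_orth`). -/
theorem infDist_rot (h : ICone Γ S) {O : Matrix (Fin 9) (Fin 9) ℝ} (hO : Oᵀ * O = 1) (x : X E) :
    infDist (mat O x) S = infDist x S := by
  conv_lhs => rw [← nbAa_img_rot h hO]
  exact infDist_image (nbAa_rotI hO).isometry

theorem infDist_smul (h : ICone Γ S) {r : ℝ} (hr : 0 < r) (x : X E) :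
    infDist (r • x) S = r * infDist x S := by
  have e : (fun y => r • y) '' S = S := by
    refine Set.Subset.antisymm ?_ fun y hy => ⟨r⁻¹ • y, h.smul _ _ hy, ?_⟩
    · rintro _ ⟨y, hy, rfl⟩
      exact h.smul r y hy
    · simp only [smul_smul, mul_inv_cancel₀ hr.ne', one_smul]
  conv_lhs => rw [← e]
  exact (infDist_smul₀ hr.ne' S x).trans (by rw [Real.norm_of_nonneg hr.le])

theorem infDist_le_norm (h : ICone Γ S) (x : X E) : infDist x S ≤ ‖x‖ := by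
  simpa using infDist_le_dist_of_mem (x := x) h.zero

theorem ginv (h : ICone Γ S) : GInv 𝔤 fun x => infDist x S := by
  refine ⟨fun ξ x => ?_, fun O hO x => h.infDist_rot hO x⟩
  obtain ⟨k, hk⟩ := Γ.exists_ax_flow ξ
  simp only [← hk, h.infDist_ax]

/-- The images of `S` under gauge transformations and rotations, in the form needed for
`exists_smooth_dist`: a smooth invariant distance. -/
theorem exists_smooth (h : ICone Γ S) : ∃ d : X E → ℝ, ContDiff ℝ ∞ d ∧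
    (∀ x, |d x - infDist x S| ≤ 1) ∧ (∀ x, ‖gradient d x‖ ≤ 1) ∧ GInv 𝔤 d := by
  obtain ⟨d, h1, h2, h3, h4⟩ := exists_smooth_dist h.nonempty one_pos
  refine ⟨d, h1, h2, h3, fun ξ x => ?_, fun O hO x => h4 (nbAa_rotI hO) (nbAa_img_rot h hO) x⟩
  obtain ⟨k, hk⟩ := Γ.exists_ax_flow ξ
  rw [← hk, h4 _ (nbAa_img_ax h k)]

end ICone

theorem iCone_zero (Γ : Grp 𝔤 K) : ICone Γ ({0} : Set (X E)) := by
  refine ⟨rfl, ?_, ?_, ?_, isClosed_singleton⟩
  · rintro r _ rfl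
    exact smul_zero r
  · rintro k _ rfl
    exact map_zero _
  · rintro O - _ rfl
    exact map_zero _

theorem ginv_norm (𝔤 : Lie E) : GInv 𝔤 fun x : X E => ‖x‖ := by
  exact ⟨fun ξ x => norm_rexp' (isSkew_lift (𝔤.isSkew_br ξ)) x, fun O hO x => norm_mat_orth O hO x⟩

theorem nbAa_sum_rot (L : E →ₗ[ℝ] E) {O : Matrix (Fin 9) (Fin 9) ℝ} (hO : Oᵀ * O = 1) (x : X E) :
    ∑ j, ‖L (mat O x j)‖ ^ 2 = ∑ j, ‖L (x j)‖ ^ 2 := by
  have h1 := PiLp.norm_sq_eq_of_L2 _ (lift 9 L (mat O x))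
  have h2 := PiLp.norm_sq_eq_of_L2 _ (lift 9 L x)
  have h3 : lift 9 L (mat O x) = mat O (lift 9 L x) := (LinearMap.congr_fun (mat_lift O L) x).symm
  simp only [lift_apply] at h1 h2
  rw [← h1, ← h2, h3, norm_mat_orth O hO]

/-- `‖w‖² = ½ Σ ‖⟦x_i, x_j⟧‖²` (`norm_wpot_sq`) is invariant: `Lie.rexp'_br`, `rexp'_lift`,
`norm_rexp'` for the gauge part; for rotations expand
`Σ_{ij} ‖Σ_{kl} O_ik O_jl b_kl‖² = Σ_{kl} ‖b_kl‖²` (two applications of `norm_mat_orth`). -/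
theorem ginv_norm_wpot (𝔤 : Lie E) (σ : Spn) : GInv 𝔤 fun x : X E => ‖wpot 𝔤 σ.G σ.s x‖ := by
  refine ⟨fun ξ x => ?_, fun O hO x => ?_⟩
  · refine (sq_eq_sq₀ (norm_nonneg _) (norm_nonneg _)).1 ?_
    rw [norm_wpot_sq 𝔤 σ.G σ.unit, norm_wpot_sq 𝔤 σ.G σ.unit, rexp'_lift]
    simp only [lift_apply, ContinuousLinearMap.coe_coe, ← Lie.rexp'_br, norm_rexp' (𝔤.isSkew_br ξ)]
  · refine (sq_eq_sq₀ (norm_nonneg _) (norm_nonneg _)).1 ?_
    rw [norm_wpot_sq 𝔤 σ.G σ.unit, norm_wpot_sq 𝔤 σ.G σ.unit]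
    congr 1
    simp only [nbAa_sum_rot _ hO]
    rw [Finset.sum_comm, Finset.sum_comm (f := fun i j => ‖𝔤.br (x i) (x j)‖ ^ 2)]
    exact Finset.sum_congr rfl fun j _ => nbAa_sum_rot (𝔤.br.flip (x j)) hO x

theorem wpot_eq_zero_iff (𝔤 : Lie E) (σ : Spn) (x : X E) :
    wpot 𝔤 σ.G σ.s x = 0 ↔ ∀ i j, 𝔤.br (x i) (x j) = 0 := by
  have h := norm_wpot_sq 𝔤 σ.G σ.unit x
  constructor
  · intro h0 i j
    rw [h0, norm_zero] at h
    have h1 : ∑ i, ∑ j, ‖𝔤.br (x i) (x j)‖ ^ 2 = 0 := by linarith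
    rw [Finset.sum_eq_zero_iff_of_nonneg fun i _ => Finset.sum_nonneg fun j _ => sq_nonneg _] at h1
    have h2 := h1 i (Finset.mem_univ _)
    rw [Finset.sum_eq_zero_iff_of_nonneg fun j _ => sq_nonneg _] at h2
    simpa using h2 j (Finset.mem_univ _)
  · intro h0
    simpa [h0] using h

theorem GInv.ax {χ : X E → ℝ} (h : GInv 𝔤 χ) (Γ : Grp 𝔤 K) (k : K) (x : X E) :
    χ (Γ.ax k x) = χ x := by
  obtain ⟨ξ, hξ⟩ := Γ.exists_flow_ax k
  rw [hξ, h.1]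

theorem nbAb_cont_wpot (𝔤 : Lie E) (σ : Spn) :
    Continuous fun x : X E => ‖wpot 𝔤 σ.G σ.s x‖ :=
  (contDiff_wpot 𝔤 σ.G σ.s).continuous.norm

theorem isOpen_val (η : ℝ) : IsOpen (val 𝔤 σ η) :=
  (isOpen_lt (nbAb_cont_wpot 𝔤 σ) (continuous_const.mul (continuous_norm.pow 2))).inter
    (isOpen_lt continuous_const continuous_norm)
theorem isOpen_regA (S' : Set (X E)) (a η : ℝ) : IsOpen (regA 𝔤 σ S' a η) :=
  (isOpen_val η).inter
    (isOpen_lt (continuous_const.mul continuous_norm) (continuous_infDist_pt S'))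
theorem isOpen_regB (S' S : Set (X E)) (a b η : ℝ) : IsOpen (regB 𝔤 σ S' S a b η) :=
  (isOpen_regA S' a η).inter
    (isOpen_lt (continuous_infDist_pt S) (continuous_const.mul continuous_norm))

theorem val_mono {η η' : ℝ} (h0 : 0 < η) (h : η ≤ η') : val 𝔤 σ η ⊆ val 𝔤 σ η' :=
  fun _ hx => ⟨hx.1.trans_le (mul_le_mul_of_nonneg_right h (sq_nonneg _)),
    (inv_anti₀ h0 h).trans_lt hx.2⟩
theorem regA_mono (S' : Set (X E)) (a : ℝ) {η η' : ℝ} (h0 : 0 < η) (h : η ≤ η') :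
    regA 𝔤 σ S' a η ⊆ regA 𝔤 σ S' a η' := fun _ hx => ⟨val_mono h0 h hx.1, hx.2⟩
theorem regB_mono (S' S : Set (X E)) (a b : ℝ) {η η' : ℝ} (h0 : 0 < η) (h : η ≤ η') :
    regB 𝔤 σ S' S a b η ⊆ regB 𝔤 σ S' S a b η' :=
  fun _ hx => ⟨regA_mono S' a h0 h hx.1, hx.2⟩

theorem val_ax (η : ℝ) (k : K) {x : X E} (hx : x ∈ val 𝔤 σ η) : Γ.ax k x ∈ val 𝔤 σ η := by
  have h1 : ‖wpot 𝔤 σ.G σ.s (Γ.ax k x)‖ = ‖wpot 𝔤 σ.G σ.s x‖ :=
    (ginv_norm_wpot 𝔤 σ).ax Γ k x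
  have h2 : ‖Γ.ax k x‖ = ‖x‖ := (Γ.ax k).norm_map x
  refine ⟨?_, ?_⟩
  · rw [h1, h2]; exact hx.1
  · rw [h2]; exact hx.2
theorem regB_ax {S' S : Set (X E)} (h' : ICone Γ S') (h : ICone Γ S) (a b η : ℝ) (k : K) {x : X E}
    (hx : x ∈ regB 𝔤 σ S' S a b η) : Γ.ax k x ∈ regB 𝔤 σ S' S a b η := by
  have h2 : ‖Γ.ax k x‖ = ‖x‖ := (Γ.ax k).norm_map x
  refine ⟨⟨val_ax η k hx.1.1, ?_⟩, ?_⟩
  · rw [h2, h'.infDist_ax]; exact hx.1.2
  · rw [h2, h.infDist_ax]; exact hx.2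

/-- Compactness principle: on a compact set, if `f ≤ 0` where `g` vanishes then `f < δ` where
`g` is small (minimise `g` on the compact set `A ∩ {δ ≤ f}`). -/
theorem compact_small {Y : Type} [TopologicalSpace Y] {A : Set Y} (hA : IsCompact A)
    {f g : Y → ℝ} (hf : Continuous f) (hg : Continuous g) (h0 : ∀ x ∈ A, 0 ≤ g x)
    (h : ∀ x ∈ A, g x = 0 → f x ≤ 0) {δ : ℝ} (hδ : 0 < δ) :
    ∃ η : ℝ, 0 < η ∧ ∀ x ∈ A, g x ≤ η → f x < δ := by
  have hB : IsCompact (A ∩ {x | δ ≤ f x}) :=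
    hA.inter_right (isClosed_le continuous_const hf)
  rcases (A ∩ {x | δ ≤ f x}).eq_empty_or_nonempty with he | hne
  · refine ⟨1, one_pos, fun x hx _ => ?_⟩
    by_contra hc
    have : x ∈ A ∩ {x | δ ≤ f x} := ⟨hx, not_lt.1 hc⟩
    rw [he] at this
    exact this
  · obtain ⟨x₀, hx₀, hmin⟩ := hB.exists_isMinOn hne hg.continuousOn
    have hpos : 0 < g x₀ := by
      rcases (h0 x₀ hx₀.1).eq_or_lt with h1 | h1
      · have h2 := h x₀ hx₀.1 h1.symm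
        have h3 : δ ≤ f x₀ := hx₀.2
        linarith
      · exact h1
    refine ⟨g x₀ / 2, by linarith, fun x hx hgx => ?_⟩
    by_contra hc
    have h4 : g x₀ ≤ g x := hmin (show x ∈ A ∩ {x | δ ≤ f x} from ⟨hx, not_lt.1 hc⟩)
    linarith

/-- The valley region is close to any cone containing the valley (`compact_small` on the unit
sphere with `g = ‖w‖`, `f = infDist · S`; `wpot_smul`, `ICone.infDist_smul`). -/
theorem val_near {S : Set (X E)} (h : ICone Γ S)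
    (hv : ∀ x : X E, (∀ i j, 𝔤.br (x i) (x j) = 0) → x ∈ S) {b : ℝ} (hb : 0 < b) :
    ∃ η : ℝ, 0 < η ∧ ∀ x ∈ val 𝔤 σ η, infDist x S < b * ‖x‖ := by
  obtain ⟨η, hη, H⟩ := compact_small (isCompact_sphere (0 : X E) 1) (continuous_infDist_pt S)
    (nbAb_cont_wpot 𝔤 σ) (fun x _ => norm_nonneg _)
    (fun x _ hx => (infDist_zero_of_mem
      (hv x ((wpot_eq_zero_iff 𝔤 σ x).1 (norm_eq_zero.1 hx)))).le) hb
  refine ⟨η, hη, fun x hx => ?_⟩
  have hx0 : 0 < ‖x‖ := (inv_pos.2 hη).trans hx.2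
  have hy : ‖x‖⁻¹ • x ∈ sphere (0 : X E) 1 := by
    rw [mem_sphere_zero_iff_norm, norm_smul, norm_inv, norm_norm, inv_mul_cancel₀ hx0.ne']
  have h1 : ‖wpot 𝔤 σ.G σ.s (‖x‖⁻¹ • x)‖ ≤ η := by
    rw [wpot_smul, norm_smul, Real.norm_eq_abs, abs_of_nonneg (sq_nonneg _), inv_pow,
      inv_mul_le_iff₀ (pow_pos hx0 2), mul_comm]
    exact hx.1.le
  have h2 := H _ hy h1
  simp only [h.infDist_smul (inv_pos.2 hx0)] at h2
  rwa [inv_mul_lt_iff₀ hx0, mul_comm] at h2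

/-! ### weights -/

theorem Tame.integrable {W : X E → ℝ} {Ω : Set (X E)} (h : Tame W Ω) {ψ : X E → F} (hψ : Core ψ)
    (hs : tsupport ψ ⊆ Ω) : Integrable fun x => W x * ‖ψ x‖ ^ 2 := by
  obtain ⟨b, hb⟩ := h.2 _ hs hψ.2.isCompact
  have hc : Continuous fun x => ‖ψ x‖ ^ 2 := hψ.1.continuous.norm.pow 2
  have hcs : HasCompactSupport fun x => ‖ψ x‖ ^ 2 :=
    hψ.2.comp_left (g := fun v : F => ‖v‖ ^ 2) (by simp)
  have hi : Integrable fun x => b * ‖ψ x‖ ^ 2 :=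
    (hc.integrable_of_hasCompactSupport hcs).const_mul b
  refine hi.mono' (h.1.mul hc.measurable).aestronglyMeasurable (Eventually.of_forall fun x => ?_)
  rw [norm_mul, Real.norm_eq_abs, Real.norm_eq_abs, abs_of_nonneg (sq_nonneg ‖ψ x‖)]
  by_cases hx : x ∈ tsupport ψ
  · exact mul_le_mul_of_nonneg_right (hb x hx) (sq_nonneg _)
  · simp [image_eq_zero_of_notMem_tsupport hx]

theorem Tame.mono {W : X E → ℝ} {Ω Ω' : Set (X E)} (h : Tame W Ω) (h' : Ω' ⊆ Ω) : Tame W Ω' :=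
  ⟨h.1, fun S hS hc => h.2 S (hS.trans h') hc⟩

theorem Tame.of_continuousOn {W : X E → ℝ} {Ω : Set (X E)} (hm : Measurable W)
    (h : ContinuousOn W Ω) : Tame W Ω :=
  ⟨hm, fun _ hS hc => hc.exists_bound_of_continuousOn (h.mono hS)⟩

theorem nbAb_pos {S' : Set (X E)} {a η : ℝ} (ha : 0 < a) (hη : 0 < η) {x : X E}
    (hx : x ∈ regA 𝔤 σ S' a η) : 0 < ‖x‖ ∧ 0 < infDist x S' :=
  have h0 : 0 < ‖x‖ := (inv_pos.2 hη).trans hx.1.2
  ⟨h0, (mul_pos ha h0).trans hx.2⟩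

theorem nbAb_meas_W1 (S' : Set (X E)) (A β ε : ℝ) : Measurable (W1 S' A β ε) :=
  ((measurable_const.div (continuous_norm.pow 2).measurable).add measurable_const).add
    (measurable_const.div ((continuous_infDist_pt S').pow 2).measurable)

theorem tame_W1 (S' : Set (X E)) (A β ε : ℝ) {a η : ℝ} (ha : 0 < a) (hη : 0 < η) :
    Tame (W1 S' A β ε) (regA 𝔤 σ S' a η) :=
  Tame.of_continuousOn (nbAb_meas_W1 S' A β ε)
    (((continuousOn_const.div (continuous_norm.pow 2).continuousOn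
      fun _ hx => (pow_pos (nbAb_pos ha hη hx).1 2).ne').add continuousOn_const).add
    (continuousOn_const.div ((continuous_infDist_pt S').pow 2).continuousOn
      fun _ hx => (pow_pos (nbAb_pos ha hη hx).2 2).ne'))

theorem tame_W2 (S' S : Set (X E)) (A β ε : ℝ) {a a' η : ℝ} (ha : 0 < a) (ha' : 0 < a')
    (hη : 0 < η) : Tame (W2 S' S A β ε a') (regA 𝔤 σ S' a η) := by
  refine ⟨(nbAb_meas_W1 S' A β ε).add (Measurable.ite ?_
    (measurable_const.div ((continuous_infDist_pt S).pow 2).measurable) measurable_const), ?_⟩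
  · exact (isClosed_le (continuous_const.mul continuous_norm)
      (continuous_infDist_pt S)).measurableSet
  · intro T hT hc
    obtain ⟨b, hb⟩ := (tame_W1 (𝔤 := 𝔤) (σ := σ) S' A β ε ha hη).2 T hT hc
    refine ⟨b + |β| / (a' * η⁻¹) ^ 2, fun x hx => ?_⟩
    have hp : 0 < a' * η⁻¹ := mul_pos ha' (inv_pos.2 hη)
    refine (abs_add_le _ _).trans (add_le_add (hb x hx) ?_)
    split_ifs with h1
    · have h2 : a' * η⁻¹ ≤ infDist x S :=
        (mul_le_mul_of_nonneg_left (hT hx).1.2.le ha'.le).trans h1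
      rw [abs_div, abs_of_nonneg (sq_nonneg (infDist x S))]
      exact div_le_div_of_nonneg_left (abs_nonneg β) (pow_pos hp 2)
        (pow_le_pow_left₀ hp.le h2 2)
    · rw [abs_zero]; positivity

theorem LB.mono {ε : ℝ} {𝒱 : Wts} {W W' : X E → ℝ} {Ω Ω' : Set (X E)} (h : LB 𝔤 C σ ε 𝒱 W Ω)
    (hΩ : Ω' ⊆ Ω) (hW : Tame W Ω') (hW' : Tame W' Ω') (hle : ∀ x ∈ Ω', W' x ≤ W x) :
    LB 𝔤 C σ ε 𝒱 W' Ω' := by
  intro ψ hψ hs
  refine le_trans ?_ (h ψ hψ (hs.trans hΩ))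
  refine integral_mono (hW'.integrable hψ.1 hs) (hW.integrable hψ.1 hs) fun x => ?_
  by_cases hx : x ∈ tsupport ψ
  · exact mul_le_mul_of_nonneg_right (hle x (hs hx)) (sq_nonneg _)
  · simp [image_eq_zero_of_notMem_tsupport hx]

theorem Good.mono {ε₁ ε₂ ε : ℝ} {𝒱 : Wts} (h : Good ε₁ ε 𝒱) (h12 : ε₁ ≤ ε₂) : Good ε₂ ε 𝒱 :=
  ⟨h.1, h.2.1.trans h12, h.2.2⟩

theorem Cls.empty {G : GammaNine} {𝒱 : Wts} {ψ : X E → F} (h : Cls 𝔤 C G 𝒱 ψ) :
    Cls 𝔤 C G ∅ ψ := ⟨h.1, h.2.1, fun _ hp => absurd hp (Set.notMem_empty _)⟩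

/-- Start of the downward induction: the region is empty (`val_near`), so `ψ = 0`. -/
theorem tt_base {S : Set (X E)} (h : ICone Γ S)
    (hv : ∀ x : X E, (∀ i j, 𝔤.br (x i) (x j) = 0) → x ∈ S) : TT 𝔤 C σ S := by
  refine ⟨1, one_pos, fun a ha => ?_⟩
  obtain ⟨η, hη, H⟩ := val_near (σ := σ) h hv ha
  refine ⟨η, hη, fun ε 𝒱 _ ψ _ hs => ?_⟩
  have h0 : ∀ x, ψ x = 0 := fun x => by
    by_contra hx
    have h1 := hs (subset_tsupport ψ hx)
    exact lt_asymm (H x h1.1) h1.2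
  simp only [h0, norm_zero, ne_eq, OfNat.ofNat_ne_zero, not_false_eq_true, zero_pow, mul_zero,
    integral_zero]
  exact integral_nonneg fun x => sq_nonneg _

end Crest.Agent.R330

end
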