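import Crest.Agent.R330.NB.A

/-! # Row 330, NB/B (statements frozen; see `R330/Blueprint.lean`, `R330/NB/Defs.lean`) -/

set_option autoImplicit false
set_option linter.unusedSectionVars false

noncomputable section

open MeasureTheory Filter Topology Metric
open scoped InnerProductSpace ContDiff Matrix
open Crest.MathPhysics.MatrixQM (GammaNine)

namespace Crest.Agent.R330

variable {E F : Type} [NormedAddCommGroup E] [InnerProductSpace ℝ E] [FiniteDimensional ℝ E]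
  [MeasurableSpace E] [BorelSpace E]
  [NormedAddCommGroup F] [InnerProductSpace ℂ F] [FiniteDimensional ℂ F]
  {K : Type} [Group K] [TopologicalSpace K] [IsTopologicalGroup K]
  [CompactSpace K] [MeasurableSpace K] [BorelSpace K]
  {𝔤 : Lie E} {Γ : Grp 𝔤 K} {C : Cl (Th E) F} {σ : Spn}

theorem nbBa_ts (f : X E → ℝ) (ψ : X E → F) :
    tsupport (fun x => (f x : ℂ) • ψ x) ⊆ tsupport ψ ∩ tsupport f :=
  Set.subset_inter (closure_mono fun x hx h => hx (by simp [h])) (closure_mono fun x hx h => hx (by simp [h]))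

/-- Integrated IMS formula (`ims` on `U`, everything vanishes off `tsupport ψ`:
`tsupport_dirac_subset`; `Cls.smul`; `norm_cmap`; `contDiff_wd`, `Core.dirac` for
integrability). -/
theorem ims_int {ε : ℝ} {𝒱 : Wts} (h𝒱 : 𝒱.OK) {ψ : X E → F} (hψ : Cls 𝔤 C σ.G 𝒱 ψ)
    {U : Set (X E)} (hU : IsOpen U) (hs : tsupport ψ ⊆ U) {f g : X E → ℝ}
    (hf : ContDiffOn ℝ ∞ f U) (hg : ContDiffOn ℝ ∞ g U) (hfi : GInv 𝔤 f) (hgi : GInv 𝔤 g)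
    (hfg : ∀ x ∈ U, f x ^ 2 + g x ^ 2 = 1) :
    Cls 𝔤 C σ.G 𝒱 (fun x => (f x : ℂ) • ψ x) ∧ Cls 𝔤 C σ.G 𝒱 (fun x => (g x : ℂ) • ψ x) ∧
    tsupport (fun x => (f x : ℂ) • ψ x) ⊆ tsupport ψ ∩ tsupport f ∧
    tsupport (fun x => (g x : ℂ) • ψ x) ⊆ tsupport ψ ∩ tsupport g ∧
    Integrable (fun x => 1 / 2 * (‖gradient f x‖ ^ 2 + ‖gradient g x‖ ^ 2) * ‖ψ x‖ ^ 2) ∧
    (∫ x, ‖Qe 𝔤 C σ ε (fun x => (f x : ℂ) • ψ x) x‖ ^ 2) +
        ∫ x, ‖Qe 𝔤 C σ ε (fun x => (g x : ℂ) • ψ x) x‖ ^ 2 =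
      (∫ x, ‖Qe 𝔤 C σ ε ψ x‖ ^ 2) +
        ∫ x, 1 / 2 * (‖gradient f x‖ ^ 2 + ‖gradient g x‖ ^ 2) * ‖ψ x‖ ^ 2 := by
  have c1 := hψ.smul h𝒱 hU hs hf hfi.1 hfi.2
  have c2 := hψ.smul h𝒱 hU hs hg hgi.1 hgi.2
  have iQ : ∀ φ : X E → F, Core φ → Integrable fun x => ‖Qe 𝔤 C σ ε φ x‖ ^ 2 := fun φ hφ => by
    have h : Core (Qe 𝔤 C σ ε φ) := hφ.dirac C _ (contDiff_wd 𝔤 σ ε (f := fun _ => 0) contDiff_const)
    exact (memLp_two_iff_integrable_sq_norm h.1.continuous.aestronglyMeasurable).1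
      (h.1.continuous.memLp_of_hasCompactSupport h.2)
  have e : ∀ x, ‖Qe 𝔤 C σ ε (fun x => (f x : ℂ) • ψ x) x‖ ^ 2 + ‖Qe 𝔤 C σ ε (fun x => (g x : ℂ) • ψ x) x‖ ^ 2 =
      ‖Qe 𝔤 C σ ε ψ x‖ ^ 2 + 1 / 2 * (‖gradient f x‖ ^ 2 + ‖gradient g x‖ ^ 2) * ‖ψ x‖ ^ 2 := fun x => by
    by_cases hx : x ∈ tsupport ψ
    · have hn := hU.mem_nhds (hs hx)
      exact ims C _ (norm_cmap σ.G σ.unit) _ ((hf.contDiffAt hn).differentiableAt (by simp))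
        ((hg.contDiffAt hn).differentiableAt (by simp)) (mem_of_superset hn hfg)
        (hψ.1.1.differentiable (by simp) x)
    · have k : ∀ φ : X E → F, tsupport φ ⊆ tsupport ψ → Qe 𝔤 C σ ε φ x = 0 := fun φ h =>
        image_eq_zero_of_notMem_tsupport fun h' => hx (h (tsupport_dirac_subset _ _ _ _ h'))
      rw [k _ ((nbBa_ts f ψ).trans Set.inter_subset_left), k _ ((nbBa_ts g ψ).trans Set.inter_subset_left),
        k ψ subset_rfl, image_eq_zero_of_notMem_tsupport hx]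
      simp
  have i1 : Integrable fun x => 1 / 2 * (‖gradient f x‖ ^ 2 + ‖gradient g x‖ ^ 2) * ‖ψ x‖ ^ 2 :=
    (((iQ _ c1.1).add (iQ _ c2.1)).sub (iQ _ hψ.1)).congr (Eventually.of_forall fun x => by
      simp only [Pi.add_apply, Pi.sub_apply, e x, add_sub_cancel_left])
  refine ⟨c1, c2, nbBa_ts f ψ, nbBa_ts g ψ, i1, ?_⟩
  rw [← integral_add (iQ _ c1.1) (iQ _ c2.1), ← integral_add (iQ _ hψ.1) i1]
  exact integral_congr_ae (Eventually.of_forall e)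

/-- Gluing two lower bounds. -/
theorem LB.glue {ε : ℝ} {𝒱 : Wts} (h𝒱 : 𝒱.OK) {W W₁ W₂ : X E → ℝ} {Ω Ω₁ Ω₂ U : Set (X E)}
    (hU : IsOpen U) (hΩU : Ω ⊆ U) {f g : X E → ℝ}
    (hf : ContDiffOn ℝ ∞ f U) (hg : ContDiffOn ℝ ∞ g U) (hfi : GInv 𝔤 f) (hgi : GInv 𝔤 g)
    (hfg : ∀ x ∈ U, f x ^ 2 + g x ^ 2 = 1)
    (h₁ : LB 𝔤 C σ ε 𝒱 W₁ Ω₁) (h₂ : LB 𝔤 C σ ε 𝒱 W₂ Ω₂)
    (s₁ : Ω ∩ tsupport f ⊆ Ω₁) (s₂ : Ω ∩ tsupport g ⊆ Ω₂)
    (t : Tame W Ω) (t₁ : Tame W₁ Ω₁) (t₂ : Tame W₂ Ω₂)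
    (hle : ∀ x ∈ Ω, W x + 1 / 2 * (‖gradient f x‖ ^ 2 + ‖gradient g x‖ ^ 2) ≤
      W₁ x * f x ^ 2 + W₂ x * g x ^ 2) : LB 𝔤 C σ ε 𝒱 W Ω := fun ψ hψ hs => by
  obtain ⟨c1, c2, a1, a2, i1, e⟩ := ims_int (σ := σ) (ε := ε) h𝒱 hψ hU (hs.trans hΩU) hf hg hfi hgi hfg
  have b1 := (a1.trans (Set.inter_subset_inter_left _ hs)).trans s₁
  have b2 := (a2.trans (Set.inter_subset_inter_left _ hs)).trans s₂
  have j0 := t.integrable hψ.1 hs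
  have j1 := t₁.integrable c1.1 b1
  have j2 := t₂.integrable c2.1 b2
  have k := integral_mono (j0.add i1) (j1.add j2) fun x => by
    simp only [Pi.add_apply, norm_smul, Complex.norm_real, Real.norm_eq_abs, mul_pow, sq_abs]
    by_cases hx : x ∈ tsupport ψ
    · linarith [mul_le_mul_of_nonneg_right (hle x (hs hx)) (sq_nonneg ‖ψ x‖)]
    · simp [image_eq_zero_of_notMem_tsupport hx]
  simp only [Pi.add_apply] at k
  rw [integral_add j0 i1, integral_add j1 j2] at k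
  linarith [h₁ _ c1 b1, h₂ _ c2 b2]

/-- Multiplication by an invariant function: `‖Q(hψ)‖² ≤ 2 a² ‖Qψ‖² + ∫ |∇h|² |ψ|²`
(`dirac_smul`, `Cl.norm_θ_sq`, `norm_cmap`). -/
theorem norm_Qe_smul_le {ε : ℝ} {ψ : X E → F} (hψ : Core ψ)
    {U : Set (X E)} (hU : IsOpen U) (hs : tsupport ψ ⊆ U) {h : X E → ℝ}
    (hh : ContDiffOn ℝ ∞ h U) {a b : ℝ} (ha : ∀ x ∈ tsupport ψ, |h x| ≤ a)
    (hb : ∀ x ∈ tsupport ψ, ‖gradient h x‖ ^ 2 ≤ b * (1 / ‖x‖ ^ 2)) (h0 : (0 : X E) ∉ U) :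
    ∫ x, ‖Qe 𝔤 C σ ε (fun x => (h x : ℂ) • ψ x) x‖ ^ 2 ≤
      2 * a ^ 2 * (∫ x, ‖Qe 𝔤 C σ ε ψ x‖ ^ 2) + b * ∫ x, 1 / ‖x‖ ^ 2 * ‖ψ x‖ ^ 2 := by
  have i1 : Integrable fun x => ‖Qe 𝔤 C σ ε ψ x‖ ^ 2 :=
    F_sq (Core.dirac C _ (contDiff_wd 𝔤 σ ε contDiff_const) hψ)
  have i2 : Integrable fun x : X E => 1 / ‖x‖ ^ 2 * ‖ψ x‖ ^ 2 :=
    F_wt hψ hU hs (continuousOn_const.div (continuous_norm.pow 2).continuousOn fun x hx =>
      pow_ne_zero 2 (norm_ne_zero_iff.2 fun h => h0 (h ▸ hx))) (hψ.1.continuous.norm.pow 2)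
      fun x hx => by simp [image_eq_zero_of_notMem_tsupport hx]
  rw [← integral_const_mul, ← integral_const_mul, ← integral_add (i1.const_mul _) (i2.const_mul _)]
  refine integral_mono_of_nonneg (Eventually.of_forall fun x => sq_nonneg _)
    ((i1.const_mul _).add (i2.const_mul _)) (Eventually.of_forall fun x => ?_)
  by_cases hx : x ∈ tsupport ψ
  · have e := dirac_smul C (cmap σ.G σ.s) (wd 𝔤 σ ε fun _ => 0)
      ((hh.contDiffAt (hU.mem_nhds (hs hx))).differentiableAt (by simp))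
      (hψ.1.differentiable (by simp) x)
    have n2 : ‖Complex.I • C.θ (cmap σ.G σ.s (gradient h x)) (ψ x)‖ ^ 2 =
        ‖gradient h x‖ ^ 2 / 2 * ‖ψ x‖ ^ 2 := by
      rw [norm_smul, Complex.norm_I, one_mul, C.norm_θ_sq, norm_cmap _ σ.unit]
    have n1 : ‖(h x : ℂ) • Qe 𝔤 C σ ε ψ x‖ ^ 2 ≤ a ^ 2 * ‖Qe 𝔤 C σ ε ψ x‖ ^ 2 := by
      rw [norm_smul, Complex.norm_real, Real.norm_eq_abs, mul_pow]
      exact mul_le_mul_of_nonneg_right (pow_le_pow_left₀ (abs_nonneg _) (ha x hx) 2) (sq_nonneg _)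
    have n3 := mul_le_mul_of_nonneg_right (hb x hx) (sq_nonneg ‖ψ x‖)
    have n4 := pow_le_pow_left₀ (norm_nonneg _) (norm_sub_le ((h x : ℂ) • Qe 𝔤 C σ ε ψ x)
      (Complex.I • C.θ (cmap σ.G σ.s (gradient h x)) (ψ x))) 2
    change ‖dirac C _ _ _ x‖ ^ 2 ≤ _
    rw [e]
    refine n4.trans ?_
    nlinarith [sq_nonneg (‖(h x : ℂ) • Qe 𝔤 C σ ε ψ x‖ -
      ‖Complex.I • C.θ (cmap σ.G σ.s (gradient h x)) (ψ x)‖)]
  · have e : Qe 𝔤 C σ ε (fun x => (h x : ℂ) • ψ x) x = 0 :=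
      image_eq_zero_of_notMem_tsupport fun h' =>
        hx (tsupport_smul_subset_right _ _ (tsupport_dirac_subset C _ _ _ h'))
    simp only [e, image_eq_zero_of_notMem_tsupport hx, norm_zero]
    have := mul_nonneg (sq_nonneg a) (sq_nonneg ‖Qe 𝔤 C σ ε ψ x‖)
    nlinarith

/-- Off the valley the potential dominates.  `energy_Qe` (with `k` from `Good`, `εk ≥ 0`),
`‖w_ε‖ ≥ ‖w‖ - 4ρ ≥ ηρ²/2` (`norm_cmap`, `norm_V0_le`), `exists_norm_yuk` (`f = 0`):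
density `≥ (η²ρ⁴/8 - 2bρ)|ψ|²`; take `c = η²/16`. -/
theorem off_valley {η : ℝ} (hη : 0 < η) : ∃ c R : ℝ, 0 < c ∧ 0 < R ∧ ∀ ε 𝒱, Good 1 ε 𝒱 →
    LB 𝔤 C σ ε 𝒱 (fun x => c * ‖x‖ ^ 4)
      {x | η * ‖x‖ ^ 2 ≤ ‖wpot 𝔤 σ.G σ.s x‖ ∧ R ≤ ‖x‖} := by
  obtain ⟨b, hb, hy⟩ := exists_norm_yuk 𝔤 C σ
  refine ⟨η ^ 2 / 16, 1 + 8 / η + 32 * b / η ^ 2, by positivity, by positivity,
    fun ε 𝒱 hG ψ hψ hs => ?_⟩
  obtain ⟨he0, he1, -, hk⟩ := hG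
  obtain ⟨k, hk0, hk⟩ : ∃ k : ℝ, 0 ≤ k ∧ (ε = 0 ∨ ∀ x, RotAt C σ.G V0 k ψ x) := by
    rcases hk with h | ⟨k, h1, h2⟩
    · exact ⟨0, le_rfl, Or.inl h⟩
    · exact ⟨k, h1, Or.inr (hψ.2.2 _ h2)⟩
  rw [energy_Qe 𝔤 C σ ε k hψ.empty hk]
  have h1 : 0 ≤ ε * k * ∫ x, ‖ψ x‖ ^ 2 :=
    mul_nonneg (mul_nonneg he0 hk0) (integral_nonneg fun x => sq_nonneg _)
  refine le_trans (integral_mono_of_nonneg (Eventually.of_forall fun x => by positivity)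
    ((F_cont 𝔤 C σ ε k _ contDiff_const (by simp) hψ.empty hk).integrable_of_hasCompactSupport
      (HasCompactSupport.intro hψ.1.2 fun x hx => F_zero 𝔤 C σ ε _ _ hx))
    (Eventually.of_forall fun x => ?_)) (le_add_of_nonneg_right h1)
  by_cases hx : x ∈ tsupport ψ
  swap
  · simp only [F_zero 𝔤 C σ ε _ _ hx, image_eq_zero_of_notMem_tsupport hx, norm_zero]
    simp
  obtain ⟨h2, h3⟩ := hs hx
  have p1 : 0 < 8 / η := by positivity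
  have p2 : 0 < 32 * b / η ^ 2 := by positivity
  have r1 : 1 ≤ ‖x‖ := by linarith
  have r2 : 8 ≤ η * ‖x‖ := by
    rw [mul_comm, ← div_le_iff₀ hη]; linarith
  have r3 : 32 * b ≤ η ^ 2 * ‖x‖ := by
    rw [mul_comm (η ^ 2), ← div_le_iff₀ (by positivity)]; linarith
  have w1 : η * ‖x‖ ^ 2 / 2 ≤ ‖wd 𝔤 σ ε (fun _ => 0) x‖ := by
    have e : wpot 𝔤 σ.G σ.s x = wd 𝔤 σ ε (fun _ => 0) x - ε • cmap σ.G σ.s (mat V0 x) := by
      have : tens σ.s' (0 : E) = 0 := by ext a; simp [tens]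
      simp only [wd, this]; abel
    have e2 := norm_sub_le (wd 𝔤 σ ε (fun _ => 0) x) (ε • cmap σ.G σ.s (mat V0 x))
    rw [← e, norm_smul, norm_cmap _ σ.unit, Real.norm_eq_abs, abs_of_nonneg he0] at e2
    have e3 : ε * ‖mat V0 x‖ ≤ 1 * (4 * ‖x‖) :=
      mul_le_mul he1 (norm_V0_le x) (norm_nonneg _) zero_le_one
    nlinarith
  have w2 := pow_le_pow_left₀ (by positivity) w1 2
  have y1 : ‖C.iS (yuk 𝔤 σ ε (fun _ => 0) x)‖ ≤ 2 * b * ‖x‖ := by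
    have := hy ε (fun _ => 0) x
    rw [fderiv_fun_const, Pi.zero_apply, norm_zero, add_zero, abs_of_nonneg he0] at this
    nlinarith
  have y2 : -(2 * b * ‖x‖ * ‖ψ x‖ ^ 2) ≤ (⟪ψ x, C.iS (yuk 𝔤 σ ε (fun _ => 0) x) (ψ x)⟫_ℂ).re := by
    refine le_trans ?_ (abs_le.1 ((Complex.abs_re_le_norm _).trans (norm_inner_le_norm _ _))).1
    have := (C.iS (yuk 𝔤 σ ε (fun _ => 0) x)).le_of_opNorm_le y1 (ψ x)
    nlinarith [norm_nonneg (ψ x)]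
  have g0 : 0 ≤ gsq ψ x := Finset.sum_nonneg fun _ _ => sq_nonneg _
  have k1 : 2 * b * ‖x‖ ≤ η ^ 2 / 16 * ‖x‖ ^ 4 := by
    have q1 : ‖x‖ ^ 2 ≤ ‖x‖ ^ 4 := pow_le_pow_right₀ r1 (by norm_num)
    nlinarith [mul_le_mul_of_nonneg_left q1 (sq_nonneg η)]
  have k2 := mul_le_mul_of_nonneg_right k1 (sq_nonneg ‖ψ x‖)
  have k3 := mul_le_mul_of_nonneg_right w2 (sq_nonneg ‖ψ x‖)
  simp only [edens]
  nlinarith

end Crest.Agent.R330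

end
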