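import Crest.Agent.R330.NB.A

/-! # Row 330, NB/C (statements frozen; see `R330/Blueprint.lean`, `R330/NB/Defs.lean`) -/

set_option autoImplicit false
set_option linter.unusedSectionVars false

noncomputable section

open MeasureTheory Filter Topology Metric
open scoped InnerProductSpace ContDiff Matrix
open Crest.MathPhysics.MatrixQM (GammaNine)

namespace Crest.Agent.R330

variable {E F : Type} [NormedAddCommGroup E] [InnerProductSpace ℝ E] [FiniteDimensional ℝ E]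
  [MeasurableSpace E] [BorelSpace E]
  [NormedAddCommGroup F] [InnerProductSpace ℂ F] [FiniteDimensional ℂ F]
  {K : Type} [Group K] [TopologicalSpace K] [IsTopologicalGroup K]
  [CompactSpace K] [MeasurableSpace K] [BorelSpace K]
  {𝔤 : Lie E} {Γ : Grp 𝔤 K} {C : Cl (Th E) F} {σ : Spn}

/-- Logarithmic cut-off on the line: `f₁ s = f (log s / log Λ + 1)` for `s > 0`, `1` for `s ≤ 0`
(`f, g` from `exists_fg`, `log² Λ ≥ b/τ`).  Smooth because locally constant on `s < 1/Λ`. -/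
theorem exists_logfg {τ : ℝ} (hτ : 0 < τ) : ∃ (f g : ℝ → ℝ) (Λ : ℝ), 1 < Λ ∧ ContDiff ℝ ∞ f ∧
    ContDiff ℝ ∞ g ∧ (∀ s, f s ^ 2 + g s ^ 2 = 1) ∧ (∀ s, s ≤ Λ⁻¹ → g s = 0) ∧
    (∀ s, 1 ≤ s → f s = 0) ∧ (∀ s, s ^ 2 * (deriv f s ^ 2 + deriv g s ^ 2) ≤ τ) ∧
    ∀ s, s < Λ⁻¹ ∨ 1 < s → deriv f s = 0 ∧ deriv g s = 0 := by
  obtain ⟨f, g, b, hf, hg, h1, h2, h3, h4, h5, h6⟩ := exists_fg
  obtain ⟨L, hL1, hL⟩ : ∃ L : ℝ, 1 ≤ L ∧ b ≤ L ^ 2 * τ := by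
    refine ⟨|b| / τ + 1, le_add_of_nonneg_left (by positivity), ?_⟩
    have h7 : |b| / τ * τ = |b| := div_mul_cancel₀ _ hτ.ne'
    have h8 : 0 ≤ |b| / τ := by positivity
    nlinarith [le_abs_self b, mul_nonneg (sq_nonneg (|b| / τ)) hτ.le, abs_nonneg b]
  have hL0 : 0 < L := by linarith
  set u : ℝ → ℝ := fun s => if 0 < s then Real.log s / L + 1 else 0 with hu
  have hu0 : ∀ s, s ≤ (Real.exp L)⁻¹ → u s ≤ 0 := fun s hs => by
    simp only [hu]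
    split_ifs with h
    · have := Real.log_le_log h hs
      rw [Real.log_inv, Real.log_exp] at this
      have : Real.log s / L ≤ -1 := by rw [div_le_iff₀ hL0]; linarith
      linarith
    · rfl
  have hue : ∀ s, 0 < s → u =ᶠ[𝓝 s] fun s => Real.log s / L + 1 := fun s hs => by
    filter_upwards [Ioi_mem_nhds hs] with r hr using if_pos hr
  have hg0 : ∀ s, s < (Real.exp L)⁻¹ → (fun s => g (u s)) =ᶠ[𝓝 s] fun _ => 0 := fun s hs => by
    filter_upwards [Iio_mem_nhds hs] with r hr using h2 _ (hu0 r hr.le)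
  have hf0 : ∀ s, s < (Real.exp L)⁻¹ → (fun s => f (u s)) =ᶠ[𝓝 s] fun _ => 1 := fun s hs => by
    filter_upwards [Iio_mem_nhds hs] with r hr
    have := h1 (u r)
    rw [h2 _ (hu0 r hr.le)] at this
    nlinarith [(h4 (u r)).1]
  have hc : ∀ {φ : ℝ → ℝ} {c : ℝ}, ContDiff ℝ ∞ φ →
      (∀ s, s < (Real.exp L)⁻¹ → (fun s => φ (u s)) =ᶠ[𝓝 s] fun _ => c) → ContDiff ℝ ∞ fun s => φ (u s) :=
    fun hφ h0 => contDiff_iff_contDiffAt.2 fun s => by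
      rcases lt_or_ge 0 s with hs | hs
      · exact hφ.contDiffAt.comp s ((((Real.contDiffAt_log.2 hs.ne').div_const L).add contDiffAt_const).congr_of_eventuallyEq
          (hue s hs))
      · exact contDiffAt_const.congr_of_eventuallyEq (h0 s (hs.trans_lt (by positivity)))
  have hd : ∀ {φ : ℝ → ℝ}, ContDiff ℝ ∞ φ → ∀ s, 0 < s →
      deriv (fun s => φ (u s)) s = deriv φ (u s) * (s⁻¹ / L) := fun hφ s hs =>
    ((hφ.differentiable (by simp) _).hasDerivAt.comp s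
      ((((Real.hasDerivAt_log hs.ne').div_const L).add_const 1).congr_of_eventuallyEq (hue s hs))).deriv
  have hz : ∀ s, s < (Real.exp L)⁻¹ → deriv (fun s => f (u s)) s = 0 ∧ deriv (fun s => g (u s)) s = 0 :=
    fun s hs => by simp [(hf0 s hs).deriv_eq, (hg0 s hs).deriv_eq]
  have hu1 : ∀ s, 0 < s → u s = Real.log s / L + 1 := fun s hs => if_pos hs
  refine ⟨fun s => f (u s), fun s => g (u s), Real.exp L, Real.one_lt_exp_iff.2 hL0, hc hf hf0, hc hg hg0,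
    fun s => h1 _, fun s hs => h2 _ (hu0 s hs), fun s hs => h3 _ ?_, fun s => ?_, fun s hs => ?_⟩
  · rw [hu1 s (by linarith)]
    exact le_add_of_nonneg_left (div_nonneg (Real.log_nonneg hs) hL0.le)
  · rcases lt_or_ge 0 s with hs | hs
    · rw [hd hf s hs, hd hg s hs]
      calc _ = (deriv f (u s) ^ 2 + deriv g (u s) ^ 2) / L ^ 2 := by field_simp
        _ ≤ τ := by rw [div_le_iff₀' (by positivity)]; exact (h5 _).trans hL
    · simp [hz s (hs.trans_lt (by positivity)), hτ.le]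
  · refine hs.elim (hz s) fun hs => ?_
    have := h6 (u s) (Or.inr (by
      rw [hu1 s (by linarith)]
      exact lt_add_of_pos_left _ (div_pos (Real.log_pos hs) hL0)))
    simp [hd hf s (by linarith), hd hg s (by linarith), this]

/-- Chain rule for gradients of scalar compositions. -/
theorem norm_gradient_comp {Y : Type} [NormedAddCommGroup Y] [InnerProductSpace ℝ Y]
    [FiniteDimensional ℝ Y] {φ : ℝ → ℝ} {s : Y → ℝ} {x : Y} (hφ : DifferentiableAt ℝ φ (s x))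
    (hs : DifferentiableAt ℝ s x) :
    ‖gradient (fun y => φ (s y)) x‖ = |deriv φ (s x)| * ‖gradient s x‖ := by
  have h := (hφ.hasDerivAt.comp_hasFDerivAt x hs.hasFDerivAt).fderiv
  simp only [gradient, LinearIsometryEquiv.norm_map]
  rw [show (fun y => φ (s y)) = φ ∘ s from rfl, h, norm_smul, Real.norm_eq_abs]

theorem nbCa_grad {Y : Type} [NormedAddCommGroup Y] [InnerProductSpace ℝ Y] [FiniteDimensional ℝ Y]
    {d : Y → ℝ} {x : Y} (hd : DifferentiableAt ℝ d x) (h1 : ‖gradient d x‖ ≤ 1) {θ : ℝ} (hθ : 0 < θ) (hx : x ≠ 0) :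
    ‖gradient (fun y => d y / (θ * ‖y‖)) x‖ ≤ (θ * ‖x‖)⁻¹ + |d x| * ((θ * ‖x‖) ^ 2)⁻¹ * θ := by
  have hn : 0 < ‖x‖ := norm_pos_iff.2 hx
  have h2 : ‖fderiv ℝ (fun y : Y => ‖y‖) x‖ ≤ 1 := by
    simpa using norm_fderiv_le_of_lipschitz ℝ (lipschitzWith_one_norm (E := Y))
  have h3 := (hd.hasFDerivAt.mul ((hasDerivAt_inv (x := θ * ‖x‖) (by positivity)).comp_hasFDerivAt x
    ((differentiableAt_id.norm ℝ hx).hasFDerivAt.const_mul θ))).fderiv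
  simp only [gradient, LinearIsometryEquiv.norm_map, div_eq_mul_inv] at h1 ⊢
  refine (congrArg norm h3).trans_le ((norm_add_le _ _).trans ?_)
  simp only [norm_smul, Real.norm_eq_abs, abs_neg, Function.comp_apply, id, abs_inv, abs_pow, abs_mul, abs_norm,
    abs_of_pos hθ]
  rw [add_comm, mul_assoc]
  gcongr
  · exact mul_le_of_le_one_right (by positivity) h1
  · exact mul_le_of_le_one_right hθ.le h2

/-- Logarithmic cut at distance `~ bρ` from the cone `S`.  With `d̃` from `ICone.exists_smooth`,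
`θ = b/2`, `s = d̃/(θρ)` (smooth off `0`, `‖∇s‖ ≤ 1/(θρ) + |d̃|/(θρ²)`), `f = f₁ ∘ s`, `g = g₁ ∘ s`
(`exists_logfg` with `τ/8`), `a' = θ/(2Λ)`, `R > 2Λ/θ`.  In the window `1/Λ ≤ s ≤ 1`:
`‖∇s‖ ≤ 2s/d̃`, `d ≤ 2d̃`, `a'ρ < d`.  For the supports use continuity of `s` off `0`. -/
theorem exists_logcut {S : Set (X E)} (h : ICone Γ S) {τ b : ℝ} (hτ : 0 < τ) (hb : 0 < b)
    (hb1 : b ≤ 1) : ∃ (a' R : ℝ) (f g : X E → ℝ), 0 < a' ∧ 0 < R ∧
      ContDiffOn ℝ ∞ f {0}ᶜ ∧ ContDiffOn ℝ ∞ g {0}ᶜ ∧ GInv 𝔤 f ∧ GInv 𝔤 g ∧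
      (∀ x, f x ^ 2 + g x ^ 2 = 1) ∧
      (∀ x ∈ tsupport f, R ≤ ‖x‖ → infDist x S < b * ‖x‖) ∧
      (∀ x ∈ tsupport g, R ≤ ‖x‖ → a' * ‖x‖ < infDist x S) ∧
      ∀ x, R ≤ ‖x‖ → 1 / 2 * (‖gradient f x‖ ^ 2 + ‖gradient g x‖ ^ 2) ≤
        if a' * ‖x‖ ≤ infDist x S then τ / infDist x S ^ 2 else 0 := by
  obtain ⟨f, g, Λ, hΛ, hf, hg, h1, h2, h3, h4, h5⟩ := exists_logfg (τ := τ / 8) (by positivity)
  obtain ⟨d, hd, d1, d2, d3⟩ := h.exists_smooth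
  obtain ⟨θ, rfl⟩ : ∃ θ, b = 2 * θ := ⟨b / 2, by ring⟩
  have hθ : 0 < θ := by linarith
  have hΛ0 : 0 < Λ := by linarith
  have hs : ∀ x : X E, x ≠ 0 → ContDiffAt ℝ ∞ (fun y => d y / (θ * ‖y‖)) x := fun x hx =>
    hd.contDiffAt.div (contDiffAt_const.mul (contDiffAt_norm ℝ hx)) (mul_pos hθ (norm_pos_iff.2 hx)).ne'
  have hi : ∀ φ : ℝ → ℝ, GInv 𝔤 fun y => φ (d y / (θ * ‖y‖)) := fun φ =>
    ⟨fun ξ x => by simp only [d3.1 ξ x, (ginv_norm 𝔤).1 ξ x], fun O hO x => by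
      simp only [d3.2 O hO x, (ginv_norm 𝔤).2 O hO x]⟩
  have hR : ∀ x : X E, 2 * Λ / θ + 1 ≤ ‖x‖ → x ≠ 0 ∧ 1 < θ / (2 * Λ) * ‖x‖ ∧ 2 * Λ < θ * ‖x‖ := fun x hx => by
    have e1 : 2 * Λ / θ < ‖x‖ := by linarith
    have e2 := (div_lt_iff₀' hθ).1 e1
    exact ⟨norm_pos_iff.1 (lt_trans (by positivity) e1), by rwa [div_mul_eq_mul_div, one_lt_div (by positivity)], e2⟩
  have hlow : ∀ x : X E, 2 * Λ / θ + 1 ≤ ‖x‖ → Λ⁻¹ ≤ d x / (θ * ‖x‖) →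
      2 < d x ∧ θ / (2 * Λ) * ‖x‖ < infDist x S := fun x hx hx' => by
    obtain ⟨-, e1, e2⟩ := hR x hx
    rw [le_div_iff₀ (by linarith), show Λ⁻¹ * (θ * ‖x‖) = 2 * (θ / (2 * Λ) * ‖x‖) by field_simp] at hx'
    exact ⟨by linarith, by linarith [(abs_le.1 (d1 x)).2]⟩
  refine ⟨θ / (2 * Λ), 2 * Λ / θ + 1, fun y => f (d y / (θ * ‖y‖)), fun y => g (d y / (θ * ‖y‖)), by positivity,
    by positivity, fun x hx => (hf.contDiffAt.comp x (hs x hx)).contDiffWithinAt,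
    fun x hx => (hg.contDiffAt.comp x (hs x hx)).contDiffWithinAt, hi f, hi g, fun x => h1 _,
    fun x hx hx' => ?_, fun x hx hx' => (hlow x hx' ?_).2, fun x hx => ?_⟩
  · obtain ⟨e0, -, e2⟩ := hR x hx'
    have e3 : d x / (θ * ‖x‖) ≤ 1 := by
      by_contra hlt
      refine (notMem_tsupport_iff_eventuallyEq.2 ?_) hx
      filter_upwards [(hs x e0).continuousAt.eventually_const_lt (not_le.1 hlt)] with y hy using h3 _ hy.le
    rw [div_le_one (by linarith)] at e3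
    linarith [(abs_le.1 (d1 x)).1]
  · by_contra hlt
    refine (notMem_tsupport_iff_eventuallyEq.2 ?_) hx
    filter_upwards [(hs x (hR x hx').1).continuousAt.eventually_lt_const (not_le.1 hlt)] with y hy using h2 _ hy.le
  · obtain ⟨e0, -, e2⟩ := hR x hx
    have e3 := (hs x e0).differentiableAt (by simp)
    rw [norm_gradient_comp (hf.differentiable (by simp) _) e3, norm_gradient_comp (hg.differentiable (by simp) _) e3]
    by_cases hw : d x / (θ * ‖x‖) < Λ⁻¹ ∨ 1 < d x / (θ * ‖x‖)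
    · simp only [h5 _ hw, abs_zero, zero_mul]
      split_ifs
      · simpa using div_nonneg hτ.le (sq_nonneg _)
      · simp
    push Not at hw
    obtain ⟨e4, e5⟩ := hlow x hx hw.1
    have e6 : 0 < infDist x S := lt_of_le_of_lt (by positivity) e5
    have e7 := nbCa_grad (hd.differentiable (by simp) x) (d2 x) hθ e0
    have e8 := h4 (d x / (θ * ‖x‖))
    have e9 : 0 < θ * ‖x‖ := by linarith
    rw [abs_of_pos (by linarith), show d x * ((θ * ‖x‖) ^ 2)⁻¹ * θ = (θ * ‖x‖)⁻¹ * (d x / (θ * ‖x‖) * θ) by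
      field_simp] at e7
    have e10 : ‖gradient (fun y => d y / (θ * ‖y‖)) x‖ * infDist x S ≤ 4 * (d x / (θ * ‖x‖)) := by
      have k1 : d x / (θ * ‖x‖) * θ ≤ 1 := by nlinarith [hw.2]
      have k2 := mul_le_mul_of_nonneg_left k1 (inv_pos.2 e9).le
      calc _ ≤ (2 * (θ * ‖x‖)⁻¹) * (2 * d x) :=
            mul_le_mul (by linarith) (by linarith [(abs_le.1 (d1 x)).1]) e6.le (by positivity)
        _ = _ := by ring
    have e11 := mul_le_mul_of_nonneg_left (pow_le_pow_left₀ (by positivity) e10 2)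
      (add_nonneg (sq_nonneg (deriv f (d x / (θ * ‖x‖)))) (sq_nonneg (deriv g (d x / (θ * ‖x‖)))))
    rw [if_pos e5.le, le_div_iff₀ (by positivity), mul_pow, mul_pow, sq_abs, sq_abs]
    linarith

theorem nbCb_hom {φ : X E → ℝ} (hφ : ContDiffOn ℝ ∞ φ {0}ᶜ)
    (hh : ∀ r : ℝ, 0 < r → ∀ x, φ (r • x) = φ x) :
    ∃ B : ℝ, 0 < B ∧ ∀ x, x ≠ 0 → ‖gradient φ x‖ ≤ B / ‖x‖ := by
  have ho : IsOpen ({0}ᶜ : Set (X E)) := isOpen_compl_singleton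
  have hc : ContinuousOn (fderiv ℝ φ) {0}ᶜ := hφ.continuousOn_fderiv_of_isOpen ho (by simp)
  have hsub : sphere (0 : X E) 1 ⊆ {0}ᶜ := fun u hu h0 => by
    rw [Set.mem_singleton_iff] at h0
    rw [h0] at hu
    simp at hu
  obtain ⟨B, hB⟩ := (isCompact_sphere (0 : X E) 1).exists_bound_of_continuousOn
    (f := fderiv ℝ φ) (hc.mono hsub)
  refine ⟨|B| + 1, by positivity, fun x hx => ?_⟩
  have hr : 0 < ‖x‖ := norm_pos_iff.2 hx
  have hu : ‖x‖⁻¹ • x ∈ sphere (0 : X E) 1 := by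
    rw [mem_sphere_zero_iff_norm, norm_smul, norm_inv, norm_norm, inv_mul_cancel₀ hr.ne']
  have hd : DifferentiableAt ℝ φ (‖x‖⁻¹ • x) :=
    (hφ.contDiffAt (ho.mem_nhds (hsub hu))).differentiableAt (by simp)
  have h1 : HasFDerivAt (fun y : X E => φ (‖x‖⁻¹ • y))
      ((fderiv ℝ φ (‖x‖⁻¹ • x)).comp (‖x‖⁻¹ • ContinuousLinearMap.id ℝ (X E))) x :=
    hd.hasFDerivAt.comp x ((hasFDerivAt_id x).const_smul ‖x‖⁻¹)
  have h2 : (fun y : X E => φ (‖x‖⁻¹ • y)) = φ := funext fun y => hh _ (inv_pos.2 hr) y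
  rw [h2] at h1
  have h3 : ‖gradient φ x‖ = ‖fderiv ℝ φ x‖ := by
    unfold gradient; exact LinearIsometryEquiv.norm_map _ _
  rw [h3, h1.fderiv]
  refine (ContinuousLinearMap.opNorm_comp_le _ _).trans ?_
  have h4 : ‖(‖x‖⁻¹ • ContinuousLinearMap.id ℝ (X E))‖ ≤ ‖x‖⁻¹ := by
    refine ContinuousLinearMap.opNorm_le_bound _ (inv_pos.2 hr).le fun y => ?_
    change ‖‖x‖⁻¹ • y‖ ≤ _
    rw [norm_smul, norm_inv, norm_norm]
  rw [div_eq_mul_inv]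
  exact mul_le_mul ((hB _ hu).trans (by linarith [le_abs_self B])) h4 (norm_nonneg _) (by positivity)

theorem nbCb_t (𝔤 : Lie E) (σ : Spn) {η : ℝ} (hη : 0 < η) : ∃ t : X E → ℝ,
    ContDiffOn ℝ ∞ t {0}ᶜ ∧ (∀ r : ℝ, 0 < r → ∀ x, t (r • x) = t x) ∧ GInv 𝔤 t ∧
    (∀ x, x ≠ 0 → t x < 1 → ‖wpot 𝔤 σ.G σ.s x‖ < η * ‖x‖ ^ 2) ∧
    ∀ x, x ≠ 0 → 1 / 16 ≤ t x → η / 4 * ‖x‖ ^ 2 ≤ ‖wpot 𝔤 σ.G σ.s x‖ := by
  refine ⟨fun x => ‖wpot 𝔤 σ.G σ.s x‖ ^ 2 / (η * ‖x‖ ^ 2) ^ 2, ?_, fun r hr x => ?_, ⟨fun ξ x => ?_,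
    fun O hO x => ?_⟩, fun x hx h => ?_, fun x hx h => ?_⟩
  · refine ContDiffOn.div ((contDiff_wpot 𝔤 σ.G σ.s).norm_sq ℝ).contDiffOn
      ((contDiff_const.mul (contDiff_norm_sq ℝ)).pow 2).contDiffOn fun x hx => ?_
    have : 0 < ‖x‖ := norm_pos_iff.2 hx
    positivity
  · simp only [wpot_smul, norm_smul, Real.norm_eq_abs, abs_of_pos hr, abs_of_pos (pow_pos hr 2)]
    have h1 : (η * (r * ‖x‖) ^ 2) ^ 2 = (r ^ 2) ^ 2 * (η * ‖x‖ ^ 2) ^ 2 := by ring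
    rw [h1, mul_pow, mul_div_mul_left _ _ (by positivity)]
  · have h1 := (ginv_norm_wpot 𝔤 σ).1 ξ x
    have h2 := (ginv_norm 𝔤).1 ξ x
    simp only at h1 h2 ⊢
    rw [h1, h2]
  · have h1 := (ginv_norm_wpot 𝔤 σ).2 O hO x
    have h2 := (ginv_norm 𝔤).2 O hO x
    simp only at h1 h2 ⊢
    rw [h1, h2]
  · have h0 : 0 < ‖x‖ := norm_pos_iff.2 hx
    have h1 : 0 < η * ‖x‖ ^ 2 := by positivity
    rw [div_lt_one (pow_pos h1 2)] at h
    exact lt_of_pow_lt_pow_left₀ 2 h1.le h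
  · have h0 : 0 < ‖x‖ := norm_pos_iff.2 hx
    have h1 : 0 < η * ‖x‖ ^ 2 := by positivity
    rw [le_div_iff₀ (pow_pos h1 2)] at h
    refine le_of_pow_le_pow_left₀ two_ne_zero (norm_nonneg _) ?_
    calc (η / 4 * ‖x‖ ^ 2) ^ 2 = 1 / 16 * (η * ‖x‖ ^ 2) ^ 2 := by ring
      _ ≤ _ := h

theorem nbCb_supp {t : X E → ℝ} (ht : ContDiffOn ℝ ∞ t {0}ᶜ) {u : ℝ → ℝ} {W : Set ℝ} (hW : IsOpen W)
    (hu : ∀ s ∈ W, u s = 0) {x : X E} (hx : x ∈ tsupport fun y => u (t y)) (h0 : x ≠ 0) : t x ∉ W := by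
  intro h
  have hc : ContinuousAt t x := (ht.contDiffAt (isOpen_compl_singleton.mem_nhds h0)).continuousAt
  refine (notMem_tsupport_iff_eventuallyEq.2 ?_) hx
  filter_upwards [hc.preimage_mem_nhds (hW.mem_nhds h)] with y hy using hu _ hy

/-- Homogeneous cut at the edge of the valley region.  `q = ‖w‖²/ρ⁴` is smooth off `0` with
`‖∇q‖ ≤ B/ρ` (`exists_norm_wpot`); `f = f₀(2q/η² - 1/2)`, `g = g₀(2q/η² - 1/2)`,
`χ = g₀(8q/η² - 1/2)` with `f₀, g₀` from `exists_fg` (`g₀ t = 1` for `t ≥ 1`); the window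
`1/4 ≤ q/η² ≤ 3/4` lies in `{χ = 1}`. -/
theorem exists_valcut (𝔤 : Lie E) (σ : Spn) {η : ℝ} (hη : 0 < η) :
    ∃ (b : ℝ) (f g χ : X E → ℝ), 0 < b ∧
      ContDiffOn ℝ ∞ f {0}ᶜ ∧ ContDiffOn ℝ ∞ g {0}ᶜ ∧ ContDiffOn ℝ ∞ χ {0}ᶜ ∧
      GInv 𝔤 f ∧ GInv 𝔤 g ∧ GInv 𝔤 χ ∧ (∀ x, f x ^ 2 + g x ^ 2 = 1) ∧ (∀ x, |χ x| ≤ 1) ∧
      (∀ x ∈ tsupport f, x ≠ 0 → ‖wpot 𝔤 σ.G σ.s x‖ < η * ‖x‖ ^ 2) ∧
      (∀ x ∈ tsupport g, x ≠ 0 → η / 4 * ‖x‖ ^ 2 ≤ ‖wpot 𝔤 σ.G σ.s x‖) ∧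
      (∀ x ∈ tsupport χ, x ≠ 0 → η / 4 * ‖x‖ ^ 2 ≤ ‖wpot 𝔤 σ.G σ.s x‖) ∧
      (∀ x, x ≠ 0 → ‖gradient χ x‖ ≤ b / ‖x‖) ∧
      ∀ x, x ≠ 0 → 1 / 2 * (‖gradient f x‖ ^ 2 + ‖gradient g x‖ ^ 2) ≤ b / ‖x‖ ^ 2 * χ x ^ 2 := by
  obtain ⟨f, g, -, hf, hg, hfg, hg0, hf0, hpos, -, -⟩ := exists_fg
  obtain ⟨t, ht, hh, hinv, hlt, hge⟩ := nbCb_t 𝔤 σ hη
  have sm : ∀ {u : ℝ → ℝ} (c : ℝ), ContDiff ℝ ∞ u → ContDiffOn ℝ ∞ (fun x => u (c * t x - 1 / 2)) {0}ᶜ :=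
    fun c hu => hu.comp_contDiffOn ((contDiffOn_const.mul ht).sub contDiffOn_const)
  have inv : ∀ (u : ℝ → ℝ) (c : ℝ), GInv 𝔤 fun x => u (c * t x - 1 / 2) := fun u c =>
    ⟨fun ξ x => by simp only [hinv.1 ξ x], fun O hO x => by simp only [hinv.2 O hO x]⟩
  obtain ⟨B1, hB1, h1⟩ := nbCb_hom (sm 2 hf) fun r hr x => by simp only [hh r hr x]
  obtain ⟨B2, hB2, h2⟩ := nbCb_hom (sm 2 hg) fun r hr x => by simp only [hh r hr x]
  obtain ⟨B3, hB3, h3⟩ := nbCb_hom (sm 8 hg) fun r hr x => by simp only [hh r hr x]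
  refine ⟨B1 ^ 2 + B2 ^ 2 + B3, fun x => f (2 * t x - 1 / 2), fun x => g (2 * t x - 1 / 2),
    fun x => g (8 * t x - 1 / 2), by positivity, sm 2 hf, sm 2 hg, sm 8 hg, inv f 2, inv g 2, inv g 8,
    fun x => hfg _, fun x => ?_, fun x hx h0 => ?_, fun x hx h0 => ?_, fun x hx h0 => ?_,
    fun x h0 => ?_, fun x h0 => ?_⟩
  · rw [← sq_le_one_iff_abs_le_one]
    nlinarith [hfg (8 * t x - 1 / 2), sq_nonneg (f (8 * t x - 1 / 2))]
  · have := nbCb_supp ht (u := fun s => f (2 * s - 1 / 2)) (W := Set.Ioi (3 / 4)) isOpen_Ioi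
      (fun s hs => hf0 _ (by rw [Set.mem_Ioi] at hs; linarith)) hx h0
    rw [Set.mem_Ioi, not_lt] at this
    exact hlt x h0 (by linarith)
  · have := nbCb_supp ht (u := fun s => g (2 * s - 1 / 2)) (W := Set.Iio (1 / 16)) isOpen_Iio
      (fun s hs => hg0 _ (by rw [Set.mem_Iio] at hs; linarith)) hx h0
    rw [Set.mem_Iio, not_lt] at this
    exact hge x h0 this
  · have := nbCb_supp ht (u := fun s => g (8 * s - 1 / 2)) (W := Set.Iio (1 / 16)) isOpen_Iio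
      (fun s hs => hg0 _ (by rw [Set.mem_Iio] at hs; linarith)) hx h0
    rw [Set.mem_Iio, not_lt] at this
    exact hge x h0 this
  · refine (h3 x h0).trans ?_
    gcongr
    nlinarith [sq_nonneg B1, sq_nonneg B2]
  · have hx : 0 < ‖x‖ := norm_pos_iff.2 h0
    rcases lt_or_ge (t x) (3 / 16) with h | h
    · have hc : ContinuousAt t x := (ht.contDiffAt (isOpen_compl_singleton.mem_nhds h0)).continuousAt
      have hev : ∀ᶠ y in 𝓝 x, t y < 3 / 16 := hc.eventually (gt_mem_nhds h)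
      have e1 : (fun y => g (2 * t y - 1 / 2)) =ᶠ[𝓝 x] fun _ => 0 := by
        filter_upwards [hev] with y hy using hg0 _ (by linarith)
      have e2 : (fun y => f (2 * t y - 1 / 2)) =ᶠ[𝓝 x] fun _ => 1 := by
        filter_upwards [hev] with y hy
        have a1 := hfg (2 * t y - 1 / 2)
        rw [hg0 _ (by linarith)] at a1
        have a2 := (hpos (2 * t y - 1 / 2)).1
        nlinarith
      rw [e1.gradient_eq, e2.gradient_eq, gradient_fun_const, gradient_fun_const, norm_zero]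
      have : 0 ≤ (B1 ^ 2 + B2 ^ 2 + B3) / ‖x‖ ^ 2 * g (8 * t x - 1 / 2) ^ 2 := by positivity
      simpa using this
    · have a1 := hfg (8 * t x - 1 / 2)
      rw [hf0 _ (by linarith)] at a1
      have a2 : g (8 * t x - 1 / 2) ^ 2 = 1 := by linarith
      have a3 := pow_le_pow_left₀ (norm_nonneg _) (h1 x h0) 2
      have a4 := pow_le_pow_left₀ (norm_nonneg _) (h2 x h0) 2
      rw [div_pow] at a3 a4
      have a5 : 0 ≤ B1 ^ 2 / ‖x‖ ^ 2 := by positivity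
      have a6 : 0 ≤ B2 ^ 2 / ‖x‖ ^ 2 := by positivity
      have a7 : 0 ≤ B3 / ‖x‖ ^ 2 := by positivity
      simp only [a2, mul_one, add_div]
      linarith

end Crest.Agent.R330

end
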