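import Crest.Agent.R330.NB.B
import Crest.Agent.R330.NB.C

/-! # Row 330, NB/D (statements frozen; see `R330/Blueprint.lean`, `R330/NB/Defs.lean`) -/

set_option autoImplicit false
set_option linter.unusedSectionVars false

noncomputable section

open MeasureTheory Filter Topology Metric
open scoped InnerProductSpace ContDiff Matrix
open Crest.MathPhysics.MatrixQM (GammaNine)

namespace Crest.Agent.R330

variable {E F : Type} [NormedAddCommGroup E] [InnerProductSpace ℝ E] [FiniteDimensional ℝ E]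
  [MeasurableSpace E] [BorelSpace E]
  [NormedAddCommGroup F] [InnerProductSpace ℂ F] [FiniteDimensional ℂ F]
  {K : Type} [Group K] [TopologicalSpace K] [IsTopologicalGroup K]
  [CompactSpace K] [MeasurableSpace K] [BorelSpace K]
  {𝔤 : Lie E} {Γ : Grp 𝔤 K} {C : Cl (Th E) F} {σ : Spn}

theorem nbDa_norm (r : ℝ) (v : F) : ‖(r : ℂ) • v‖ ^ 2 = r ^ 2 * ‖v‖ ^ 2 := by
  rw [norm_smul, mul_pow, Complex.norm_real, Real.norm_eq_abs, sq_abs]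

/-- Removing the valley condition.  `tsupport ψ ⊆ {R ≤ ρ}`; `ims_int` with `exists_valcut`;
`fψ` is supported in `val η` (`R > η⁻¹`), `gψ` is handled by `off_valley (η/4)` (`cρ⁴ ≥ ρ ≥ W`);
the IMS error is `≤ b∫ρ⁻²χ²|ψ|² = b∫ρ⁴|φ|²`, `φ = ρ⁻³χψ` (`Cls.smul`), bounded by `off_valley` and
`norm_Qe_smul_le` (`|h| ≤ R⁻³`, `|∇h| ≤ (b+3)R⁻³/ρ`). -/
theorem step_zero {η δ : ℝ} (hη : 0 < η) (hδ : 0 < δ) : ∃ R : ℝ, 2 ≤ R ∧ ∀ ε 𝒱, Good 1 ε 𝒱 →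
    ∀ W : X E → ℝ, Measurable W → (∀ x, R ≤ ‖x‖ → 0 ≤ W x ∧ W x ≤ ‖x‖) →
      LB 𝔤 C σ ε 𝒱 W (val 𝔤 σ η) → ∀ ψ, Cls 𝔤 C σ.G 𝒱 ψ → (∀ x, ‖x‖ ≤ R → ψ x = 0) →
        ∫ x, W x * ‖ψ x‖ ^ 2 ≤ (1 + δ) * (∫ x, ‖Qe 𝔤 C σ ε ψ x‖ ^ 2) +
          δ * ∫ x, 1 / ‖x‖ ^ 2 * ‖ψ x‖ ^ 2 := by
  obtain ⟨b, f, g, χ, hb, hf, hg, hχ, fi, gi, χi, hfg, hχ1, sf, sg, sχ, hdχ, herr⟩ :=
    exists_valcut 𝔤 σ hη
  obtain ⟨c, R₀, hc, hR₀, hoff⟩ :=
    off_valley (𝔤 := 𝔤) (C := C) (σ := σ) (show 0 < η / 4 by positivity)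
  set κ : ℝ := δ / (2 + b ^ 2) with hκ
  have hκ0 : 0 < κ := by positivity
  have hκ1 : κ * (2 + b ^ 2) = δ := div_mul_cancel₀ _ (by positivity)
  have p1 : 0 < η⁻¹ := by positivity
  have p2 : 0 < c⁻¹ := by positivity
  have p3 : 0 < b / (κ * c) := by positivity
  set R : ℝ := 2 + R₀ + η⁻¹ + c⁻¹ + b / (κ * c) with hR
  refine ⟨R, by linarith, fun ε 𝒱 hG W hW hWb hLB ψ hψ h0 => ?_⟩
  have hs : tsupport ψ ⊆ {x | R ≤ ‖x‖} :=
    closure_minimal (fun x hx => (not_le.1 fun h => hx (h0 x h)).le)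
      (isClosed_le continuous_const continuous_norm)
  have hne : ∀ x : X E, R ≤ ‖x‖ → x ≠ 0 := fun x hx => norm_pos_iff.1 (by linarith)
  have hsU : tsupport ψ ⊆ ({0}ᶜ : Set (X E)) := fun x hx => hne x (hs hx)
  have hU : IsOpen ({0}ᶜ : Set (X E)) := isOpen_compl_singleton
  obtain ⟨cf, cg, tf, tg, ierr, hims⟩ := ims_int (ε := ε) hG.2.2.1 hψ hU hsU hf hg fi gi
    fun x _ => hfg x
  have cχ := hψ.smul hG.2.2.1 hU hsU hχ χi.1 χi.2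
  have tχ : tsupport (fun x => (χ x : ℂ) • ψ x) ⊆ tsupport ψ ∩ tsupport χ :=
    Set.subset_inter (closure_mono fun x hx h => hx (by simp [h]))
      (closure_mono fun x hx h => hx (by simp [h]))
  have tW : Tame W {x | R ≤ ‖x‖} := ⟨hW, fun S hS hK => by
    obtain ⟨r, hr⟩ := hK.isBounded.exists_norm_le
    exact ⟨r, fun x hx => by
      rw [abs_of_nonneg (hWb x (hS hx)).1]; exact (hWb x (hS hx)).2.trans (hr x hx)⟩⟩
  have t4 : Tame (fun x : X E => c * ‖x‖ ^ 4) Set.univ :=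
    Tame.of_continuousOn (by fun_prop) (by fun_prop)
  have i1 := tW.integrable cf.1 (fun x hx => hs (tf hx).1)
  have i2 := tW.integrable cg.1 (fun x hx => hs (tg hx).1)
  have e1 : ∫ x, W x * ‖ψ x‖ ^ 2 =
      (∫ x, W x * ‖(f x : ℂ) • ψ x‖ ^ 2) + ∫ x, W x * ‖(g x : ℂ) • ψ x‖ ^ 2 := by
    rw [← integral_add i1 i2]
    refine integral_congr_ae (.of_forall fun x => ?_)
    simp only [nbDa_norm]
    linear_combination (-(W x * ‖ψ x‖ ^ 2)) * hfg x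
  have h1 := hLB _ cf fun x hx =>
    ⟨sf x (tf hx).2 (hsU (tf hx).1), lt_of_lt_of_le (by linarith) (hs (tf hx).1)⟩
  have h2 := hoff ε 𝒱 hG _ cg fun x hx =>
    ⟨sg x (tg hx).2 (hsU (tg hx).1), le_trans (by linarith) (hs (tg hx).1)⟩
  have h3 := hoff ε 𝒱 hG _ cχ fun x hx =>
    ⟨sχ x (tχ hx).2 (hsU (tχ hx).1), le_trans (by linarith) (hs (tχ hx).1)⟩
  have h4 := norm_Qe_smul_le (𝔤 := 𝔤) (C := C) (σ := σ) (ε := ε) hψ.1 hU hsU hχ (a := 1)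
    (b := b ^ 2) (fun x _ => hχ1 x) (fun x hx => by
      rw [mul_one_div, ← div_pow]
      exact pow_le_pow_left₀ (norm_nonneg _) (hdχ x (hsU hx)) 2) (by simp)
  have h5 : ∫ x, W x * ‖(g x : ℂ) • ψ x‖ ^ 2 ≤ ∫ x, c * ‖x‖ ^ 4 * ‖(g x : ℂ) • ψ x‖ ^ 2 := by
    refine integral_mono i2 (t4.integrable cg.1 (Set.subset_univ _)) fun x => ?_
    rcases le_total ‖x‖ R with hx | hx
    · simp [h0 x hx]
    · refine mul_le_mul_of_nonneg_right ((hWb x hx).2.trans ?_) (sq_nonneg _)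
      have h6 : 1 ≤ c * ‖x‖ := by
        rw [← inv_mul_cancel₀ hc.ne', mul_comm]
        exact mul_le_mul_of_nonneg_left (by linarith) hc.le
      have h7 : ‖x‖ ≤ ‖x‖ ^ 3 := le_self_pow₀ (by linarith) (by norm_num)
      nlinarith [norm_nonneg x]
  have h6 : ∫ x, 1 / 2 * (‖gradient f x‖ ^ 2 + ‖gradient g x‖ ^ 2) * ‖ψ x‖ ^ 2 ≤
      κ * ∫ x, c * ‖x‖ ^ 4 * ‖(χ x : ℂ) • ψ x‖ ^ 2 := by
    rw [← integral_const_mul]
    refine integral_mono ierr ((t4.integrable cχ.1 (Set.subset_univ _)).const_mul κ) fun x => ?_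
    rcases le_total ‖x‖ R with hx | hx
    · simp [h0 x hx]
    · have hx0 : 0 < ‖x‖ := by linarith
      have h7 : b / ‖x‖ ^ 2 ≤ κ * (c * ‖x‖ ^ 4) := by
        rw [div_le_iff₀ (by positivity)]
        have h8 : b ≤ ‖x‖ * (κ * c) := (div_le_iff₀ (by positivity)).1 (by linarith)
        have h9 : ‖x‖ ≤ ‖x‖ ^ 6 := le_self_pow₀ (by linarith) (by norm_num)
        nlinarith [mul_le_mul_of_nonneg_right h9 (mul_pos hκ0 hc).le]
      simp only [nbDa_norm]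
      refine (mul_le_mul_of_nonneg_right ((herr x (hne x hx)).trans
        (mul_le_mul_of_nonneg_right h7 (sq_nonneg _))) (sq_nonneg _)).trans (le_of_eq ?_)
      ring
  have n1 : 0 ≤ ∫ x, ‖Qe 𝔤 C σ ε ψ x‖ ^ 2 := integral_nonneg fun x => sq_nonneg _
  have n2 : 0 ≤ ∫ x, 1 / ‖x‖ ^ 2 * ‖ψ x‖ ^ 2 := integral_nonneg fun x => by positivity
  have h7 := mul_le_mul_of_nonneg_left (h3.trans h4) hκ0.le
  rw [e1, ← hκ1]
  nlinarith [mul_nonneg hκ0.le n2, mul_nonneg (mul_nonneg hκ0.le (sq_nonneg b)) n1]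

/-- End of the induction.  `infDist x {0} = ‖x‖`, so `val η ⊆ regA {0} (1/2) η`; `LB.mono` to
`W = (27/25)/ρ² + β'ε`, `β' = min β 1`; `step_zero` with `δ = 1/50`;
`𝒱 = ∅` for `ε = 0`, `𝒱 = {(V0, k)}` otherwise (`V0_skew`); `c = β'/2`, `ε₀ = β'`. -/
theorem hinf_of_tt (h : TT 𝔤 C σ ({0} : Set (X E))) : Hinf 𝔤 C σ := by
  obtain ⟨β, hβ, h⟩ := h
  obtain ⟨η, hη, h⟩ := h (1 / 2) (by norm_num)
  obtain ⟨R, hR, hz⟩ := step_zero (𝔤 := 𝔤) (C := C) (σ := σ) hη (δ := 1 / 50) (by norm_num)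
  have hb : 0 < min β 1 := lt_min hβ one_pos
  refine ⟨R, min β 1, min β 1 / 2, hb, half_pos hb, fun ε k hε hε' ψ hψ h0 => ?_⟩
  obtain ⟨𝒱, hG, hC⟩ : ∃ 𝒱, Good (min β 1) ε 𝒱 ∧ Cls 𝔤 C σ.G 𝒱 ψ := by
    rcases hψ.2 with h1 | ⟨h1, h2⟩
    · exact ⟨∅, ⟨hε, hε', fun _ hp => absurd hp (Set.notMem_empty _), Or.inl h1⟩, hψ.1⟩
    · refine ⟨{(V0, k)}, ⟨hε, hε', ?_, Or.inr ⟨k, h1, rfl⟩⟩, hψ.1.1, hψ.1.2.1, ?_⟩
      · rintro _ rfl; exact V0_skew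
      · rintro _ rfl; exact h2
  have hpos : ∀ x ∈ val 𝔤 σ η, 0 < ‖x‖ := fun x hx => (inv_pos.2 hη).trans hx.2
  have hsub : val 𝔤 σ η ⊆ regA 𝔤 σ {0} (1 / 2) η := fun x hx =>
    ⟨hx, by rw [infDist_singleton, dist_zero_right]; linarith [hpos x hx]⟩
  have hm : Measurable fun x : X E => 27 / 25 / ‖x‖ ^ 2 + min β 1 * ε := by fun_prop
  have h1 := hz ε 𝒱 (hG.mono (min_le_right _ _)) _ hm (fun x hx => ⟨by positivity, by
      have h2 : 27 / 25 / ‖x‖ ^ 2 ≤ 1 := by rw [div_le_one (by nlinarith)]; nlinarith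
      have h3 : min β 1 * ε ≤ 1 := mul_le_one₀ (min_le_right _ _) hε (hε'.trans (min_le_right _ _))
      linarith⟩)
    ((h ε 𝒱 (hG.mono (min_le_left _ _))).mono hsub ((tame_W1 _ _ _ _ (by norm_num) hη).mono hsub)
      (Tame.of_continuousOn hm (ContinuousOn.add (continuousOn_const.div (by fun_prop)
        fun x hx => pow_ne_zero _ (hpos x hx).ne') continuousOn_const)) fun x _ =>
      (add_le_add le_rfl (mul_le_mul_of_nonneg_right (min_le_left _ _) hε)).trans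
        (le_add_of_nonneg_right (by positivity))) ψ hC h0
  have hs : tsupport ψ ⊆ {x | R ≤ ‖x‖} :=
    closure_minimal (fun x hx => le_of_not_ge fun h => hx (h0 x h))
      (isClosed_le continuous_const continuous_norm)
  have i₁ : Integrable fun x => 1 / ‖x‖ ^ 2 * ‖ψ x‖ ^ 2 :=
    (Tame.of_continuousOn (by fun_prop) (continuousOn_const.div (by fun_prop) fun x hx =>
      pow_ne_zero _ (by have : R ≤ ‖x‖ := hx; linarith : (0 : ℝ) < ‖x‖).ne')).integrable hC.1 hs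
  have i₂ : Integrable fun x => 1 * ‖ψ x‖ ^ 2 :=
    (Tame.of_continuousOn measurable_const continuousOn_const).integrable hC.1 hs
  have e : ∀ a b : ℝ, ∫ x, (a / ‖x‖ ^ 2 + b) * ‖ψ x‖ ^ 2 =
      a * (∫ x, 1 / ‖x‖ ^ 2 * ‖ψ x‖ ^ 2) + b * ∫ x, 1 * ‖ψ x‖ ^ 2 := fun a b => by
    rw [← integral_const_mul, ← integral_const_mul, ← integral_add (i₁.const_mul _) (i₂.const_mul _)]
    exact integral_congr_ae (.of_forall fun x => by ring)
  rw [e] at h1 ⊢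
  have p₁ : 0 ≤ ∫ x, 1 / ‖x‖ ^ 2 * ‖ψ x‖ ^ 2 := integral_nonneg fun x => by positivity
  have p₂ : 0 ≤ min β 1 * ε * ∫ x, 1 * ‖ψ x‖ ^ 2 :=
    mul_nonneg (mul_nonneg hb.le hε) (integral_nonneg fun x => by positivity)
  linarith

/-- The induction step.  `β = min β₂ (β₁/2)` (`β₁` from `TT S`, `β₂` from `Piece`),
`exists_logcut` with `τ = β`, `η = min (η₁, η₂, R⁻¹)`, `LB.glue` with
`Ω₁ = regB S' S a b η₂`, `Ω₂ = regA S a' η₁`, `U = {0}ᶜ`.  Where `g ≠ 0`: `0 < a'ρ < d ≤ d'`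
(`infDist_le_infDist_of_subset`), so `β₁/d² ≥ β/d'² + β/d²`. -/
theorem tt_step {S' S : Set (X E)} (h' : ICone Γ S') (h : ICone Γ S) (hsub : S' ⊆ S)
    (hP : Piece 𝔤 C σ S' S) (hT : TT 𝔤 C σ S) : TT 𝔤 C σ S' := by
  obtain ⟨β₁, hβ₁, hT⟩ := hT
  obtain ⟨β₂, hβ₂, hP⟩ := hP
  set β := min β₂ (β₁ / 2) with hβd
  have hβ : 0 < β := lt_min hβ₂ (half_pos hβ₁)
  have b₂ : β ≤ β₂ := min_le_left _ _
  have b₁ : β ≤ β₁ / 2 := min_le_right _ _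
  refine ⟨β, hβ, fun a ha => ?_⟩
  obtain ⟨b, hb, hb1, hP⟩ := hP a ha
  obtain ⟨a', R, f, g, ha', hR, hf, hg, hfi, hgi, hfg, sf, sg, herr⟩ := exists_logcut h hβ hb hb1
  obtain ⟨η₂, hη₂, hP⟩ := hP a' ha'
  obtain ⟨η₁, hη₁, hT⟩ := hT a' ha'
  have hη : 0 < min (min η₁ η₂) R⁻¹ := lt_min (lt_min hη₁ hη₂) (inv_pos.2 hR)
  have hRx : ∀ x ∈ regA 𝔤 σ S' a (min (min η₁ η₂) R⁻¹), R ≤ ‖x‖ := fun x hx =>
    ((le_inv_comm₀ hR hη).2 (min_le_right _ _)).trans hx.1.2.le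
  refine ⟨_, hη, fun ε 𝒱 hG => LB.glue hG.2.2.1 isOpen_compl_singleton (fun x hx h0 => ?_) hf hg hfi hgi
    (fun x _ => hfg x) (hP ε 𝒱 (hG.mono b₂)) (hT ε 𝒱 (hG.mono (by linarith)))
    (fun x hx => ⟨regA_mono S' a hη ((min_le_left _ _).trans (min_le_right _ _)) hx.1,
      sf x hx.2 (hRx x hx.1)⟩)
    (fun x hx => ⟨val_mono hη ((min_le_left _ _).trans (min_le_left _ _)) hx.1.1, sg x hx.2 (hRx x hx.1)⟩)
    (tame_W1 _ _ _ _ ha hη) ((tame_W2 _ _ _ _ _ ha ha' hη₂).mono fun x hx => hx.1)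
    (tame_W1 _ _ _ _ ha' hη₁) fun x hx => ?_⟩
  · have := hRx x hx
    rw [Set.mem_singleton_iff.1 h0, norm_zero] at this
    linarith
  have hx0 : 0 < ‖x‖ := hR.trans_le (hRx x hx)
  have he := herr x (hRx x hx)
  have hε := hG.1
  have e₂ : W1 S' (27 / 25) β ε x ≤ W1 S' (27 / 25) β₂ ε x := by
    unfold W1; gcongr
  unfold W2
  split_ifs at he ⊢ with hc
  · have hd : 0 < infDist x S := (mul_pos ha' hx0).trans_le hc
    have e₃ : β / infDist x S ^ 2 ≤ β₂ / infDist x S ^ 2 := by gcongr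
    have e₄ : β / infDist x S' ^ 2 ≤ β / infDist x S ^ 2 := by
      gcongr
      exact infDist_le_infDist_of_subset hsub h'.nonempty
    have e₅ : 2 * β / infDist x S ^ 2 ≤ β₁ / infDist x S ^ 2 := by gcongr; linarith
    have e₆ : W1 S' (27 / 25) β ε x + β / infDist x S ^ 2 ≤ W1 S (27 / 25) β₁ ε x := by
      have : β * ε ≤ β₁ * ε := mul_le_mul_of_nonneg_right (by linarith) hε
      rw [mul_div_assoc] at e₅
      unfold W1; linarith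
    calc _ ≤ (W1 S' (27 / 25) β ε x + β / infDist x S ^ 2) * (f x ^ 2 + g x ^ 2) := by
          rw [hfg, mul_one]; linarith
      _ ≤ _ := by rw [mul_add]; gcongr
  · have hg0 : g x = 0 := by_contra fun hg0 => hc (sg x (subset_tsupport _ hg0) (hRx x hx)).le
    have := hfg x
    rw [hg0] at this ⊢
    rw [show f x ^ 2 = 1 by linarith]
    linarith

end Crest.Agent.R330

end
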