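import Crest.Agent.R330.IA2

/-!
# Row 330, block NB: definitions (frozen)

The N-body induction.  `S' ⊆ S` are closed invariant cones (`ICone`), `d' = infDist · S'`,
`d = infDist · S`, `ρ = ‖x‖`.  `TT S'` is the lower bound away from `S'` inside the valley region;
`Piece S' S` the lower bound near `S` and away from `S'`.  `Piece S' S ∧ TT S → TT S'` (one IMS cut
with a logarithmic cut-off), `TT {0} → Hinf`.  `Piece` comes from finitely many `Chart`s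
(Born–Oppenheimer + covering lemma).  Partitions of `Fin N` are labellings `Fin N → Fin N`.
-/

set_option autoImplicit false
set_option linter.unusedSectionVars false

noncomputable section

open MeasureTheory Filter Topology Metric
open scoped InnerProductSpace ContDiff Matrix
open Crest.MathPhysics.MatrixQM (GammaNine)

namespace Crest.Agent.R330

section Ana

variable {E F : Type} [NormedAddCommGroup E] [InnerProductSpace ℝ E] [FiniteDimensional ℝ E]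
  [MeasurableSpace E] [BorelSpace E]
  [NormedAddCommGroup F] [InnerProductSpace ℂ F] [FiniteDimensional ℂ F]
  {K : Type} [Group K] [TopologicalSpace K] [IsTopologicalGroup K]
  [CompactSpace K] [MeasurableSpace K] [BorelSpace K]

/-- Admissible pairs (deformation parameter, rotation weights). -/
def Good (ε₁ ε : ℝ) (𝒱 : Wts) : Prop :=
  0 ≤ ε ∧ ε ≤ ε₁ ∧ 𝒱.OK ∧ (ε = 0 ∨ ∃ k : ℝ, 0 ≤ k ∧ (V0, k) ∈ 𝒱)

/-- Lower bound `∫ W |ψ|² ≤ ‖Q_ε ψ‖²` for test functions supported in `Ω`. -/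
def LB (𝔤 : Lie E) (C : Cl (Th E) F) (σ : Spn) (ε : ℝ) (𝒱 : Wts) (W : X E → ℝ) (Ω : Set (X E)) :
    Prop :=
  ∀ ψ, Cls 𝔤 C σ.G 𝒱 ψ → tsupport ψ ⊆ Ω → ∫ x, W x * ‖ψ x‖ ^ 2 ≤ ∫ x, ‖Qe 𝔤 C σ ε ψ x‖ ^ 2

/-- Measurable and bounded on the compact subsets of `Ω`. -/
def Tame (W : X E → ℝ) (Ω : Set (X E)) : Prop :=
  Measurable W ∧ ∀ S ⊆ Ω, IsCompact S → ∃ b, ∀ x ∈ S, |W x| ≤ b

/-- Gauge and rotation invariant scalar functions. -/
def GInv (𝔤 : Lie E) (χ : X E → ℝ) : Prop :=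
  (∀ ξ x, χ (rexp' (lift 9 (𝔤.br ξ)) x) = χ x) ∧ RotInv χ

/-- The valley region. -/
def val (𝔤 : Lie E) (σ : Spn) (η : ℝ) : Set (X E) :=
  {x | ‖wpot 𝔤 σ.G σ.s x‖ < η * ‖x‖ ^ 2 ∧ η⁻¹ < ‖x‖}

/-- In the valley region, away from `S'`. -/
def regA (𝔤 : Lie E) (σ : Spn) (S' : Set (X E)) (a η : ℝ) : Set (X E) :=
  {x | x ∈ val 𝔤 σ η ∧ a * ‖x‖ < infDist x S'}

/-- In the valley region, away from `S'`, near `S`. -/
def regB (𝔤 : Lie E) (σ : Spn) (S' S : Set (X E)) (a b η : ℝ) : Set (X E) :=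
  {x | x ∈ regA 𝔤 σ S' a η ∧ infDist x S < b * ‖x‖}

/-- `A/ρ² + βε + β/d'²`. -/
def W1 (S' : Set (X E)) (A β ε : ℝ) (x : X E) : ℝ :=
  A / ‖x‖ ^ 2 + β * ε + β / infDist x S' ^ 2

/-- `A/ρ² + βε + β/d'² + β 1_{a'ρ ≤ d}/d²`. -/
def W2 (S' S : Set (X E)) (A β ε a' : ℝ) (x : X E) : ℝ :=
  W1 S' A β ε x + if a' * ‖x‖ ≤ infDist x S then β / infDist x S ^ 2 else 0

/-- Lower bound away from `S'`. -/
def TT (𝔤 : Lie E) (C : Cl (Th E) F) (σ : Spn) (S' : Set (X E)) : Prop :=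
  ∃ β : ℝ, 0 < β ∧ ∀ a : ℝ, 0 < a → ∃ η : ℝ, 0 < η ∧ ∀ ε 𝒱, Good β ε 𝒱 →
    LB 𝔤 C σ ε 𝒱 (W1 S' (27 / 25) β ε) (regA 𝔤 σ S' a η)

/-- Lower bound near `S`, away from `S'`. -/
def Piece (𝔤 : Lie E) (C : Cl (Th E) F) (σ : Spn) (S' S : Set (X E)) : Prop :=
  ∃ β : ℝ, 0 < β ∧ ∀ a : ℝ, 0 < a → ∃ b : ℝ, 0 < b ∧ b ≤ 1 ∧ ∀ a' : ℝ, 0 < a' → ∃ η : ℝ, 0 < η ∧
    ∀ ε 𝒱, Good β ε 𝒱 → LB 𝔤 C σ ε 𝒱 (W2 S' S (27 / 25) β ε a') (regB 𝔤 σ S' S a b η)

/-- Closed cones invariant under the gauge group and the rotations. -/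
structure ICone {𝔤 : Lie E} (Γ : Grp 𝔤 K) (S : Set (X E)) : Prop where
  zero : (0 : X E) ∈ S
  smul : ∀ (r : ℝ), ∀ x ∈ S, r • x ∈ S
  ax : ∀ k, ∀ x ∈ S, Γ.ax k x ∈ S
  rot : ∀ O : Matrix (Fin 9) (Fin 9) ℝ, Oᵀ * O = 1 → ∀ x ∈ S, mat O x ∈ S
  closed : IsClosed S

/-- A gauge-fixed chart around the linear stratum `A ⊆ S`. -/
def Chart {𝔤 : Lie E} (Γ : Grp 𝔤 K) (C : Cl (Th E) F) (σ : Spn) (S' S A : Set (X E)) : Prop :=
  ∀ᶠ β in 𝓝[>] (0 : ℝ), ∀ a : ℝ, 0 < a → ∀ᶠ b in 𝓝[>] (0 : ℝ), ∃ p : X E → ℝ,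
    ContDiff ℝ ∞ p ∧ (∀ x, 0 ≤ p x) ∧ RotInv p ∧ ∀ a' : ℝ, 0 < a' → ∀ᶠ η in 𝓝[>] (0 : ℝ),
      (∀ x ∈ regB 𝔤 σ S' S a b η, ‖fderiv ℝ (Γ.avg p) x‖ ≤ 1 / 50 / ‖x‖ * Γ.avg p x) ∧
      (∀ x ∈ regB 𝔤 σ S' S a b η, (∃ z ∈ A, ‖x - z‖ = infDist x S) → 0 < p x) ∧
      ∀ ε 𝒱, Good β ε 𝒱 → ∀ ψ, Cls 𝔤 C σ.G 𝒱 ψ → tsupport ψ ⊆ regB 𝔤 σ S' S a b η →
        ∫ x, p x * (W2 S' S (23 / 20) β ε a' x * ‖ψ x‖ ^ 2) ≤
          (1 + 1 / 50) * ∫ x, p x * ‖Qe 𝔤 C σ ε ψ x‖ ^ 2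

variable {Z L H : Type}
  [NormedAddCommGroup Z] [InnerProductSpace ℝ Z] [FiniteDimensional ℝ Z]
  [NormedAddCommGroup L] [InnerProductSpace ℝ L] [FiniteDimensional ℝ L]
  [NormedAddCommGroup H] [InnerProductSpace ℝ H] [FiniteDimensional ℝ H]
  {P : Type} [Fintype P]

/-- Position of a Levi stratum relative to the cones `S' ⊆ S`. -/
structure Levi.Geo {𝔤 : Lie E} (D : Levi 𝔤 Z L H P) (S' S : Set (X E)) : Prop where
  up : ∃ C₁ : ℝ, 0 < C₁ ∧ ∀ z p, infDist (liftI 9 D.iZ z) S' ≤ C₁ * D.M p z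
  low : ∀ z, ∃ p, D.M p z ≤ 2 * infDist (liftI 9 D.iZ z) S'
  mem : ∀ z, liftI 9 D.iZ z ∈ S
  light : ∀ x : X E, (∀ i j, 𝔤.br (x i) (x j) = 0) → D.yc x = 0 →
    (∀ p, 4 * ‖D.lc x‖ ≤ D.M p (D.zc x)) → ‖D.lc x‖ ≤ infDist x S

end Ana

/-! ## Block systems -/

/-- Labellings (= partitions) of `Fin N`. -/
abbrev Lab (N : ℕ) := Fin N → Fin N

/-- `π` refines `σ`. -/
def Lab.Ref {N : ℕ} (π σ : Lab N) : Prop := ∀ a b, π a = π b → σ a = σ b

/-- Number of clusters. -/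
def Lab.ncl {N : ℕ} (π : Lab N) : ℕ := (Finset.univ.image π).card

/-- Pairs of `π`-clusters (labels `p.1 < p.2`) inside the same `σ`-block. -/
abbrev Pr {N : ℕ} (σ π : Lab N) :=
  {p : Fin N × Fin N // p.1 < p.2 ∧ ∃ a b, π a = p.1 ∧ π b = p.2 ∧ σ a = σ b}

section BS

variable {E : Type} [NormedAddCommGroup E] [InnerProductSpace ℝ E] [FiniteDimensional ℝ E]
  {N : ℕ}

/-- Realisation of `E` as the `σ`-block diagonal, block traceless Hermitian matrices. -/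
structure BSys (σ : Lab N) (𝔤 : Lie E) where
  m : E →ₗ[ℝ] Matrix (Fin N) (Fin N) ℂ
  herm : ∀ v, (m v).IsHermitian
  blk : ∀ v a b, σ a ≠ σ b → m v a b = 0
  trl : ∀ v c, ∑ a with σ a = c, m v a a = 0
  inner : ∀ u v, ⟪u, v⟫_ℝ = (m u * m v).trace.re
  br : ∀ u v, m (𝔤.br u v) = Complex.I • (m u * m v - m v * m u)
  surj : ∀ A : Matrix (Fin N) (Fin N) ℂ, A.IsHermitian → (∀ a b, σ a ≠ σ b → A a b = 0) →
    (∀ c, ∑ a with σ a = c, A a a = 0) → ∃ v, m v = A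

namespace BSys

variable {σ : Lab N} {𝔤 : Lie E} (B : BSys σ 𝔤)

/-- Centre: diagonal, constant on the `π`-clusters. -/
def Zs (π : Lab N) : Submodule ℝ E where
  carrier := {v | (∀ a b, a ≠ b → B.m v a b = 0) ∧ ∀ a b, π a = π b → B.m v a a = B.m v b b}
  add_mem' := fun {u v} hu hv => ⟨fun a b h => by simp [hu.1 a b h, hv.1 a b h],
    fun a b h => by simp [hu.2 a b h, hv.2 a b h]⟩
  zero_mem' := ⟨fun a b _ => by simp, fun a b _ => by simp⟩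
  smul_mem' := fun r v hv => ⟨fun a b h => by simp [hv.1 a b h], fun a b h => by simp [hv.2 a b h]⟩

/-- Light part: `π`-block diagonal and block traceless. -/
def Ls (π : Lab N) : Submodule ℝ E where
  carrier := {v | (∀ a b, π a ≠ π b → B.m v a b = 0) ∧ ∀ c, ∑ a with π a = c, B.m v a a = 0}
  add_mem' := fun {u v} hu hv => ⟨fun a b h => by simp [hu.1 a b h, hv.1 a b h],
    fun c => by simp [Finset.sum_add_distrib, hu.2 c, hv.2 c]⟩
  zero_mem' := ⟨fun a b _ => by simp, fun c => by simp⟩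
  smul_mem' := fun r v hv => ⟨fun a b h => by simp [hv.1 a b h],
    fun c => by
      have := hv.2 c
      simp only [map_smul, Matrix.smul_apply]
      rw [← Finset.smul_sum, this, smul_zero]⟩

/-- Heavy part: vanishing `π`-diagonal blocks. -/
def Hs (π : Lab N) : Submodule ℝ E where
  carrier := {v | ∀ a b, π a = π b → B.m v a b = 0}
  add_mem' := fun {u v} hu hv a b h => by simp [hu a b h, hv a b h]
  zero_mem' := fun a b _ => by simp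
  smul_mem' := fun r v hv a b h => by simp [hv a b h]

variable {K : Type} [Group K] [TopologicalSpace K] [IsTopologicalGroup K]
  [CompactSpace K] [MeasurableSpace K] [BorelSpace K]

/-- Gauge orbits of the configurations with at most `j` clusters. -/
def S (Γ : Grp 𝔤 K) (j : ℕ) : Set (X E) :=
  {x | ∃ π : Lab N, π.Ref σ ∧ π.ncl ≤ j ∧ ∃ k, ∀ i, Γ.act k (x i) ∈ B.Zs π}

/-- A linear left inverse of `m`. -/
def un : Matrix (Fin N) (Fin N) ℂ →ₗ[ℝ] E := B.m.leftInverse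

/-- Schur multiplication by `t`. -/
def had (t : Matrix (Fin N) (Fin N) ℂ) : E →ₗ[ℝ] E :=
  B.un ∘ₗ
    { toFun := fun v => Matrix.of fun a b => t a b * B.m v a b
      map_add' := fun u v => by ext a b; simp [mul_add]
      map_smul' := fun r v => by ext a b; simp [mul_left_comm] }

end BSys

/-- Indicator of the pair of clusters `p`. -/
def tP (π : Lab N) (p : Fin N × Fin N) : Matrix (Fin N) (Fin N) ℂ :=
  Matrix.of fun a b => if (π a = p.1 ∧ π b = p.2) ∨ (π a = p.2 ∧ π b = p.1) then 1 else 0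

/-- The orientation `± i`. -/
def tI (π : Lab N) : Matrix (Fin N) (Fin N) ℂ :=
  Matrix.of fun a b => if π a < π b then Complex.I else if π b < π a then -Complex.I else 0

end BS

end Crest.Agent.R330

end
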