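import Crest.Agent.R330.NB.A

/-! # Row 330, NB/E (statements frozen; see `R330/Blueprint.lean`, `R330/NB/Defs.lean`) -/

set_option autoImplicit false
set_option linter.unusedSectionVars false

noncomputable section

open MeasureTheory Filter Topology Metric
open scoped InnerProductSpace ContDiff Matrix
open Crest.MathPhysics.MatrixQM (GammaNine)

namespace Crest.Agent.R330

variable {E F : Type} [NormedAddCommGroup E] [InnerProductSpace ℝ E] [FiniteDimensional ℝ E]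
  [MeasurableSpace E] [BorelSpace E]
  [NormedAddCommGroup F] [InnerProductSpace ℂ F] [FiniteDimensional ℂ F]
  {K : Type} [Group K] [TopologicalSpace K] [IsTopologicalGroup K]
  [CompactSpace K] [MeasurableSpace K] [BorelSpace K]
  {𝔤 : Lie E} {Γ : Grp 𝔤 K} {C : Cl (Th E) F} {σ : Spn}

theorem nbE_arith (S' S : Set (X E)) {β ε : ℝ} (hβ : 0 ≤ β) (hε : 0 ≤ ε) (a' : ℝ) (x : X E) :
    (51 / 50) ^ 2 * W2 S' S (27 / 25) (β / 2) ε a' x + (51 / 50) * (51 / 2500) * (1 / ‖x‖ ^ 2) ≤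
      W2 S' S (23 / 20) β ε a' x := by
  have h1 : 0 ≤ (‖x‖ ^ 2)⁻¹ := by positivity
  have h2 : 0 ≤ β * (infDist x S' ^ 2)⁻¹ := by positivity
  have h3 : 0 ≤ β * (infDist x S ^ 2)⁻¹ := by positivity
  have h4 : 0 ≤ β * ε := mul_nonneg hβ hε
  unfold W2 W1
  simp only [div_eq_mul_inv]
  split_ifs <;> nlinarith

/-- The covering step.  Pick `β` (`Filter.eventually_all`, `self_mem_nhdsWithin`), output `β/2`;
for `a` pick `b ≤ min a 1`, choose the `p i`, for `a'` pick `η`.  `Grp.cover` with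
`W = W2 S' S (23/20) β ε a'`, `A = 51/50`, `η = δ = 1/50`.  Covering: a nearest point `s ∈ S`
(`IsClosed.exists_infDist_eq_dist`) is not in `S'` because `d < bρ ≤ aρ < d'`; move it into `A i`.
Arithmetic: `(51/50)·W2(27/25, β/2)·(51/50) + (51/50)·51/2500/ρ² ≤ W2(23/20, β)` pointwise. -/
theorem piece_of_charts {S' S : Set (X E)} (h' : ICone Γ S') (h : ICone Γ S) {ι : Type} [Fintype ι]
    (A : ι → Set (X E)) (hA : ∀ i, Chart Γ C σ S' S (A i))
    (hcov : ∀ s ∈ S, s ∈ S' ∨ ∃ i k, Γ.ax k s ∈ A i) : Piece 𝔤 C σ S' S := by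
  obtain ⟨β, hβ, hβ0⟩ := ((eventually_all.2 hA).and self_mem_nhdsWithin).exists
  have hβ0 : 0 < β := hβ0
  refine ⟨β / 2, half_pos hβ0, fun a ha => ?_⟩
  obtain ⟨b, hb, hb0⟩ := ((eventually_all.2 fun i => hβ i a ha).and
    (Ioo_mem_nhdsGT (lt_min ha one_pos))).exists
  choose p hp hp0 hpr hp' using hb
  refine ⟨b, hb0.1, (hb0.2.trans_le (min_le_right _ _)).le, fun a' ha' => ?_⟩
  obtain ⟨η, hη, hη0⟩ := ((eventually_all.2 fun i => hp' i a' ha').and self_mem_nhdsWithin).exists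
  have hη0 : 0 < η := hη0
  refine ⟨η, hη0, fun ε 𝒱 hG ψ hψ hs => ?_⟩
  have hG' : Good β ε 𝒱 := hG.mono (half_le_self hβ0.le)
  have hsub : regB 𝔤 σ S' S a b η ⊆ regA 𝔤 σ S' a η := fun x hx => hx.1
  have hT := (tame_W2 (𝔤 := 𝔤) (σ := σ) S' S (23 / 20) β ε ha ha' hη0).mono hsub
  have hT' := (tame_W2 (𝔤 := 𝔤) (σ := σ) S' S (27 / 25) (β / 2) ε ha ha' hη0).mono hsub
  have hT0 : Tame (fun x : X E => 1 / ‖x‖ ^ 2) (regB 𝔤 σ S' S a b η) :=
    Tame.of_continuousOn (by fun_prop) (continuousOn_const.div (by fun_prop) fun x hx =>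
      pow_ne_zero _ (nbAb_pos ha hη0 hx.1).1.ne')
  have hc : ∀ x ∈ regB 𝔤 σ S' S a b η, ∃ i k, 0 < p i (Γ.ax k x) := by
    intro x hx
    obtain ⟨s, hsS, hsd⟩ := h.closed.exists_infDist_eq_dist h.nonempty x
    rcases hcov s hsS with hs' | ⟨i, k, hk⟩
    · have h1 : infDist x S' ≤ dist x s := infDist_le_dist_of_mem hs'
      have h2 : b * ‖x‖ ≤ a * ‖x‖ :=
        mul_le_mul_of_nonneg_right (hb0.2.trans_le (min_le_left _ _)).le (norm_nonneg _)
      have h3 := hx.1.2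
      have h4 := hx.2
      linarith
    · refine ⟨i, k, (hη i).2.1 _ (regB_ax h' h a b η k hx) ⟨_, hk, ?_⟩⟩
      rw [← map_sub, LinearIsometry.norm_map, h.infDist_ax, hsd, dist_eq_norm]
  have key := Γ.cover C σ ε hG.2.2.1 hp hp0 hpr (isOpen_regB S' S a b η)
    (fun h0 => by simpa using (nbAb_pos ha hη0 h0.1).1) hc (η := 1 / 50) (by norm_num)
    (fun i => (hη i).1) (W := W2 S' S (23 / 20) β ε a') hT.1
    (fun x => by
      have := hG.1
      unfold W2 W1
      split_ifs <;> positivity)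
    (fun T hT1 hT2 => (hT.2 T hT1 hT2).imp fun c hc x hx => (le_abs_self _).trans (hc x hx))
    (fun k x => by simp only [W2, W1, h.infDist_ax, h'.infDist_ax, LinearIsometry.norm_map])
    (A := 1 + 1 / 50) (by norm_num) (fun φ hφ hφs i => (hη i).2.2 ε 𝒱 hG' φ hφ hφs)
    (δ := 1 / 50) (by norm_num) hψ hs
  have i1 := hT.integrable hψ.1 hs
  have i2 := hT'.integrable hψ.1 hs
  have i3 := hT0.integrable hψ.1 hs
  have h5 := integral_mono ((i2.const_mul ((51 / 50) ^ 2)).add (i3.const_mul ((51 / 50) * (51 / 2500)))) i1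
    fun x => by
      have := mul_le_mul_of_nonneg_right (nbE_arith S' S hβ0.le hG.1 a' x) (sq_nonneg ‖ψ x‖)
      simp only [Pi.add_apply]
      linarith
  have h6 := integral_add (i2.const_mul ((51 / 50) ^ 2)) (i3.const_mul ((51 / 50) * (51 / 2500)))
  rw [integral_const_mul, integral_const_mul] at h6
  simp only [Pi.add_apply] at h5
  rw [h6] at h5
  norm_num at key h5 ⊢
  linarith

end Crest.Agent.R330

end
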