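import Crest.Agent.R330.NB.A
import Crest.Agent.R330.IB0

/-! # Row 330, NB/F (statements frozen; see `R330/Blueprint.lean`, `R330/NB/Defs.lean`) -/

set_option autoImplicit false
set_option linter.unusedSectionVars false

noncomputable section

open MeasureTheory Filter Topology Metric
open scoped InnerProductSpace ContDiff Matrix
open Crest.MathPhysics.MatrixQM (GammaNine)

namespace Crest.Agent.R330

variable {E Z L H F : Type}
  [NormedAddCommGroup E] [InnerProductSpace ℝ E] [FiniteDimensional ℝ E]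
  [NormedAddCommGroup Z] [InnerProductSpace ℝ Z] [FiniteDimensional ℝ Z]
  [NormedAddCommGroup L] [InnerProductSpace ℝ L] [FiniteDimensional ℝ L]
  [NormedAddCommGroup H] [InnerProductSpace ℝ H] [FiniteDimensional ℝ H]
  [NormedAddCommGroup F] [InnerProductSpace ℂ F] [FiniteDimensional ℂ F]
  [MeasurableSpace E] [BorelSpace E] [MeasurableSpace Z] [BorelSpace Z]
  [MeasurableSpace L] [BorelSpace L] [MeasurableSpace H] [BorelSpace H]
  {K : Type} [Group K] [TopologicalSpace K] [IsTopologicalGroup K]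
  [CompactSpace K] [MeasurableSpace K] [BorelSpace K]
  {P : Type} [Fintype P] {𝔤 : Lie E} (D : Levi 𝔤 Z L H P) {Γ : Grp 𝔤 K} {C : Cl (Th E) F} {σ : Spn}

namespace Levi

theorem zc_iZ (z : X Z) : D.asm z 0 0 = liftI 9 D.iZ z := by simp [asm]

theorem norm_sub_iZ_sq (x : X E) (z : X Z) :
    ‖x - liftI 9 D.iZ z‖ ^ 2 = ‖D.zc x - z‖ ^ 2 + ‖D.lc x‖ ^ 2 + ‖D.yc x‖ ^ 2 := by
  rw [D.b0a_norm_sq, map_sub, map_sub, map_sub, ← D.zc_iZ, D.zc_asm, D.lc_asm, D.yc_asm, sub_zero,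
    sub_zero]

/-- First order condition at a nearest point.  For `h : H`, `A = lift 9 (br (iH h))`,
`t ↦ ‖x - exp(tA) z₀‖²` is minimal at `0` (`Grp.exists_ax_flow` with `t • iH h`, `ICone.ax`,
`hasDerivAt_rexp'`, `IsLocalMin.hasDerivAt_eq_zero`); `A z₀ = -iH (adZ z_i h)` (`brZH`, `anti`),
`isSkew_adZ`; also `z = zc x` by `norm_sub_iZ_sq` and `hmem`. -/
theorem Phi_eq_zero_of_min {S : Set (X E)} (h : ICone Γ S) (hmem : ∀ z, liftI 9 D.iZ z ∈ S)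
    {x : X E} {z : X Z} (hx : ‖x - liftI 9 D.iZ z‖ = infDist x S) :
    D.Phi (D.zc x) (D.yc x) = 0 ∧ ‖D.lc x‖ ^ 2 + ‖D.yc x‖ ^ 2 = infDist x S ^ 2 := by
  have h1 := D.norm_sub_iZ_sq x z
  have h2 := D.norm_sub_iZ_sq x (D.zc x)
  have h3 : infDist x S ≤ ‖x - liftI 9 D.iZ (D.zc x)‖ := by
    rw [← dist_eq_norm]; exact infDist_le_dist_of_mem (hmem _)
  have h4 := pow_le_pow_left₀ infDist_nonneg h3 2
  rw [sub_self, norm_zero] at h2
  rw [hx] at h1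
  have h5 : ‖D.zc x - z‖ ^ 2 = 0 := le_antisymm (by linarith) (sq_nonneg _)
  refine ⟨?_, by linarith⟩
  obtain rfl : D.zc x = z := sub_eq_zero.1 (norm_eq_zero.1 (pow_eq_zero_iff two_ne_zero |>.1 h5))
  set v := D.Phi (D.zc x) (D.yc x) with hv
  have hd := ((hasDerivAt_rexp' (lift 9 (𝔤.br (D.iH v))) (liftI 9 D.iZ (D.zc x)) 0).const_sub x).norm_sq
  have hm : IsLocalMin (fun s : ℝ =>
      ‖x - rexp' (s • lift 9 (𝔤.br (D.iH v))) (liftI 9 D.iZ (D.zc x))‖ ^ 2) 0 := by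
    refine Eventually.of_forall fun s => ?_
    obtain ⟨k, hk⟩ := Γ.exists_ax_flow (s • D.iH v)
    simp only [zero_smul, rexp'_zero]
    rw [← ga_lift_smul, ← map_smul, ← hk, hx]
    refine pow_le_pow_left₀ infDist_nonneg ?_ 2
    rw [← dist_eq_norm]
    exact infDist_le_dist_of_mem (h.ax k _ (hmem _))
  have h6 := hm.hasDerivAt_eq_zero hd
  have e1 : x - liftI 9 D.iZ (D.zc x) = D.asm 0 (D.lc x) (D.yc x) := by
    nth_rewrite 1 [← D.asm_eq x]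
    simp only [asm, map_zero]
    abel
  have e2 : -lift 9 (𝔤.br (D.iH v)) (liftI 9 D.iZ (D.zc x)) =
      D.asm 0 0 (WithLp.toLp 2 fun i => D.adZ (D.zc x i) v) := by
    ext i
    simp [asm, D.b0g_brHZ]
  rw [zero_smul, rexp'_zero, e1, e2, D.inner_asm, inner_zero_right, inner_zero_right, PiLp.inner_apply,
    Finset.sum_congr rfl fun i _ => (neg_eq_iff_eq_neg.2 (D.isSkew_adZ (D.zc x i) (D.yc x i) v)).symm,
    Finset.sum_neg_distrib, ← sum_inner] at h6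
  refine (inner_self_eq_zero (𝕜 := ℝ)).1 ?_
  change ⟪D.Phi (D.zc x) (D.yc x), v⟫_ℝ = 0
  unfold Phi
  linarith

/-- Approximate version of `Geo.light` (`compact_small` on the unit sphere intersected with
`{∀ p, 4‖l‖ ≤ M_p}`, `g = ‖w‖ + ‖y‖`, `f = ‖l‖ - d`; homogeneity `M_smul`, `wpot_smul`). -/
theorem light_approx {S' S : Set (X E)} (hG : D.Geo S' S) (h : ICone Γ S) (σ : Spn) {δ : ℝ}
    (hδ : 0 < δ) : ∃ η : ℝ, 0 < η ∧ ∀ x : X E, (∀ p, 4 * ‖D.lc x‖ ≤ D.M p (D.zc x)) →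
      ‖wpot 𝔤 σ.G σ.s x‖ ≤ η * ‖x‖ ^ 2 → ‖D.yc x‖ ≤ η * ‖x‖ →
      ‖D.lc x‖ ≤ infDist x S + δ * ‖x‖ := by
  have c1 : Continuous D.lc := LinearMap.continuous_of_finiteDimensional _
  have c2 : Continuous D.zc := LinearMap.continuous_of_finiteDimensional _
  have c3 : Continuous D.yc := LinearMap.continuous_of_finiteDimensional _
  have hA : IsClosed {x : X E | ∀ p, 4 * ‖D.lc x‖ ≤ D.M p (D.zc x)} := by
    rw [Set.ofPred_forall]
    exact isClosed_iInter fun p => isClosed_le (by fun_prop) ((D.continuous_M p).comp c2)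
  obtain ⟨η, hη, H⟩ := compact_small ((isCompact_sphere (0 : X E) 1).inter_right hA)
    (c1.norm.sub (continuous_infDist_pt S)) ((nbAb_cont_wpot 𝔤 σ).add c3.norm)
    (fun x _ => add_nonneg (norm_nonneg _) (norm_nonneg _)) (fun x hx h0 => by
      obtain ⟨a1, a2⟩ := (add_eq_zero_iff_of_nonneg (norm_nonneg _) (norm_nonneg _)).1 h0
      exact sub_nonpos.2 (hG.light x ((wpot_eq_zero_iff 𝔤 σ x).1 (norm_eq_zero.1 a1))
        (norm_eq_zero.1 a2) hx.2)) hδ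
  refine ⟨η / 2, half_pos hη, fun x h1 h2 h3 => ?_⟩
  rcases (norm_nonneg x).eq_or_lt with hx0 | hx0
  · exact (D.norm_lc_le x).trans (by rw [← hx0, mul_zero, add_zero]; exact infDist_nonneg)
  have hi := inv_pos.2 hx0
  have h4 := H (‖x‖⁻¹ • x) ⟨by
    rw [mem_sphere_zero_iff_norm, norm_smul, norm_inv, norm_norm, inv_mul_cancel₀ hx0.ne'], fun p => by
      rw [map_smul, map_smul, D.M_smul, norm_smul, Real.norm_eq_abs, mul_left_comm]
      exact mul_le_mul_of_nonneg_left (h1 p) (abs_nonneg _)⟩ (by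
    have a1 : ‖wpot 𝔤 σ.G σ.s (‖x‖⁻¹ • x)‖ ≤ η / 2 := by
      rwa [wpot_smul, norm_smul, Real.norm_eq_abs, abs_of_nonneg (sq_nonneg _), inv_pow,
        inv_mul_le_iff₀ (pow_pos hx0 2), mul_comm]
    have a2 : ‖D.yc (‖x‖⁻¹ • x)‖ ≤ η / 2 := by
      rwa [map_smul, norm_smul, Real.norm_of_nonneg hi.le, inv_mul_le_iff₀ hx0, mul_comm]
    exact (add_le_add a1 a2).trans_eq (add_halves η))
  simp only [Pi.sub_apply, h.infDist_smul hi, map_smul, norm_smul, Real.norm_of_nonneg hi.le] at h4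
  rw [← mul_sub, inv_mul_lt_iff₀ hx0] at h4
  linarith

theorem nbFb_M_nonneg (p : P) (z : X Z) : 0 ≤ D.M p z := Real.sqrt_nonneg _

theorem nbFb_dist (x : X E) : dist x (liftI 9 D.iZ (D.zc x)) ≤ ‖D.lc x‖ + ‖D.yc x‖ := by
  rw [dist_eq_norm]
  have h := D.norm_sub_iZ_sq x (D.zc x)
  rw [sub_self, norm_zero] at h
  have h1 := norm_nonneg (D.lc x)
  have h2 := norm_nonneg (D.yc x)
  refine le_of_sq_le_sq ?_ (by positivity)
  nlinarith [mul_nonneg h1 h2]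

/-- Geometry of the region `regB` in the chart.  `κ = max 1 (2C₁/a)`,
`θ₁ = min (1/4, a/2, 1/(16κ), θ₀/2)` with `θ₀` from `wd_tube` at `2κ` (`ε = 0`, `wd_zero`), which
gives `‖y‖² ≤ B(η²ρ² + ρ⁻²) ≤ 2Bη²ρ²`.  `d' ≤ C₁M_p + ‖l‖ + ‖y‖`, `d ≤ ‖l‖ + ‖y‖`,
`M_p/2 ≤ d'(z) ≤ d' + ‖l‖ + ‖y‖` (`infDist_le_infDist_add_dist`), `light_approx` with
`min δ (b/2)`. -/
theorem geo {S' S : Set (X E)} (hG : D.Geo S' S) (h' : ICone Γ S') (h : ICone Γ S) (σ : Spn)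
    {a : ℝ} (ha : 0 < a) : ∃ κ θ₁ : ℝ, 1 ≤ κ ∧ 0 < θ₁ ∧ θ₁ ≤ 1 / 4 ∧ ∀ b : ℝ, 0 < b → 2 * b ≤ θ₁ →
      ∀ δ : ℝ, 0 < δ → ∃ η₀ : ℝ, 0 < η₀ ∧ ∀ η : ℝ, 0 < η → η ≤ η₀ →
        D.GapProp κ (2 * b) (regB 𝔤 σ S' S a b η) ∧
        (∀ x ∈ regB 𝔤 σ S' S a b η, (∃ z, ‖x - liftI 9 D.iZ z‖ = infDist x S) →
          x ∈ D.tube κ (2 * b) ∧ D.Phi (D.zc x) (D.yc x) = 0) ∧
        ∀ x ∈ regB 𝔤 σ S' S a b η, ‖D.Phi (D.zc x) (D.yc x)‖ < 1 →
          x ∈ D.tube (2 * κ) (2 * (2 * b)) →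
          (∃ p, D.M p (D.zc x) ≤ 4 * infDist x S') ∧ ‖D.lc x‖ ≤ infDist x S + δ * ‖x‖ ∧
            infDist x S ≤ ‖D.lc x‖ + δ * ‖x‖ := by
  obtain ⟨C₁, hC₁, hup⟩ := hG.up
  set κ : ℝ := max 1 (2 * C₁ / a) with hκdef
  have hκ1 : 1 ≤ κ := le_max_left _ _
  have hκ0 : 0 < κ := by linarith
  have hκa : 2 * C₁ ≤ κ * a := by
    have : 2 * C₁ / a ≤ κ := le_max_right _ _
    rwa [div_le_iff₀ ha] at this
  obtain ⟨θ₀, B, hθ₀, hB, hw⟩ := D.wd_tube σ (κ := 2 * κ) (by linarith)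
  refine ⟨κ, min (min (1 / 4) (a / 2)) (min (1 / (16 * κ)) (θ₀ / 2)), hκ1, by positivity,
    (min_le_left _ _).trans (min_le_left _ _), fun b hb hb2 δ hδ => ?_⟩
  have hba : 2 * b ≤ a / 2 := hb2.trans ((min_le_left _ _).trans (min_le_right _ _))
  have hbκ : 2 * b ≤ 1 / (16 * κ) := hb2.trans ((min_le_right _ _).trans (min_le_left _ _))
  have hbθ : 2 * b ≤ θ₀ / 2 := hb2.trans ((min_le_right _ _).trans (min_le_right _ _))
  have hbκ' : 32 * b * κ ≤ 1 := by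
    rw [le_div_iff₀ (by positivity)] at hbκ
    linarith
  obtain ⟨R, hR⟩ := hw (2 * (2 * b)) (by positivity) (by linarith)
  set δ' : ℝ := min δ (b / 2) with hδ'def
  have hδ' : 0 < δ' := by positivity
  have hδ'δ : δ' ≤ δ := min_le_left _ _
  have hδ'b : δ' ≤ b / 2 := min_le_right _ _
  obtain ⟨η₁, hη₁, hla⟩ := D.light_approx hG h σ hδ'
  set m : ℝ := min η₁ δ' with hmdef
  have hm : 0 < m := by positivity
  refine ⟨min (min 1 (max R 1)⁻¹) (min η₁ (m / √(2 * B))), by positivity, fun η hη hη₀ => ?_⟩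
  have hη1 : η ≤ 1 := hη₀.trans ((min_le_left _ _).trans (min_le_left _ _))
  have hηR : η ≤ (max R 1)⁻¹ := hη₀.trans ((min_le_left _ _).trans (min_le_right _ _))
  have hηη₁ : η ≤ η₁ := hη₀.trans ((min_le_right _ _).trans (min_le_left _ _))
  have hηm : η ≤ m / √(2 * B) := hη₀.trans ((min_le_right _ _).trans (min_le_right _ _))
  have hηm2 : 2 * B * η ^ 2 ≤ m ^ 2 := by
    have hs : 0 < √(2 * B) := Real.sqrt_pos.2 (by positivity)
    rw [le_div_iff₀ hs] at hηm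
    have := pow_le_pow_left₀ (by positivity) hηm 2
    rw [mul_pow, Real.sq_sqrt (by positivity)] at this
    linarith
  -- (i) the masses are large once `l`, `y` are small
  have hmass : ∀ x ∈ regB 𝔤 σ S' S a b η, ‖D.lc x‖ + ‖D.yc x‖ ≤ 2 * b * ‖x‖ →
      x ∈ D.tube κ (2 * b) := by
    intro x hx hly
    refine ⟨fun p => ?_, hly⟩
    have h1 : a * ‖x‖ < infDist x S' := hx.1.2
    have h2 := infDist_le_infDist_add_dist (x := x) (y := liftI 9 D.iZ (D.zc x)) (s := S')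
    have h3 := hup (D.zc x) p
    have h4 := D.nbFb_dist x
    have h5 := D.nbFb_M_nonneg p (D.zc x)
    have h6 : 2 * b * ‖x‖ ≤ a / 2 * ‖x‖ := by gcongr
    have h7 : a * ‖x‖ ≤ 2 * C₁ * D.M p (D.zc x) := by linarith
    have h8 : 2 * C₁ * D.M p (D.zc x) ≤ κ * a * D.M p (D.zc x) := by gcongr
    have h9 : a * ‖x‖ ≤ a * (κ * D.M p (D.zc x)) := by linarith
    exact le_of_mul_le_mul_left h9 ha
  -- (ii) smallness of `y` and comparison of `l` with the distance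
  have hsm : ∀ x ∈ regB 𝔤 σ S' S a b η, ‖D.Phi (D.zc x) (D.yc x)‖ < 1 →
      x ∈ D.tube (2 * κ) (2 * (2 * b)) →
      ‖D.yc x‖ ≤ δ' * ‖x‖ ∧ ‖D.lc x‖ ≤ infDist x S + δ' * ‖x‖ := by
    intro x hx hΦ ht
    have hv : x ∈ val 𝔤 σ η := hx.1.1
    have hρ : η⁻¹ < ‖x‖ := hv.2
    have hRx : max R 1 ≤ ‖x‖ := by
      have : max R 1 ≤ η⁻¹ := by
        rw [le_inv_comm₀ (by positivity) hη]
        exact hηR
      linarith
    have hx1 : 1 ≤ ‖x‖ := (le_max_right _ _).trans hRx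
    have hx0 : 0 < ‖x‖ := by linarith
    have hw' := hR 0 le_rfl zero_le_one x ht ((le_max_left _ _).trans hRx) hΦ
    rw [wd_zero] at hw'
    have hw1 : ‖wpot 𝔤 σ.G σ.s x‖ ^ 2 ≤ (η * ‖x‖ ^ 2) ^ 2 :=
      pow_le_pow_left₀ (norm_nonneg _) hv.1.le 2
    have hηx : 1 ≤ η * ‖x‖ := by
      have := mul_lt_mul_of_pos_left hρ hη
      rw [mul_inv_cancel₀ hη.ne'] at this
      exact this.le
    have hone : 1 ≤ (η * ‖x‖ ^ 2) ^ 2 := by
      refine one_le_pow₀ ?_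
      nlinarith
    have hy2 : ‖D.yc x‖ ^ 2 ≤ (m * ‖x‖) ^ 2 := by
      have h1 : ‖x‖ ^ 2 * ‖D.yc x‖ ^ 2 ≤ ‖x‖ ^ 2 * (2 * B * η ^ 2 * ‖x‖ ^ 2) := by
        calc _ ≤ B * ((η * ‖x‖ ^ 2) ^ 2 + (η * ‖x‖ ^ 2) ^ 2) := hw'.trans (by gcongr)
          _ = _ := by ring
      have h2 := le_of_mul_le_mul_left h1 (by positivity)
      calc _ ≤ 2 * B * η ^ 2 * ‖x‖ ^ 2 := h2
        _ ≤ m ^ 2 * ‖x‖ ^ 2 := by gcongr
        _ = _ := by ring
    have hy : ‖D.yc x‖ ≤ m * ‖x‖ := le_of_sq_le_sq hy2 (by positivity)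
    refine ⟨hy.trans (by gcongr; exact min_le_right _ _), hla x (fun p => ?_) ?_ ?_⟩
    · have h1 := ht.1 p
      have h2 := ht.2
      have h3 := norm_nonneg (D.yc x)
      have h5 := D.nbFb_M_nonneg p (D.zc x)
      have h4 : 16 * b * ‖x‖ ≤ 16 * b * (2 * κ * D.M p (D.zc x)) := by gcongr
      nlinarith [mul_le_mul_of_nonneg_right hbκ' h5]
    · exact hv.1.le.trans (by gcongr)
    · exact hy.trans (by gcongr; exact min_le_left _ _)
  refine ⟨fun x hx hΦ ht => ?_, fun x hx hz => ?_, fun x hx hΦ ht => ?_⟩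
  · obtain ⟨h1, h2⟩ := hsm x hx hΦ ht
    have h3 : infDist x S < b * ‖x‖ := hx.2
    have h4 : δ' * ‖x‖ ≤ b / 2 * ‖x‖ := by gcongr
    exact hmass x hx (by linarith)
  · obtain ⟨z, hz⟩ := hz
    obtain ⟨h1, h2⟩ := D.Phi_eq_zero_of_min h hG.mem hz
    refine ⟨hmass x hx ?_, h1⟩
    have h3 : infDist x S < b * ‖x‖ := hx.2
    have h4 : infDist x S ^ 2 ≤ (b * ‖x‖) ^ 2 := pow_le_pow_left₀ infDist_nonneg h3.le 2
    refine le_of_sq_le_sq ?_ (by positivity)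
    nlinarith [sq_nonneg (‖D.lc x‖ - ‖D.yc x‖), sq_nonneg (b * ‖x‖)]
  · obtain ⟨h1, h2⟩ := hsm x hx hΦ ht
    have h4 : δ' * ‖x‖ ≤ δ * ‖x‖ := by gcongr
    have hd := D.nbFb_dist x
    refine ⟨?_, by linarith, ?_⟩
    · obtain ⟨p, hp⟩ := hG.low (D.zc x)
      refine ⟨p, ?_⟩
      have h5 := infDist_le_infDist_add_dist (x := liftI 9 D.iZ (D.zc x)) (y := x) (s := S')
      rw [dist_comm] at h5
      have h6 := ht.1 p
      have h7 := ht.2
      have h8 := D.nbFb_M_nonneg p (D.zc x)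
      have h9 : 4 * b * ‖x‖ ≤ 4 * b * (2 * κ * D.M p (D.zc x)) := by gcongr
      nlinarith [mul_le_mul_of_nonneg_right hbκ' h8]
    · have h5 := infDist_le_dist_of_mem (x := x) (hG.mem (D.zc x))
      linarith

/-- A Faddeev–Popov weight is positive on the slice. -/
theorem FPW.pos {κ θ : ℝ} {p : X E → ℝ} (hp : D.FPW κ θ p) (hκ : 0 < κ) {x : X E}
    (hx : x ∈ D.tube κ θ) (h1 : 1 ≤ ‖x‖) (h0 : D.Phi (D.zc x) (D.yc x) = 0) : 0 < p x := by
  rw [hp.2.2.2.2 x hx h1, wtX, wt, h0, Real.smoothTransition.one_of_one_le (by norm_num), one_mul]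
  refine Finset.prod_pos fun q _ => pow_pos ?_ _
  exact (mul_pos_iff_of_pos_left hκ).1 (one_pos.trans_le (h1.trans (hx.1 q)))

end Levi

end Crest.Agent.R330

end
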