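import Crest.Agent.R330.NB.Defs
import Crest.Agent.R330.IMat

/-! # Row 330, NB/M1 (statements frozen; see `R330/Blueprint.lean`, `R330/NB/Defs.lean`) -/

set_option autoImplicit false
set_option linter.unusedSectionVars false

noncomputable section

open MeasureTheory Filter Topology Metric
open scoped InnerProductSpace ContDiff Matrix
open Crest.MathPhysics.MatrixQM (GammaNine)

namespace Crest.Agent.R330

variable {E : Type} [NormedAddCommGroup E] [InnerProductSpace ℝ E] [FiniteDimensional ℝ E]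
  {N : ℕ} {σ : Lab N} {𝔤 : Lie E}
  {K : Type} [Group K] [TopologicalSpace K] [IsTopologicalGroup K]
  [CompactSpace K] [MeasurableSpace K] [BorelSpace K]

/-! ### labellings -/

namespace Lab

theorem Ref.refl (π : Lab N) : π.Ref π := fun _ _ h => h

theorem Ref.trans {π π' π'' : Lab N} (h : π.Ref π') (h' : π'.Ref π'') : π.Ref π'' :=
  fun a b hab => h' a b (h a b hab)

theorem ncl_le (π : Lab N) : π.ncl ≤ N := by
  exact Finset.card_image_le.trans (by simp)

theorem ncl_id : Lab.ncl (id : Lab N) = N := by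
  simp [Lab.ncl]

theorem ncl_comp_perm (π : Lab N) (s : Equiv.Perm (Fin N)) : Lab.ncl (π ∘ s) = π.ncl := by
  rw [Lab.ncl, ← Finset.image_image, Finset.image_univ_of_surjective s.surjective, Lab.ncl]

theorem Ref.factor {π σ : Lab N} (h : π.Ref σ) : ∃ φ : Fin N → Fin N, (∀ a, σ a = φ (π a)) ∧
    Finset.univ.image σ = (Finset.univ.image π).image φ := by
  have : ∀ a, σ a = Function.extend π σ id (π a) := fun a =>
    (Function.FactorsThrough.extend_apply (fun a b => h a b) id a).symm
  exact ⟨_, this, by rw [Finset.image_image]; exact congrArg (Finset.image · _) (funext this)⟩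

/-- A refinement factors `σ = φ ∘ π`, so `image σ` is the image of `image π`. -/
theorem Ref.ncl_le {π σ : Lab N} (h : π.Ref σ) : σ.ncl ≤ π.ncl := by
  obtain ⟨φ, -, e⟩ := h.factor
  rw [Lab.ncl, e]
  exact Finset.card_image_le

/-- ... and if the numbers of clusters agree, `φ` is injective on `image π`
(`Finset.card_image_iff`). -/
theorem Ref.symm_of_ncl_le {π σ : Lab N} (h : π.Ref σ) (hn : π.ncl ≤ σ.ncl) : σ.Ref π := by
  obtain ⟨φ, h1, e⟩ := h.factor
  rw [Lab.ncl, Lab.ncl, e] at hn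
  exact fun a b hab => Finset.card_image_iff.1 (le_antisymm Finset.card_image_le hn) (by simp) (by simp)
    (by rw [← h1, ← h1, hab])

/-- Merging two clusters. -/
theorem ncl_merge (π : Lab N) {c₁ c₂ : Fin N} (hc : c₁ ≠ c₂) (h₁ : ∃ a, π a = c₁)
    (h₂ : ∃ a, π a = c₂) : Lab.ncl (fun a => if π a = c₂ then c₁ else π a) + 1 = π.ncl := by
  have : Finset.univ.image (fun a => if π a = c₂ then c₁ else π a) = (Finset.univ.image π).erase c₂ := by
    ext c
    simp only [Finset.mem_image, Finset.mem_univ, true_and, Finset.mem_erase]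
    constructor
    · rintro ⟨a, rfl⟩
      split_ifs with h
      · exact ⟨hc, h₁⟩
      · exact ⟨h, a, rfl⟩
    · rintro ⟨h, a, rfl⟩
      exact ⟨a, if_neg h⟩
  rw [Lab.ncl, this, Finset.card_erase_add_one (by simpa using h₂), Lab.ncl]

theorem sum_mul_eq_zero (π : Lab N) {R : Type} [CommRing R] {f g : Fin N → R} (hf : ∀ a b, π a = π b → f a = f b)
    (hg : ∀ c, ∑ a with π a = c, g a = 0) : ∑ a, f a * g a = 0 := by
  rw [← Finset.sum_fiberwise Finset.univ π]
  refine Finset.sum_eq_zero fun c _ => ?_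
  rcases (Finset.univ.filter (π · = c)).eq_empty_or_nonempty with h | ⟨b, hb⟩
  · rw [h, Finset.sum_empty]
  · rw [Finset.sum_congr rfl fun a ha => congrArg (· * g a)
      (hf a b ((Finset.mem_filter.1 ha).2.trans (Finset.mem_filter.1 hb).2.symm)), ← Finset.mul_sum, hg, mul_zero]

theorem Ref.sum_eq_zero {π σ : Lab N} (h : π.Ref σ) {R : Type} [CommRing R] {g : Fin N → R}
    (hg : ∀ c, ∑ a with π a = c, g a = 0) (c : Fin N) : ∑ a with σ a = c, g a = 0 := by
  have := π.sum_mul_eq_zero (f := fun a => if σ a = c then 1 else 0) (fun a b hab => by simp only [h a b hab]) hg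
  simpa [Finset.sum_filter] using this

end Lab

namespace BSys

variable (B : BSys σ 𝔤)

/-! ### basics -/

theorem star_m (v : E) (a b : Fin N) : (starRingEnd ℂ) (B.m v a b) = B.m v b a := (B.herm v).apply b a

theorem inner_sum (u v : E) : ⟪u, v⟫_ℝ = (∑ a, ∑ b, B.m u a b * B.m v b a).re := B.inner u v

theorem m_br (u v : E) (a b : Fin N) :
    B.m (𝔤.br u v) a b = Complex.I * ∑ q, (B.m u a q * B.m v q b - B.m v a q * B.m u q b) := by
  simp [B.br, Matrix.mul_apply]

theorem norm_sq (v : E) : ‖v‖ ^ 2 = ∑ a, ∑ b, ‖B.m v a b‖ ^ 2 := by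
  simp only [← real_inner_self_eq_norm_sq v, B.inner_sum, Complex.re_sum]
  refine Finset.sum_congr rfl fun a _ => Finset.sum_congr rfl fun b _ => ?_
  rw [← B.star_m v a b, Complex.mul_conj', ← Complex.ofReal_pow, Complex.ofReal_re]

theorem injective : Function.Injective B.m := by
  refine (injective_iff_map_eq_zero _).2 fun v hv => ?_
  simpa [hv] using B.norm_sq v

theorem inner_eq (u v : E) :
    ⟪u, v⟫_ℝ = ∑ a, ∑ b, (B.m u a b * (starRingEnd ℂ) (B.m v a b)).re := by
  simp only [B.inner_sum, Complex.re_sum, B.star_m]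

theorem un_m (v : E) : B.un (B.m v) = v := by
  exact LinearMap.leftInverse_apply_of_inj (LinearMap.ker_eq_bot.2 B.injective) v

theorem m_un {A : Matrix (Fin N) (Fin N) ℂ} (h1 : A.IsHermitian)
    (h2 : ∀ a b, σ a ≠ σ b → A a b = 0) (h3 : ∀ c, ∑ a with σ a = c, A a a = 0) :
    B.m (B.un A) = A := by
  obtain ⟨v, rfl⟩ := B.surj A h1 h2 h3
  rw [un_m]

theorem diag_re (v : E) (a : Fin N) : (((B.m v a a).re : ℝ) : ℂ) = B.m v a a := by
  exact (B.herm v).coe_re_apply_self a

/-- Schur multipliers on the heavy space (zero diagonal, so the trace conditions are void). -/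
theorem m_had {π : Lab N} {t : Matrix (Fin N) (Fin N) ℂ} (ht : t.IsHermitian) {v : E}
    (hv : v ∈ B.Hs π) (a b : Fin N) : B.m (B.had t v) a b = t a b * B.m v a b := by
  refine congrFun (congrFun (B.m_un (A := Matrix.of fun a b => t a b * B.m v a b) ?_ ?_ ?_) a) b
  · ext a b
    simp [Matrix.conjTranspose_apply, B.star_m, ← ht.apply a b]
  · intro a b h
    simp [B.blk v a b h]
  · intro c
    simp [hv _ _ rfl]

theorem had_mem {π : Lab N} {t : Matrix (Fin N) (Fin N) ℂ} (ht : t.IsHermitian) :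
    ∀ v ∈ B.Hs π, B.had t v ∈ B.Hs π := fun v hv a b h => by
  rw [B.m_had ht hv, hv a b h, mul_zero]

theorem _root_.Crest.Agent.R330.tP_herm (π : Lab N) (p : Fin N × Fin N) : (tP π p).IsHermitian := by
  ext a b
  simp only [tP, Matrix.conjTranspose_apply, Matrix.of_apply, and_comm (a := π b = _), or_comm (a := π a = p.2 ∧ _)]
  split_ifs <;> simp

theorem _root_.Crest.Agent.R330.tI_herm (π : Lab N) : (tI π).IsHermitian := by
  ext a b
  simp only [tI, Matrix.conjTranspose_apply, Matrix.of_apply]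
  rcases lt_trichotomy (π a) (π b) with h | h | h
  · simp [h, h.not_gt]
  · simp [h]
  · simp [h, h.not_gt]

/-! ### the decomposition -/

theorem oZL (π : Lab N) {u v : E} (hu : u ∈ B.Zs π) (hv : v ∈ B.Ls π) : ⟪u, v⟫_ℝ = 0 := by
  rw [B.inner_sum, Finset.sum_congr rfl fun a _ => Finset.sum_eq_single a
    (fun b _ h => by rw [hu.1 a b h.symm, zero_mul]) (by simp), π.sum_mul_eq_zero hu.2 hv.2, Complex.zero_re]

theorem oZH (π : Lab N) {u v : E} (hu : u ∈ B.Zs π) (hv : v ∈ B.Hs π) : ⟪u, v⟫_ℝ = 0 := by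
  rw [B.inner_sum, Finset.sum_eq_zero fun a _ => Finset.sum_eq_zero fun b _ => ?_, Complex.zero_re]
  rcases eq_or_ne a b with rfl | h
  · rw [hv a a rfl, mul_zero]
  · rw [hu.1 a b h, zero_mul]

theorem oLH (π : Lab N) {u v : E} (hu : u ∈ B.Ls π) (hv : v ∈ B.Hs π) : ⟪u, v⟫_ℝ = 0 := by
  rw [B.inner_sum, Finset.sum_eq_zero fun a _ => Finset.sum_eq_zero fun b _ => ?_, Complex.zero_re]
  rcases eq_or_ne (π a) (π b) with h | h
  · rw [hv b a h.symm, mul_zero]
  · rw [hu.1 a b h, zero_mul]

/-- `h` = off-`π`-block part, `z` = diagonal matrix of the `π`-cluster means of the diagonal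
(`Finset.sum_fiberwise` shows that it is `σ`-block traceless), `l` = the rest. -/
theorem span {π : Lab N} (h : π.Ref σ) (v : E) :
    ∃ a ∈ B.Zs π, ∃ b ∈ B.Ls π, ∃ c ∈ B.Hs π, v = a + b + c := by
  set μ : Fin N → ℂ := fun c => (∑ b with π b = c, B.m v b b) / (Finset.univ.filter (π · = c)).card with hμ
  have h1 : ∀ c, ∑ a with π a = c, (B.m v a a - μ (π a)) = 0 := fun c => by
    rw [Finset.sum_sub_distrib, Finset.sum_congr rfl fun a ha => congrArg μ (Finset.mem_filter.1 ha).2,
      Finset.sum_const, nsmul_eq_mul, hμ]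
    rcases (Finset.univ.filter (π · = c)).eq_empty_or_nonempty with h | h
    · simp [h]
    · have : ((Finset.univ.filter (π · = c)).card : ℂ) ≠ 0 := by exact_mod_cast h.card_pos.ne'
      simp only
      rw [mul_div_cancel₀ _ this, sub_self]
  obtain ⟨z, hz⟩ := B.surj (Matrix.diagonal fun a => μ (π a))
    (Matrix.isHermitian_diagonal_iff.2 fun a => by simp [IsSelfAdjoint, hμ, B.star_m])
    (fun a b hab => Matrix.diagonal_apply_ne _ fun e => hab (congrArg σ e)) (fun c => by
      have := h.sum_eq_zero h1 c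
      rw [Finset.sum_sub_distrib, B.trl, zero_sub, neg_eq_zero] at this
      simpa using this)
  obtain ⟨y, hy⟩ := B.surj (Matrix.of fun a b => if π a = π b then 0 else B.m v a b)
    (by
      ext a b
      simp only [Matrix.conjTranspose_apply, Matrix.of_apply, eq_comm (a := π b)]
      split_ifs <;> simp [B.star_m])
    (fun a b hab => by simp [B.blk v a b hab]) (fun c => by simp)
  refine ⟨z, ⟨fun a b hab => by rw [hz, Matrix.diagonal_apply_ne _ hab], fun a b hab => by simp [hz, hab]⟩,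
    v - z - y, ⟨fun a b hab => ?_, fun c => by simpa [hz, hy] using h1 c⟩, y, fun a b hab => by simp [hy, hab],
    by abel⟩
  simp [hz, hy, hab, Matrix.diagonal_apply_ne _ fun e => hab (congrArg π e)]

theorem nbM1b_brZ (π : Lab N) {u : E} (hu : u ∈ B.Zs π) (v : E) (a b : Fin N) :
    B.m (𝔤.br u v) a b = Complex.I * (B.m u a a - B.m u b b) * B.m v a b := by
  rw [B.m_br, Finset.sum_sub_distrib, Finset.sum_eq_single a (fun q _ h => by rw [hu.1 a q h.symm, zero_mul]) (by simp),
    Finset.sum_eq_single b (fun q _ h => by rw [hu.1 q b h, mul_zero]) (by simp)]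
  ring

theorem brZZ (π : Lab N) {u v : E} (hu : u ∈ B.Zs π) (hv : v ∈ B.Zs π) : 𝔤.br u v = 0 := by
  refine B.injective (Matrix.ext fun a b => ?_)
  rw [B.nbM1b_brZ π hu]
  rcases eq_or_ne a b with rfl | h
  · simp
  · simp [hv.1 a b h]

theorem brZL (π : Lab N) {u v : E} (hu : u ∈ B.Zs π) (hv : v ∈ B.Ls π) : 𝔤.br u v = 0 := by
  refine B.injective (Matrix.ext fun a b => ?_)
  rw [B.nbM1b_brZ π hu]
  rcases eq_or_ne (π a) (π b) with h | h
  · simp [hu.2 a b h]
  · simp [hv.1 a b h]

/-- Block trace of a commutator of block diagonal matrices: `Σ_{a,q ∈ c} (u_aq v_qa - v_aq u_qa)`,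
`Finset.sum_comm`. -/
theorem brLL (π : Lab N) {u v : E} (hu : u ∈ B.Ls π) (hv : v ∈ B.Ls π) : 𝔤.br u v ∈ B.Ls π := by
  refine ⟨fun a b hab => ?_, fun c => ?_⟩
  · rw [B.m_br, Finset.sum_eq_zero fun q _ => ?_, mul_zero]
    rcases eq_or_ne (π a) (π q) with h | h
    · simp [hu.1 q b (h ▸ hab), hv.1 q b (h ▸ hab)]
    · simp [hu.1 a q h, hv.1 a q h]
  · simp only [B.m_br, ← Finset.mul_sum, Finset.sum_sub_distrib, Finset.sum_filter]
    rw [mul_eq_zero, sub_eq_zero]
    right
    simp only [Finset.ite_sum_zero]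
    rw [Finset.sum_comm]
    refine Finset.sum_congr rfl fun a _ => Finset.sum_congr rfl fun q _ => ?_
    rcases eq_or_ne (π a) (π q) with h | h
    · rw [h, mul_comm]
    · simp [hv.1 a q h]

theorem brLH (π : Lab N) {u v : E} (hu : u ∈ B.Ls π) (hv : v ∈ B.Hs π) : 𝔤.br u v ∈ B.Hs π := by
  intro a b hab
  rw [B.m_br, Finset.sum_eq_zero fun q _ => ?_, mul_zero]
  rcases eq_or_ne (π a) (π q) with h | h
  · simp [hv a q h, hv q b (h ▸ hab)]
  · simp [hu.1 a q h, hu.1 q b fun e => h (hab.trans e.symm)]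

/-- Entries of a bracket with a central element. -/
theorem m_brZ (π : Lab N) {u : E} (hu : u ∈ B.Zs π) (v : E) (a b : Fin N) :
    B.m (𝔤.br u v) a b = Complex.I * (B.m u a a - B.m u b b) * B.m v a b := by
  exact B.nbM1b_brZ π hu v a b

/-- A multiplier that only depends on the clusters commutes with the light adjoint action. -/
theorem had_brL (π : Lab N) {t : Matrix (Fin N) (Fin N) ℂ} (ht : t.IsHermitian)
    (htc : ∀ a a' b b', π a = π a' → π b = π b' → t a b = t a' b') {u v : E} (hu : u ∈ B.Ls π)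
    (hv : v ∈ B.Hs π) : 𝔤.br u (B.had t v) = B.had t (𝔤.br u v) := by
  refine B.injective (Matrix.ext fun a b => ?_)
  rw [B.m_had ht (B.brLH π hu hv), B.m_br, B.m_br, mul_left_comm, Finset.mul_sum _ _ (t a b)]
  congr 1
  refine Finset.sum_congr rfl fun q _ => ?_
  rw [B.m_had ht hv, B.m_had ht hv, mul_sub]
  congr 1
  · rcases eq_or_ne (π a) (π q) with h | h
    · rw [htc a q b b h rfl]; ring
    · simp [hu.1 a q h]
  · rcases eq_or_ne (π q) (π b) with h | h
    · rw [htc a a q b rfl h]; ring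
    · simp [hu.1 q b h]

end BSys

end Crest.Agent.R330

end
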