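import Crest.Agent.R330.NB.M1

/-! # Row 330, NB/M2 (statements frozen; see `R330/Blueprint.lean`, `R330/NB/Defs.lean`) -/

set_option autoImplicit false
set_option linter.unusedSectionVars false

noncomputable section

open MeasureTheory Filter Topology Metric
open scoped InnerProductSpace ContDiff Matrix
open Crest.MathPhysics.MatrixQM (GammaNine)

namespace Crest.Agent.R330

variable {E : Type} [NormedAddCommGroup E] [InnerProductSpace ℝ E] [FiniteDimensional ℝ E]
  {N : ℕ} {σ : Lab N} {𝔤 : Lie E}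
  {K : Type} [Group K] [TopologicalSpace K] [IsTopologicalGroup K]
  [CompactSpace K] [MeasurableSpace K] [BorelSpace K]

namespace BSys

variable (B : BSys σ 𝔤)

/-- Schur multiplier restricted to the heavy space. -/
def hadH (π : Lab N) {t : Matrix (Fin N) (Fin N) ℂ} (ht : t.IsHermitian) :
    B.Hs π →ₗ[ℝ] B.Hs π := (B.had t).restrict (B.had_mem ht)

theorem m_hadH (π : Lab N) {t : Matrix (Fin N) (Fin N) ℂ} (ht : t.IsHermitian) (v : B.Hs π)
    (a b : Fin N) : B.m (B.hadH π ht v : E) a b = t a b * B.m (v : E) a b :=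
  B.m_had ht v.2 a b

/-- Projection on the pair `p`. -/
def prH (π : Lab N) (p : Pr σ π) : B.Hs π →ₗ[ℝ] B.Hs π := B.hadH π (tP_herm π p.1)

/-- The complex structure. -/
def IH (π : Lab N) : B.Hs π →ₗ[ℝ] B.Hs π := B.hadH π (tI_herm π)

/-- The root of the pair `p`. -/
def alpha (π : Lab N) (p : Pr σ π) : B.Zs π →ₗ[ℝ] ℝ where
  toFun z := (B.m (z : E) p.2.2.choose p.2.2.choose).re -
    (B.m (z : E) p.2.2.choose_spec.choose p.2.2.choose_spec.choose).re
  map_add' u v := by simp; ring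
  map_smul' r v := by simp; ring

theorem alpha_eq (π : Lab N) (p : Pr σ π) (z : B.Zs π) {a b : Fin N} (ha : π a = p.1.1)
    (hb : π b = p.1.2) : B.alpha π p z = (B.m (z : E) a a).re - (B.m (z : E) b b).re := by
  have h := p.2.2.choose_spec.choose_spec
  show (B.m (z : E) p.2.2.choose p.2.2.choose).re -
    (B.m (z : E) p.2.2.choose_spec.choose p.2.2.choose_spec.choose).re = _
  rw [z.2.2 _ a (h.1.trans ha.symm), z.2.2 _ b (h.2.1.trans hb.symm)]

/-- The light Lie algebra. -/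
def lieL (π : Lab N) : Lie (B.Ls π) where
  br := LinearMap.mk₂ ℝ (fun u v => ⟨𝔤.br u v, B.brLL π u.2 v.2⟩)
    (fun _ _ _ => by ext; simp) (fun _ _ _ => by ext; simp)
    (fun _ _ _ => by ext; simp) (fun _ _ _ => by ext; simp)
  anti u v := by ext; simpa using 𝔤.anti u v
  inv u v w := by simpa [Submodule.coe_inner] using 𝔤.inv u v w
  jac u v w := by ext; simpa using 𝔤.jac u v w

/-- The light adjoint action on the heavy space. -/
def adH (π : Lab N) : B.Ls π →ₗ[ℝ] B.Hs π →ₗ[ℝ] B.Hs π :=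
  LinearMap.mk₂ ℝ (fun u v => ⟨𝔤.br u v, B.brLH π u.2 v.2⟩)
    (fun _ _ _ => by ext; simp) (fun _ _ _ => by ext; simp)
    (fun _ _ _ => by ext; simp) (fun _ _ _ => by ext; simp)

theorem coe_adH (π : Lab N) (u : B.Ls π) (v : B.Hs π) : (B.adH π u v : E) = 𝔤.br u v := rfl

/-! All identities below: `Subtype.ext`, `B.injective`, `Matrix.ext`, `m_hadH`, case analysis. -/

theorem nbM2_ext {π : Lab N} {u v : B.Hs π} (h : ∀ a b, B.m (u : E) a b = B.m (v : E) a b) : u = v :=
  Subtype.ext (B.injective (Matrix.ext h))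

theorem m_prH (π : Lab N) (p : Pr σ π) (v : B.Hs π) (a b : Fin N) :
    B.m (B.prH π p v : E) a b = tP π p.1 a b * B.m (v : E) a b := B.m_hadH π _ v a b

theorem m_IH (π : Lab N) (v : B.Hs π) (a b : Fin N) :
    B.m (B.IH π v : E) a b = tI π a b * B.m (v : E) a b := B.m_hadH π _ v a b

theorem nbM2_symm (π : Lab N) (p : Fin N × Fin N) (a b : Fin N) : tP π p b a = tP π p a b := by
  simp only [tP, Matrix.of_apply, and_comm (a := π b = _), or_comm (a := π a = p.2 ∧ _)]

theorem nbM2_anti (π : Lab N) (a b : Fin N) : tI π b a = -tI π a b := by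
  simp only [tI, Matrix.of_apply]
  rcases lt_trichotomy (π a) (π b) with h | h | h
  · simp [h, h.not_gt]
  · simp [h]
  · simp [h, h.not_gt]

theorem nbM2_zero {π : Lab N} {p q : Pr σ π} (h : p ≠ q) {a b : Fin N}
    (hq : (π a = q.1.1 ∧ π b = q.1.2) ∨ (π a = q.1.2 ∧ π b = q.1.1)) : tP π p.1 a b = 0 := by
  refine if_neg fun hp => h (Subtype.ext (Prod.ext ?_ ?_)) <;> have := p.2.1 <;> have := q.2.1 <;> omega

theorem nbM2_exists (π : Lab N) {a b : Fin N} (h1 : σ a = σ b) (h2 : π a ≠ π b) :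
    ∃ q : Pr σ π, (π a = q.1.1 ∧ π b = q.1.2) ∨ (π a = q.1.2 ∧ π b = q.1.1) := by
  rcases h2.lt_or_gt with h | h
  · exact ⟨⟨(π a, π b), h, a, b, rfl, rfl, h1⟩, Or.inl ⟨rfl, rfl⟩⟩
  · exact ⟨⟨(π b, π a), h, b, a, rfl, rfl, h1.symm⟩, Or.inr ⟨rfl, rfl⟩⟩

theorem nbM2_cases (π : Lab N) (v : B.Hs π) (a b : Fin N) : B.m (v : E) a b = 0 ∨ (σ a = σ b ∧ π a ≠ π b) := by
  by_cases h1 : σ a = σ b
  · by_cases h2 : π a = π b
    · exact Or.inl (v.2 a b h2)
    · exact Or.inr ⟨h1, h2⟩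
  · exact Or.inl (B.blk _ a b h1)

theorem prH_sym (π : Lab N) (p : Pr σ π) (u v : B.Hs π) :
    ⟪B.prH π p u, v⟫_ℝ = ⟪u, B.prH π p v⟫_ℝ := by
  simp only [Submodule.coe_inner, B.inner_sum, m_prH]
  congr 1
  refine Finset.sum_congr rfl fun a _ => Finset.sum_congr rfl fun b _ => ?_
  rw [nbM2_symm π p.1 a b]; ring

theorem prH_idem (π : Lab N) (p : Pr σ π) (v : B.Hs π) : B.prH π p (B.prH π p v) = B.prH π p v := by
  refine B.nbM2_ext fun a b => ?_
  simp only [m_prH, tP, Matrix.of_apply]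
  split_ifs <;> simp

theorem prH_orth (π : Lab N) (p q : Pr σ π) (h : p ≠ q) (v : B.Hs π) :
    B.prH π p (B.prH π q v) = 0 := by
  refine B.nbM2_ext fun a b => ?_
  rw [m_prH, m_prH]
  by_cases hq : (π a = q.1.1 ∧ π b = q.1.2) ∨ (π a = q.1.2 ∧ π b = q.1.1)
  · simp [nbM2_zero h hq]
  · simp only [tP, Matrix.of_apply, if_neg hq]
    simp

/-- A nonzero entry `(a, b)` of `v` has `σ a = σ b`, `π a ≠ π b`, so lies in exactly one pair. -/
theorem prH_sum (π : Lab N) (v : B.Hs π) : ∑ p, B.prH π p v = v := by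
  refine B.nbM2_ext fun a b => ?_
  simp only [Submodule.coe_sum, map_sum, Matrix.sum_apply, m_prH]
  rcases B.nbM2_cases π v a b with h | h
  · simp [h]
  · obtain ⟨q, hq⟩ := nbM2_exists π h.1 h.2
    rw [Finset.sum_eq_single q (fun p _ hp => by rw [nbM2_zero hp hq, zero_mul]) (by simp), tP, Matrix.of_apply,
      if_pos hq, one_mul]

theorem IH_cx (π : Lab N) : IsCx (B.IH π) := by
  refine ⟨fun u v => ?_, fun v => B.nbM2_ext fun a b => ?_⟩
  · simp only [Submodule.coe_inner, B.inner_sum, m_IH, ← Complex.neg_re, ← Finset.sum_neg_distrib]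
    congr 1
    refine Finset.sum_congr rfl fun a _ => Finset.sum_congr rfl fun b _ => ?_
    rw [nbM2_anti π a b]; ring
  · simp only [m_IH, Submodule.coe_neg, map_neg, Matrix.neg_apply, tI, Matrix.of_apply, ← mul_assoc]
    rcases lt_trichotomy (π a) (π b) with h | h | h
    · simp [h]
    · simp [v.2 a b h]
    · simp [h, h.not_gt]

theorem IH_prH (π : Lab N) (p : Pr σ π) (v : B.Hs π) :
    B.IH π (B.prH π p v) = B.prH π p (B.IH π v) := by
  refine B.nbM2_ext fun a b => ?_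
  simp only [m_prH, m_IH, mul_left_comm]

theorem brZH (π : Lab N) (a : B.Zs π) (v : B.Hs π) :
    𝔤.br (a : E) (v : E) = ((∑ p, B.alpha π p a • B.IH π (B.prH π p v) : B.Hs π) : E) := by
  refine B.injective (Matrix.ext fun r s => ?_)
  simp only [B.m_brZ π a.2, Submodule.coe_sum, map_sum, Matrix.sum_apply, Submodule.coe_smul, map_smul,
    Matrix.smul_apply, m_IH, m_prH]
  rcases B.nbM2_cases π v r s with h | h
  · simp [h]
  · obtain ⟨q, hq⟩ := nbM2_exists π h.1 h.2
    rw [Finset.sum_eq_single q (fun p _ hp => by simp [nbM2_zero hp hq]) (by simp), tP, Matrix.of_apply,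
      if_pos hq, one_mul, ← B.diag_re a r, ← B.diag_re a s, tI, Matrix.of_apply]
    have := q.2.1
    rcases hq with hq | hq
    · rw [B.alpha_eq π q a hq.1 hq.2, if_pos (by omega), Complex.real_smul]
      push_cast; ring
    · rw [B.alpha_eq π q a hq.2 hq.1, if_neg (by omega), if_pos (by omega), Complex.real_smul]
      push_cast; ring

theorem adH_IH (π : Lab N) (a : B.Ls π) (v : B.Hs π) :
    B.adH π a (B.IH π v) = B.IH π (B.adH π a v) := by
  exact Subtype.ext (B.had_brL π (tI_herm π) (fun _ _ _ _ h h' => by simp only [tI, Matrix.of_apply, h, h']) a.2 v.2)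

theorem adH_prH (π : Lab N) (a : B.Ls π) (p : Pr σ π) (v : B.Hs π) :
    B.adH π a (B.prH π p v) = B.prH π p (B.adH π a v) := by
  exact Subtype.ext (B.had_brL π (tP_herm π p.1) (fun _ _ _ _ h h' => by simp only [tP, Matrix.of_apply, h, h'])
    a.2 v.2)

/-- `⟪pr u, ⟦pr v, y⟧⟫ = ⟪⟦pr u, pr v⟧, y⟫` and `⟦pr u, pr v⟧` is `π`-block diagonal. -/
theorem hhh (π : Lab N) (p : Pr σ π) (u v y : B.Hs π) :
    ⟪(B.prH π p u : E), 𝔤.br (B.prH π p v : E) (y : E)⟫_ℝ = 0 := by
  rw [← 𝔤.inv, B.inner_sum, Finset.sum_eq_zero fun a _ => Finset.sum_eq_zero fun b _ => ?_, Complex.zero_re]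
  rcases eq_or_ne (π a) (π b) with h | h
  · rw [y.2 b a h.symm, mul_zero]
  rw [B.m_br, Finset.sum_eq_zero fun q _ => ?_, mul_zero, zero_mul]
  have : tP π p.1 a q = 0 ∨ tP π p.1 q b = 0 := by
    by_contra! hc
    have h1 := of_not_not fun e => hc.1 (if_neg e)
    have h2 := of_not_not fun e => hc.2 (if_neg e)
    have := p.2.1
    omega
  rcases this with e | e <;> simp [m_prH, e]

/-- Parseval frame of the heavy space: for ordered pairs `(r, s)` with `σ r = σ s`, `π r ≠ π s`,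
`e_rs = un((E_rs + E_sr)/2)`, `f_rs = un(i(E_rs - E_sr)/2)`; `x = Σ (Re x_rs e_rs + Im x_rs f_rs)`,
so `T = Σ (Re ·_rs) ⊗ T e_rs + (Im ·_rs) ⊗ T f_rs` and `LinearMap.trace_smulRight` applies. -/
theorem trace_eq (π : Lab N) (T : B.Hs π →ₗ[ℝ] B.Hs π) :
    ∃ e f : Fin N → Fin N → B.Hs π,
      (∀ r s, σ r = σ s → π r ≠ π s →
        B.m (e r s : E) = (1 / 2 : ℂ) • (Matrix.single r s 1 + Matrix.single s r 1) ∧
        B.m (f r s : E) = (Complex.I / 2) • (Matrix.single r s 1 - Matrix.single s r 1)) ∧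
      LinearMap.trace ℝ (B.Hs π) T = ∑ r, ∑ s, if σ r = σ s ∧ π r ≠ π s then
        (B.m (T (e r s) : E) r s).re + (B.m (T (f r s) : E) r s).im else 0 := by
  have key : ∀ (c : ℂ) r s, ∃ e : B.Hs π, σ r = σ s → π r ≠ π s →
      B.m (e : E) = c • Matrix.single r s 1 + (starRingEnd ℂ) c • Matrix.single s r 1 := by
    intro c r s
    by_cases h : σ r = σ s ∧ π r ≠ π s
    swap
    · exact ⟨0, fun h1 h2 => absurd ⟨h1, h2⟩ h⟩
    have h0 : ∀ a b, σ a ≠ σ b ∨ π a = π b →
        (c • Matrix.single r s (1 : ℂ) + (starRingEnd ℂ) c • Matrix.single s r (1 : ℂ)) a b = 0 := fun a b hab => by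
      rw [Matrix.add_apply, Matrix.smul_apply, Matrix.smul_apply, Matrix.single_apply_of_ne, Matrix.single_apply_of_ne,
        smul_zero, smul_zero, add_zero]
      · rintro ⟨rfl, rfl⟩; exact hab.elim (fun e => e h.1.symm) fun e => h.2 e.symm
      · rintro ⟨rfl, rfl⟩; exact hab.elim (fun e => e h.1) h.2
    obtain ⟨v, hv⟩ := B.surj (c • Matrix.single r s 1 + (starRingEnd ℂ) c • Matrix.single s r 1)
      (by simp [Matrix.IsHermitian, add_comm]) (fun a b hab => h0 a b (Or.inl hab))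
      fun _ => Finset.sum_eq_zero fun a _ => h0 a a (Or.inr rfl)
    exact ⟨⟨v, fun a b hab => by rw [hv, h0 a b (Or.inr hab)]⟩, fun _ _ => hv⟩
  choose g hg using key
  refine ⟨g (1 / 2), g (Complex.I / 2), fun r s h1 h2 => ⟨?_, ?_⟩, ?_⟩
  · rw [hg _ r s h1 h2, smul_add]; simp [map_ofNat]
  · rw [hg _ r s h1 h2, smul_sub, sub_eq_add_neg, ← neg_smul]; simp [neg_div, map_ofNat]
  set ent : Fin N → Fin N → B.Hs π →ₗ[ℝ] ℂ := fun r s => Matrix.entryLinearMap ℝ ℂ r s ∘ₗ B.m ∘ₗ (B.Hs π).subtype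
  have hT : T = ∑ r, ∑ s, if σ r = σ s ∧ π r ≠ π s then
      (Complex.reLm ∘ₗ ent r s).smulRight (T (g (1 / 2) r s)) +
        (Complex.imLm ∘ₗ ent r s).smulRight (T (g (Complex.I / 2) r s)) else 0 := by
    refine LinearMap.ext fun x => ?_
    have hx : x = ∑ r, ∑ s, if σ r = σ s ∧ π r ≠ π s then
        (B.m (x : E) r s).re • g (1 / 2) r s + (B.m (x : E) r s).im • g (Complex.I / 2) r s else 0 := by
      refine Subtype.ext (B.injective ?_)
      have : ∀ r s, B.m ((if σ r = σ s ∧ π r ≠ π s then (B.m (x : E) r s).re • g (1 / 2) r s +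
          (B.m (x : E) r s).im • g (Complex.I / 2) r s else 0 : B.Hs π) : E) =
          (1 / 2 : ℂ) • Matrix.single r s (B.m (x : E) r s) + (1 / 2 : ℂ) • Matrix.single s r (B.m (x : E) s r) := by
        intro r s
        rw [← B.star_m x r s]
        split_ifs with h
        · simp only [Submodule.coe_add, Submodule.coe_smul, map_add, map_smul, hg _ r s h.1 h.2, Matrix.smul_single,
            smul_add]
          rw [add_add_add_comm, ← Matrix.single_add, ← Matrix.single_add]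
          congr 2 <;> apply Complex.ext <;> simp [map_ofNat] <;> ring
        · simp [(B.nbM2_cases π x r s).resolve_right h]
      simp only [Submodule.coe_sum, map_sum, this, Finset.sum_add_distrib, ← Finset.smul_sum]
      rw [Finset.sum_comm (f := fun r s => Matrix.single s r (B.m (x : E) s r)), ← Matrix.matrix_eq_sum_single,
        ← add_smul, add_halves, one_smul]
    conv_lhs => rw [hx]
    simp only [map_sum, LinearMap.sum_apply]
    refine Finset.sum_congr rfl fun r _ => Finset.sum_congr rfl fun s _ => ?_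
    split_ifs
    · simp [ent]
    · simp
  conv_lhs => rw [hT]
  simp only [map_sum]
  refine Finset.sum_congr rfl fun r _ => Finset.sum_congr rfl fun s _ => ?_
  split_ifs
  · simp [ent]
  · simp

/-- With `trace_eq`: the `(r, s)` term is `∓ 1_p (a_rr - a_ss)`; the sums over
`c₁ × c₂` and `c₂ × c₁` vanish because `a` is block traceless. -/
theorem trL {π : Lab N} (h : π.Ref σ) (a : B.Ls π) (p : Pr σ π) :
    LinearMap.trace ℝ (B.Hs π) (B.IH π ∘ₗ B.prH π p ∘ₗ B.adH π a) = 0 := by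
  obtain ⟨e, f, hef, ht⟩ := B.trace_eq π (B.IH π ∘ₗ B.prH π p ∘ₗ B.adH π a)
  set d : Fin N → ℝ := fun r => (B.m (a : E) r r).re with hd
  have h0 : ∀ c, ∑ r with π r = c, d r = 0 := fun c => by
    simpa [Complex.re_sum] using congrArg Complex.re (a.2.2 c)
  have h1 : ∀ c c', ∑ r, ∑ s, (if π r = c ∧ π s = c' then d r - d s else 0) = 0 := fun c c' => by
    simp only [ite_and, Finset.sum_ite_irrel, ← Finset.sum_filter, Finset.sum_const_zero, Finset.sum_sub_distrib, h0,
      Finset.sum_const, ← Finset.smul_sum, smul_zero, sub_zero]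
  refine ht.trans (Eq.trans ?_ (sub_eq_zero.2 ((h1 p.1.2 p.1.1).trans (h1 p.1.1 p.1.2).symm)))
  simp only [← Finset.sum_sub_distrib]
  refine Finset.sum_congr rfl fun r _ => Finset.sum_congr rfl fun s _ => ?_
  have hp := p.2.1
  by_cases hq : (π r = p.1.1 ∧ π s = p.1.2) ∨ (π r = p.1.2 ∧ π s = p.1.1)
  swap
  · rw [if_neg (mt Or.inr hq), if_neg (mt Or.inl hq)]
    simp only [LinearMap.comp_apply, m_IH, m_prH, tP, Matrix.of_apply, if_neg hq]
    simp
  have h2 : π r ≠ π s := by omega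
  have h3 : σ r = σ s := by
    obtain ⟨x, y, hx, hy, hxy⟩ := p.2.2
    rcases hq with hq | hq
    · rw [h r x (hq.1.trans hx.symm), h s y (hq.2.trans hy.symm), hxy]
    · rw [h r y (hq.1.trans hy.symm), h s x (hq.2.trans hx.symm), hxy]
  have h4 : r ≠ s := fun e => h2 (congrArg π e)
  rw [if_pos ⟨h3, h2⟩]
  simp only [LinearMap.comp_apply, m_IH, m_prH, tP, Matrix.of_apply, if_pos hq, coe_adH, B.br, (hef r s h3 h2).1,
    (hef r s h3 h2).2, Matrix.mul_smul, Matrix.smul_mul, Matrix.mul_add, Matrix.add_mul, Matrix.mul_sub, Matrix.sub_mul,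
    Matrix.smul_apply, Matrix.sub_apply, Matrix.add_apply, Matrix.mul_single_apply_same, Matrix.single_mul_apply_same,
    Matrix.mul_single_apply_of_ne _ _ _ _ _ h4.symm, Matrix.single_mul_apply_of_ne _ _ _ _ _ h4, tI]
  rw [← B.diag_re a r, ← B.diag_re a s]
  rcases hq with hq | hq
  · rw [if_pos (by omega), if_neg (by omega), if_pos hq]
    simp [hd]; ring
  · rw [if_neg (by omega), if_pos (by omega), if_pos hq, if_neg (by omega)]
    simp [hd]; ring

/-- The Levi decomposition attached to a refinement. -/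
def levi {π : Lab N} (h : π.Ref σ) : Levi 𝔤 (B.Zs π) (B.Ls π) (B.Hs π) (Pr σ π) where
  iZ := (B.Zs π).subtypeₗᵢ
  iL := (B.Ls π).subtypeₗᵢ
  iH := (B.Hs π).subtypeₗᵢ
  oZL a b := B.oZL π a.2 b.2
  oZH a b := B.oZH π a.2 b.2
  oLH a b := B.oLH π a.2 b.2
  span v := by
    obtain ⟨a, ha, b, hb, c, hc, e⟩ := B.span h v
    exact ⟨⟨a, ha⟩, ⟨b, hb⟩, ⟨c, hc⟩, e⟩
  𝔩 := B.lieL π
  brZZ a b := B.brZZ π a.2 b.2
  brZL a b := B.brZL π a.2 b.2
  brLL _ _ := rfl
  pr := B.prH π
  pr_sym := B.prH_sym π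
  pr_idem := B.prH_idem π
  pr_orth := B.prH_orth π
  pr_sum := B.prH_sum π
  I := B.IH π
  I_cx := B.IH_cx π
  I_pr := B.IH_prH π
  α := B.alpha π
  brZH := B.brZH π
  adL := B.adH π
  brLH _ _ := rfl
  adL_I := B.adH_IH π
  adL_pr := B.adH_prH π
  trL := B.trL h
  hhh := B.hhh π

/-- The light algebra is the block system of `π` (`surj`: a `π`-block traceless matrix is
`σ`-block traceless, `Finset.sum_fiberwise`). -/
theorem sub_surj {π : Lab N} (h : π.Ref σ) (A : Matrix (Fin N) (Fin N) ℂ) (h1 : A.IsHermitian)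
    (h2 : ∀ a b, π a ≠ π b → A a b = 0) (h3 : ∀ c, ∑ a with π a = c, A a a = 0) :
    ∃ v ∈ B.Ls π, B.m v = A := by
  obtain ⟨v, rfl⟩ := B.surj A h1 (fun a b hab => h2 a b fun e => hab (h a b e)) (h.sum_eq_zero h3)
  exact ⟨v, ⟨h2, h3⟩, rfl⟩

/-- The subsystem. -/
def sub {π : Lab N} (h : π.Ref σ) : BSys π (B.levi h).𝔩 where
  m := B.m ∘ₗ (B.Ls π).subtype
  herm v := B.herm v
  blk v := v.2.1
  trl v := v.2.2
  inner u v := B.inner u v
  br u v := B.br u v
  surj A h1 h2 h3 := by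
    obtain ⟨v, hv, e⟩ := B.sub_surj h A h1 h2 h3
    exact ⟨⟨v, hv⟩, e⟩

end BSys

end Crest.Agent.R330

end
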