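import Crest.Agent.R330.NB.M1
import Crest.Agent.R330.IU

/-! # Row 330, NB/M3 (statements frozen; see `R330/Blueprint.lean`, `R330/NB/Defs.lean`) -/

set_option autoImplicit false
set_option linter.unusedSectionVars false

noncomputable section

open MeasureTheory Filter Topology Metric
open scoped InnerProductSpace ContDiff Matrix
open Crest.MathPhysics.MatrixQM (GammaNine)

namespace Crest.Agent.R330

variable {E : Type} [NormedAddCommGroup E] [InnerProductSpace ℝ E] [FiniteDimensional ℝ E]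
  {N : ℕ} {σ : Lab N} {𝔤 : Lie E}
  {K : Type} [Group K] [TopologicalSpace K] [IsTopologicalGroup K]
  [CompactSpace K] [MeasurableSpace K] [BorelSpace K]

theorem nbM3_comm (σ : Lab N) (A : Matrix (Fin N) (Fin N) ℂ) :
    Commute (Matrix.diagonal fun a => ((σ a : ℕ) : ℂ)) A ↔ ∀ a b, σ a ≠ σ b → A a b = 0 := by
  simp only [Commute, SemiconjBy, ← Matrix.ext_iff, Matrix.diagonal_mul, Matrix.mul_diagonal]
  refine forall₂_congr fun a b => ?_
  rw [mul_comm (A a b), mul_eq_mul_right_iff, Nat.cast_inj, Fin.val_inj, or_iff_not_imp_left]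

theorem nbM3_star {h : Matrix (Fin N) (Fin N) ℂ} (hh : h.IsHermitian) :
    star (NormedSpace.exp (Complex.I • h)) = NormedSpace.exp (-(Complex.I • h)) := by
  rw [Matrix.star_eq_conjTranspose, ← Matrix.exp_conjTranspose, Matrix.conjTranspose_smul, hh.eq]
  simp

namespace BSys

variable (B : BSys σ 𝔤)

/-- `exp(i m ξ)` is unitary (`exp_I_mem_unitary`) and block diagonal: it commutes with the block
projections `diagonal (1_{σ = c})` (`Commute.exp_right`); `map_rexp'_br`, `Matrix.exp_conjTranspose`. -/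
theorem exists_unitary_exp (ξ : E) : ∃ u : Matrix.unitaryGroup (Fin N) ℂ,
    (∀ a b, σ a ≠ σ b → (u : Matrix (Fin N) (Fin N) ℂ) a b = 0) ∧ ∀ v,
      B.m (rexp' (𝔤.br ξ) v) =
        (u : Matrix (Fin N) (Fin N) ℂ) * B.m v * star (u : Matrix (Fin N) (Fin N) ℂ) := by
  borelize E
  refine ⟨⟨_, exp_I_mem_unitary (B.herm ξ)⟩, (nbM3_comm σ _).1
    (((nbM3_comm σ _).2 (B.blk ξ)).smul_right Complex.I).exp_right, fun v => ?_⟩
  rw [map_rexp'_br B.m B.br, ← nbM3_star (B.herm ξ)]

/-- `u = exp(i h)` (`exists_exp_unitary`), `h` commutes with the block projections, so is block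
diagonal; subtract the block means `D` of its diagonal (`D` commutes with all block diagonal
matrices, `exp(ih) = exp(i(h - D)) exp(iD)`), `h - D = m ξ`. -/
theorem exists_exp_of_unitary (u : Matrix.unitaryGroup (Fin N) ℂ)
    (hu : ∀ a b, σ a ≠ σ b → (u : Matrix (Fin N) (Fin N) ℂ) a b = 0) : ∃ ξ : E, ∀ v,
      B.m (rexp' (𝔤.br ξ) v) =
        (u : Matrix (Fin N) (Fin N) ℂ) * B.m v * star (u : Matrix (Fin N) (Fin N) ℂ) := by
  borelize E
  obtain ⟨h, hh, e, hc⟩ := exists_exp_unitary u
  have hb : ∀ a b, σ a ≠ σ b → h a b = 0 := (nbM3_comm σ h).1 (hc _ ((nbM3_comm σ _).2 hu))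
  set μ : Fin N → ℂ := fun c => (∑ b with σ b = c, h b b) / (Finset.univ.filter (σ · = c)).card with hμ
  set D : Matrix (Fin N) (Fin N) ℂ := Matrix.diagonal fun a => μ (σ a) with hD
  have hDh : D.IsHermitian := Matrix.isHermitian_diagonal_iff.2 fun a => by
    have : ∀ b, (starRingEnd ℂ) (h b b) = h b b := fun b => hh.apply b b
    simp [IsSelfAdjoint, hμ, this]
  have hDc : ∀ v, Commute (B.m v) D := fun v => Matrix.ext fun a b => by
    rw [hD, Matrix.diagonal_mul, Matrix.mul_diagonal, mul_comm]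
    by_cases hab : σ a = σ b
    · rw [hab]
    · rw [B.blk v a b hab, mul_zero, mul_zero]
  obtain ⟨ξ, hξ⟩ := B.surj (h - D) (hh.sub hDh)
    (fun a b hab => by simp [hb a b hab, hD, Matrix.diagonal_apply_ne _ fun e => hab (congrArg σ e)]) fun c => by
      simp only [hD, Matrix.sub_apply, Matrix.diagonal_apply_eq]
      rw [Finset.sum_sub_distrib, Finset.sum_congr rfl fun a ha => congrArg μ (Finset.mem_filter.1 ha).2,
        Finset.sum_const, nsmul_eq_mul, hμ]
      rcases (Finset.univ.filter (σ · = c)).eq_empty_or_nonempty with h | h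
      · simp [h]
      · have : ((Finset.univ.filter (σ · = c)).card : ℂ) ≠ 0 := by exact_mod_cast h.card_pos.ne'
        simp only
        rw [mul_div_cancel₀ _ this, sub_self]
  refine ⟨ξ, fun v => ?_⟩
  have e2 : (u : Matrix (Fin N) (Fin N) ℂ) = NormedSpace.exp (Complex.I • B.m ξ) * NormedSpace.exp (Complex.I • D) := by
    rw [← Matrix.exp_add_of_commute _ _ (((hDc ξ).smul_left _).smul_right _), ← smul_add, hξ, sub_add_cancel, e]
  have e3 : NormedSpace.exp (Complex.I • D) * B.m v * star (NormedSpace.exp (Complex.I • D)) = B.m v := by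
    rw [← ((hDc v).smul_right Complex.I).exp_right.eq, mul_assoc, (exp_I_mem_unitary hDh).2, mul_one]
  rw [map_rexp'_br B.m B.br, ← nbM3_star (B.herm ξ), e2, star_mul, ← mul_assoc, mul_assoc _ _ (B.m v),
    mul_assoc _ _ (star (NormedSpace.exp (Complex.I • D))), e3]

/-- The block unitary group: `K` = the closed subgroup `{u | u a b = 0 for σ a ≠ σ b}` of
`Matrix.unitaryGroup` (compact by `unitaryGroup_compact`), `act u v = un (u * m v * star u)`
(`= rexp' (br ξ) v` by `exists_exp_of_unitary`, which gives the range condition and the isometry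
property via `norm_rexp'`), `borel`, `exists_haar`. -/
theorem exists_grp (B : BSys σ 𝔤) : ∃ (K : Type) (_ : Group K) (_ : TopologicalSpace K)
    (_ : IsTopologicalGroup K) (_ : CompactSpace K) (_ : MeasurableSpace K) (_ : BorelSpace K),
    Nonempty (Grp 𝔤 K) := by
  borelize E
  let G : Subgroup (Matrix.unitaryGroup (Fin N) ℂ) :=
    { carrier := {u | ∀ a b, σ a ≠ σ b → (u : Matrix (Fin N) (Fin N) ℂ) a b = 0}
      mul_mem' := fun hu hv => (nbM3_comm σ _).1 (((nbM3_comm σ _).2 hu).mul_right ((nbM3_comm σ _).2 hv))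
      one_mem' := (nbM3_comm σ _).1 (Commute.one_right _)
      inv_mem' := fun {u} hu a b hab => by
        change star ((u : Matrix (Fin N) (Fin N) ℂ) b a) = 0
        rw [hu b a hab.symm, star_zero] }
  have hcl : IsClosed (G : Set (Matrix.unitaryGroup (Fin N) ℂ)) := by
    change IsClosed {u : Matrix.unitaryGroup (Fin N) ℂ | ∀ a b, σ a ≠ σ b → (u : Matrix (Fin N) (Fin N) ℂ) a b = 0}
    simp only [Set.ofPred_forall]
    exact isClosed_iInter fun a => isClosed_iInter fun b => isClosed_iInter fun _ =>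
      isClosed_eq (continuous_subtype_val.matrix_elem a b) continuous_const
  have : CompactSpace G := isCompact_iff_compactSpace.1 hcl.isCompact
  borelize ↥G
  choose ξ hξ using fun u : G => B.exists_exp_of_unitary u.1 u.2
  let act : G →* (E ≃ₗᵢ[ℝ] E) := MonoidHom.mk' (fun u => LinearIsometry.toLinearIsometryEquiv
    ⟨(rexp' (𝔤.br (ξ u))).toLinearMap, norm_rexp' (𝔤.isSkew_br _)⟩ rfl) fun u w => by
      ext v
      refine B.injective ?_
      change B.m (rexp' _ v) = B.m (rexp' _ (rexp' _ v))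
      simp only [hξ, Subgroup.coe_mul, Submonoid.coe_mul, star_mul, mul_assoc]
  have hact : ∀ u v, act u v = rexp' (𝔤.br (ξ u)) v := fun _ _ => rfl
  have : SecondCountableTopology (Matrix (Fin N) (Fin N) ℂ) := inferInstanceAs (SecondCountableTopology (Fin N → Fin N → ℂ))
  have : SecondCountableTopology G := (Topology.IsInducing.subtypeVal.comp Topology.IsInducing.subtypeVal).secondCountableTopology
  obtain ⟨μ, h1, h2, h3, h4⟩ := exists_haar G
  refine ⟨G, inferInstance, inferInstance, inferInstance, inferInstance, inferInstance, inferInstance,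
    ⟨⟨act, ?_, fun u => ⟨ξ u, hact u⟩, fun η => ?_, μ, h1, h2, h3, h4⟩⟩⟩
  · have hu : Continuous fun p : G × E => (p.1.1 : Matrix (Fin N) (Fin N) ℂ) :=
      continuous_subtype_val.comp (continuous_subtype_val.comp continuous_fst)
    refine (B.un.continuous_of_finiteDimensional.comp
      ((hu.mul (B.m.continuous_of_finiteDimensional.comp continuous_snd)).mul hu.star)).congr fun p => ?_
    rw [hact, ← B.un_m (rexp' _ _), hξ]
    rfl
  · obtain ⟨u, hu, h⟩ := B.exists_unitary_exp η
    exact ⟨⟨u, hu⟩, fun v => B.injective (by rw [hact, hξ, h])⟩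

variable (Γ : Grp 𝔤 K)

theorem exists_act (u : Matrix.unitaryGroup (Fin N) ℂ)
    (hu : ∀ a b, σ a ≠ σ b → (u : Matrix (Fin N) (Fin N) ℂ) a b = 0) : ∃ k : K, ∀ v,
      B.m (Γ.act k v) =
        (u : Matrix (Fin N) (Fin N) ℂ) * B.m v * star (u : Matrix (Fin N) (Fin N) ℂ) := by
  obtain ⟨ξ, hξ⟩ := B.exists_exp_of_unitary u hu
  obtain ⟨k, hk⟩ := Γ.of_exp ξ
  exact ⟨k, fun v => by rw [hk, hξ]⟩

theorem exists_unitary (k : K) : ∃ u : Matrix.unitaryGroup (Fin N) ℂ,
    (∀ a b, σ a ≠ σ b → (u : Matrix (Fin N) (Fin N) ℂ) a b = 0) ∧ ∀ v,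
      B.m (Γ.act k v) =
        (u : Matrix (Fin N) (Fin N) ℂ) * B.m v * star (u : Matrix (Fin N) (Fin N) ℂ) := by
  obtain ⟨ξ, hξ⟩ := Γ.exp_of k
  obtain ⟨u, hu, h⟩ := B.exists_unitary_exp ξ
  exact ⟨u, hu, fun v => by rw [hξ, h]⟩

end BSys

end Crest.Agent.R330

end
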