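import Crest.Agent.R330.NB.M2
import Crest.Agent.R330.NB.M3
import Crest.Agent.R330.NB.A
import Crest.Agent.R330.IB0

/-! # Row 330, NB/M4 (statements frozen; see `R330/Blueprint.lean`, `R330/NB/Defs.lean`) -/

set_option autoImplicit false
set_option linter.unusedSectionVars false

noncomputable section

open MeasureTheory Filter Topology Metric
open scoped InnerProductSpace ContDiff Matrix
open Crest.MathPhysics.MatrixQM (GammaNine)

namespace Crest.Agent.R330

variable {E : Type} [NormedAddCommGroup E] [InnerProductSpace ℝ E] [FiniteDimensional ℝ E]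
  {N : ℕ} {σ : Lab N} {𝔤 : Lie E}
  {K : Type} [Group K] [TopologicalSpace K] [IsTopologicalGroup K]
  [CompactSpace K] [MeasurableSpace K] [BorelSpace K]

namespace BSys

variable [MeasurableSpace E] [BorelSpace E] (B : BSys σ 𝔤) (Γ : Grp 𝔤 K)

/-- Closedness: finite union over `π` of projections along the compact `K` of closed sets
(`isClosedMap_snd_of_compactSpace`, `Γ.cont`, `Submodule.closed_of_finiteDimensional`). -/
theorem iCone_S {j : ℕ} (hj : σ.ncl ≤ j) : ICone Γ (B.S Γ j) := by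
  refine ⟨⟨σ, .refl σ, hj, 1, fun i => by simp⟩, ?_, ?_, ?_, ?_⟩
  · rintro r x ⟨π, h1, h2, k, hk⟩
    exact ⟨π, h1, h2, k, fun i => by simpa using Submodule.smul_mem _ r (hk i)⟩
  · rintro k' x ⟨π, h1, h2, k, hk⟩
    refine ⟨π, h1, h2, k * k'⁻¹, fun i => ?_⟩
    have : Γ.act (k * k'⁻¹) (Γ.act k' (x i)) = Γ.act (k * k'⁻¹ * k') (x i) := by rw [map_mul _ _ k']; rfl
    rw [Γ.ub_apply, this, inv_mul_cancel_right]
    exact hk i
  · rintro O - x ⟨π, h1, h2, k, hk⟩
    refine ⟨π, h1, h2, k, fun i => ?_⟩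
    change Γ.act k (∑ b, O i b • x b) ∈ _
    simp only [map_sum, map_smul]
    exact Submodule.sum_mem _ fun b _ => Submodule.smul_mem _ _ (hk b)
  · have : B.S Γ j = ⋃ π ∈ {π : Lab N | π.Ref σ ∧ π.ncl ≤ j},
        Prod.snd '' {p : K × X E | ∀ i, Γ.ax p.1 p.2 i ∈ B.Zs π} := by
      ext x
      simp [S, and_assoc, Γ.ub_apply]
    rw [this]
    refine (Set.toFinite _).isClosed_biUnion fun π _ => isClosedMap_snd_of_compactSpace _ ?_
    simp only [Set.ofPred_forall]
    exact isClosed_iInter fun i => (B.Zs π).closed_of_finiteDimensional.preimage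
      ((PiLp.continuous_apply 2 _ i).comp Γ.continuous_ax)

theorem S_mono {i j : ℕ} (h : i ≤ j) : B.S Γ i ⊆ B.S Γ j :=
  fun _ ⟨π, h1, h2, h3⟩ => ⟨π, h1, h2.trans h, h3⟩

/-- `π` and `σ` define the same partition (`Lab.Ref.symm_of_ncl_le`); constant and traceless on
each block gives zero. -/
theorem S_bot : B.S Γ σ.ncl = {0} := by
  refine Set.eq_singleton_iff_unique_mem.2 ⟨(B.iCone_S Γ le_rfl).zero, ?_⟩
  rintro x ⟨π, h1, h2, k, hk⟩
  ext i
  have := B.oZL σ (u := Γ.act k (x i)) (v := Γ.act k (x i))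
    ⟨(hk i).1, fun a b hab => (hk i).2 a b (h1.symm_of_ncl_le h2 a b hab)⟩ ⟨B.blk _, B.trl _⟩
  simpa using this

theorem nbM4_comm {u v : E} (h : 𝔤.br u v = 0) : B.m u * B.m v = B.m v * B.m u := by
  have := B.br u v
  rw [h, map_zero, eq_comm, smul_eq_zero, sub_eq_zero] at this
  exact this.resolve_left Complex.I_ne_zero

theorem nbM4_diag {π : Lab N} {v : E} (hv : v ∈ B.Zs π) :
    B.m v = Matrix.diagonal fun a => (((B.m v a a).re : ℝ) : ℂ) := by
  ext a b
  rcases eq_or_ne a b with rfl | h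
  · rw [Matrix.diagonal_apply_eq, B.diag_re]
  · rw [Matrix.diagonal_apply_ne _ h, hv.1 a b h]

theorem nbM4_norm {x : X E} {d : Fin 9 → Fin N → ℝ}
    (hx : ∀ i, B.m (x i) = Matrix.diagonal fun a => (d i a : ℂ)) : ‖x‖ ^ 2 = ∑ i, ∑ a, d i a ^ 2 := by
  simp only [PiLp.norm_sq_eq_of_L2, B.norm_sq, hx]
  refine Finset.sum_congr rfl fun i _ => Finset.sum_congr rfl fun a _ => ?_
  rw [Finset.sum_eq_single a (fun b _ h => by simp [Matrix.diagonal_apply_ne _ h.symm]) (by simp)]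
  simp

theorem nbM4_pair {a b : Fin N} (h : a ≠ b) (f : Fin N → ℝ) : f a ^ 2 + f b ^ 2 ≤ ∑ c, f c ^ 2 := by
  rw [← Finset.sum_pair (f := fun c => f c ^ 2) h]
  exact Finset.sum_le_sum_of_subset_of_nonneg (Finset.subset_univ _) fun _ _ _ => sq_nonneg _

/-- `exists_simul_diag`, `exists_act`, `π = id`. -/
theorem valley_subset (x : X E) (hx : ∀ i j, 𝔤.br (x i) (x j) = 0) : x ∈ B.S Γ N := by
  obtain ⟨u, hu, d, hd⟩ := exists_simul_diag σ (fun i => B.m (x i)) (fun i => B.herm _)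
    (fun i j => B.nbM4_comm (hx i j)) fun i => B.blk _
  obtain ⟨k, hk⟩ := B.exists_act Γ u hu
  exact ⟨id, fun a b h => congrArg σ h, Lab.ncl_id.le, k, fun i =>
    ⟨fun a b h => by rw [hk, hd, Matrix.diagonal_apply_ne _ h], fun a b h => by rw [show a = b from h]⟩⟩

theorem mem_range_iZ {π : Lab N} (h : π.Ref σ) (x : X E) :
    x ∈ Set.range (liftI 9 (B.levi h).iZ) ↔ ∀ i, x i ∈ B.Zs π := by
  constructor
  · rintro ⟨z, rfl⟩ i
    exact (z i).2
  · exact fun hx => ⟨WithLp.toLp 2 fun i => ⟨x i, hx i⟩, rfl⟩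

/-- The clustering bound (`exists_unitary`, `hoffman_wielandt`, `norm_sq`, `ncl_comp_perm`): the
distance from a diagonal configuration to `S j` dominates a Euclidean clustering distance. -/
theorem cluster_le {x : X E} (d : Fin 9 → Fin N → ℝ)
    (hx : ∀ i, B.m (x i) = Matrix.diagonal fun a => (d i a : ℂ)) {j : ℕ} {s : X E}
    (hs : s ∈ B.S Γ j) : ∃ (π' : Lab N) (e : Fin 9 → Fin N → ℝ), π'.Ref σ ∧ π'.ncl ≤ j ∧
      (∀ i a b, π' a = π' b → e i a = e i b) ∧ ∑ i, ∑ a, (d i a - e i a) ^ 2 ≤ ‖x - s‖ ^ 2 := by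
  obtain ⟨π, h1, h2, k, hk⟩ := hs
  obtain ⟨u, hu, hku⟩ := B.exists_unitary Γ k⁻¹
  obtain ⟨τ, hτ, hle⟩ := hoffman_wielandt σ u hu d fun i a => (B.m (Γ.act k (s i)) a a).re
  refine ⟨π ∘ τ, fun i a => (B.m (Γ.act k (s i)) (τ a) (τ a)).re, fun a b hab => ?_, (π.ncl_comp_perm τ).trans_le h2,
    fun i a b hab => congrArg Complex.re ((hk i).2 _ _ hab), hle.trans (le_of_eq ?_)⟩
  · rw [← hτ a, ← hτ b, h1 _ _ hab]
  · have : ∀ i, Γ.act k⁻¹ (Γ.act k (s i)) = s i := fun i => by rw [map_inv]; exact (Γ.act k).symm_apply_apply _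
    simp only [PiLp.norm_sq_eq_of_L2, B.norm_sq, PiLp.sub_apply, map_sub, hx, ← B.nbM4_diag (hk _), ← hku, this]

/-- The mass of the pair containing `a, b`. -/
theorem exists_M_eq {π : Lab N} (h : π.Ref σ) {a b : Fin N} (hab : σ a = σ b) (hne : π a ≠ π b) :
    ∃ p : Pr σ π, ∀ z : X (B.Zs π), (B.levi h).M p z ^ 2 =
      ∑ i, ((B.m (z i : E) a a).re - (B.m (z i : E) b b).re) ^ 2 := by
  obtain ⟨q, hq⟩ := nbM2_exists π hab hne
  refine ⟨q, fun z => ((B.levi h).b0a_M_sq q z).trans (Finset.sum_congr rfl fun i _ => ?_)⟩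
  rcases hq with hq | hq
  · exact congrArg (· ^ 2) (B.alpha_eq π q (z i) hq.1 hq.2)
  · exact (congrArg (· ^ 2) (B.alpha_eq π q (z i) hq.2 hq.1)).trans (by ring)

/-- Merge the two clusters of `p` at their weighted mean (`Lab.ncl_merge`); every diagonal entry
moves by at most `|α_p(z_i)|`, so `C₁ = N + 1` works. -/
theorem geo_up {π : Lab N} (h : π.Ref σ) {j : ℕ} (hj : π.ncl = j + 1) :
    ∃ C₁ : ℝ, 0 < C₁ ∧ ∀ z p,
      infDist (liftI 9 (B.levi h).iZ z) (B.S Γ j) ≤ C₁ * (B.levi h).M p z := by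
  have h1 : ∀ p : Pr σ π, ∃ w : B.Zs π, ∀ z, B.alpha π p (z - B.alpha π p z • w) = 0 := fun p => by
    by_cases h0 : ∃ w, B.alpha π p w ≠ 0
    · obtain ⟨w, hw⟩ := h0
      exact ⟨(B.alpha π p w)⁻¹ • w, fun z => by simp [hw]⟩
    · exact ⟨0, fun _ => of_not_not fun e => h0 ⟨_, e⟩⟩
  choose w hw using h1
  refine ⟨1 + ∑ p, ‖w p‖, by positivity, fun z p => ?_⟩
  obtain ⟨a₀, b₀, ha, hb, hab⟩ := p.2.2
  have hm := π.ncl_merge p.2.1.ne ⟨a₀, ha⟩ ⟨b₀, hb⟩
  have key : ∀ {R : Type} {g : Fin N → R}, (∀ a b, π a = π b → g a = g b) → g a₀ = g b₀ → ∀ a b,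
      (if π a = p.1.2 then p.1.1 else π a) = (if π b = p.1.2 then p.1.1 else π b) → g a = g b := by
    intro R g hg h0 a b e
    split_ifs at e with e1 e2 e2
    · exact hg a b (e1.trans e2.symm)
    · rw [hg a b₀ (e1.trans hb.symm), ← h0, hg a₀ b (ha.trans e)]
    · rw [hg b b₀ (e2.trans hb.symm), ← h0, hg a a₀ (e.trans ha.symm)]
    · exact hg a b e
  set t : X (B.Zs π) := WithLp.toLp 2 fun i => B.alpha π p (z i) • w p
  have hs : liftI 9 (B.levi h).iZ (z - t) ∈ B.S Γ j := ⟨_, key h hab, by omega, 1, fun i => by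
    have h2 := hw p (z i)
    rw [B.alpha_eq π p _ ha hb, sub_eq_zero] at h2
    rw [map_one]
    exact ⟨(z i - B.alpha π p (z i) • w p).2.1, key (z i - B.alpha π p (z i) • w p).2.2
      ((B.diag_re _ _).symm.trans ((congrArg _ h2).trans (B.diag_re _ _)))⟩⟩
  refine (infDist_le_dist_of_mem hs).trans ?_
  have h3 : ‖t‖ = ‖w p‖ * (B.levi h).M p z := by
    rw [PiLp.norm_eq_of_L2, Levi.M, ← Real.sqrt_sq (norm_nonneg (w p)), ← Real.sqrt_mul (sq_nonneg _), Finset.mul_sum]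
    congr 1
    refine Finset.sum_congr rfl fun i _ => ?_
    change ‖B.alpha π p (z i) • w p‖ ^ 2 = _ * B.alpha π p (z i) ^ 2
    rw [norm_smul, mul_pow, Real.norm_eq_abs, sq_abs, mul_comm]
  rw [LinearIsometry.dist_map, dist_eq_norm, sub_sub_cancel, h3]
  refine mul_le_mul_of_nonneg_right ?_ ((B.levi h).b0a_M_nonneg p z)
  linarith [Finset.single_le_sum (f := fun p => ‖w p‖) (fun _ _ => norm_nonneg _) (Finset.mem_univ p)]

/-- For `s ∈ S j`, the `π'` of `cluster_le` does not refine `π` (`Lab.Ref.ncl_le`), so two points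
of different `π`-clusters share a `π'`-cluster and `M_p²/2 ≤ ‖z - s‖²`.  Take `p` minimising
`M_p` (`Finite.exists_min`; nonempty from `s = 0`), `le_infDist`. -/
theorem geo_low {π : Lab N} (h : π.Ref σ) {j : ℕ} (hj : π.ncl = j + 1) (hσ : σ.ncl ≤ j)
    (z : X (B.Zs π)) :
    ∃ p, (B.levi h).M p z ≤ 2 * infDist (liftI 9 (B.levi h).iZ z) (B.S Γ j) := by
  obtain ⟨s, hs, e1⟩ := (B.iCone_S Γ hσ).closed.exists_infDist_eq_dist (B.iCone_S Γ hσ).nonempty
    (liftI 9 (B.levi h).iZ z)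
  obtain ⟨π', e, h1, h2, h3, h4⟩ := B.cluster_le Γ (x := liftI 9 (B.levi h).iZ z) (fun i a => (B.m (z i : E) a a).re)
    (fun i => B.nbM4_diag (z i).2) hs
  obtain ⟨a, b, h5, h6⟩ : ∃ a b, π' a = π' b ∧ π a ≠ π b := by
    by_contra! hc
    have := Lab.Ref.ncl_le hc
    omega
  obtain ⟨p, hp⟩ := B.exists_M_eq h (h1 a b h5) h6
  refine ⟨p, ?_⟩
  rw [e1, dist_eq_norm]
  refine le_of_sq_le_sq ?_ (by positivity)
  rw [hp, mul_pow]
  refine le_trans ?_ (mul_le_mul_of_nonneg_left h4 (by norm_num))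
  rw [Finset.mul_sum]
  refine Finset.sum_le_sum fun i _ => ?_
  have h7 := nbM4_pair (fun e => h6 (congrArg π e)) fun c => (B.m (z i : E) c c).re - e i c
  rw [h3 i a b h5] at h7
  nlinarith [sq_nonneg ((B.m (z i : E) a a).re + (B.m (z i : E) b b).re - 2 * e i b),
    sq_nonneg ((B.m (z i : E) a a).re - e i b), sq_nonneg ((B.m (z i : E) b b).re - e i b)]

/-- Diagonalise by a `π`-block unitary (`exists_simul_diag`, `exists_act`; it fixes `z` and maps
`l` to a diagonal `l'` of the same norm with zero cluster sums; `ICone.infDist_ax`).  For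
`s ∈ S j` and `π', e` from `cluster_le`: if `π'` refines `π` then `e` is `π`-constant
(`Lab.Ref.symm_of_ncl_le`) and `Σ(z + l' - e)² = Σ(z - e)² + ‖l‖²`; otherwise
`Σ ≥ ½(M_p - √2‖l‖)² ≥ ‖l‖²`. -/
theorem geo_light {π : Lab N} (h : π.Ref σ) (x : X E) (hx : ∀ i j, 𝔤.br (x i) (x j) = 0)
    (hy : (B.levi h).yc x = 0) (hl : ∀ p, 4 * ‖(B.levi h).lc x‖ ≤ (B.levi h).M p ((B.levi h).zc x)) :
    ‖(B.levi h).lc x‖ ≤ infDist x (B.S Γ π.ncl) := by
  set z := (B.levi h).zc x
  set l := (B.levi h).lc x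
  have hC := B.iCone_S Γ h.ncl_le
  have hxi : ∀ i, x i = (z i : E) + (l i : E) := fun i => by
    have := (B.levi h).asm_eq x
    rw [hy, Levi.asm, map_zero, add_zero] at this
    exact (congrArg (· i) this).symm
  obtain ⟨u, hu, d, hd⟩ := exists_simul_diag π (fun i => B.m (x i)) (fun i => B.herm _)
    (fun i j => B.nbM4_comm (hx i j)) fun i a b hab => by
      rw [hxi, map_add, Matrix.add_apply, (z i).2.1 a b fun e => hab (congrArg π e), (l i).2.1 a b hab, add_zero]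
  obtain ⟨k, hk⟩ := B.exists_act Γ u fun a b hab => hu a b fun e => hab (h a b e)
  have hc : ∀ g : Fin N → ℂ, (∀ a b, π a = π b → g a = g b) →
      (u : Matrix (Fin N) (Fin N) ℂ) * Matrix.diagonal g = Matrix.diagonal g * u := fun g hg => Matrix.ext fun a b => by
    rw [Matrix.diagonal_mul, Matrix.mul_diagonal, mul_comm]
    by_cases hab : π a = π b
    · rw [hg a b hab]
    · rw [hu a b hab, mul_zero, mul_zero]
  set dz : Fin 9 → Fin N → ℝ := fun i a => (B.m (z i : E) a a).re with hdz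
  have hz : ∀ i a b, π a = π b → dz i a = dz i b := fun i a b hab => congrArg Complex.re ((z i).2.2 a b hab)
  have hl' : ∀ i, (u : Matrix (Fin N) (Fin N) ℂ) * B.m (l i : E) * star (u : Matrix (Fin N) (Fin N) ℂ) =
      Matrix.diagonal fun a => ((d i a - dz i a : ℝ) : ℂ) := fun i => by
    have := hd i
    rw [hxi, map_add, mul_add, add_mul, B.nbM4_diag (z i).2, hc _ fun a b hab => congrArg _ (hz i a b hab), mul_assoc,
      u.2.2, mul_one] at this
    simp only [Complex.ofReal_sub, ← Matrix.diagonal_sub, ← this, hdz, add_sub_cancel_left]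
  have hn : ‖l‖ ^ 2 = ∑ i, ∑ a, (d i a - dz i a) ^ 2 := by
    rw [← (liftI 9 (B.levi h).iL).norm_map, ← (Γ.ax k).norm_map]
    exact B.nbM4_norm fun i => (hk _).trans (hl' i)
  have ho : ∀ i (g : Fin N → ℝ), (∀ a b, π a = π b → g a = g b) → ∑ a, g a * (d i a - dz i a) = 0 := fun i g hg => by
    have hg' : ∀ a b, π a = π b → (g a : ℂ) = g b := fun a b hab => congrArg _ (hg a b hab)
    have h1 := congrArg (fun A => Matrix.trace (Matrix.diagonal (fun a => (g a : ℂ)) * A)) (hl' i)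
    simp only [← mul_assoc, ← hc _ hg'] at h1
    rw [Matrix.trace_mul_comm, ← mul_assoc, ← mul_assoc, u.2.1, one_mul] at h1
    simp only [Matrix.trace, Matrix.diag, Matrix.diagonal_mul, Matrix.diagonal_apply_eq] at h1
    rw [π.sum_mul_eq_zero hg' (l i).2.2] at h1
    exact_mod_cast h1.symm
  obtain ⟨s, hs, e1⟩ := hC.closed.exists_infDist_eq_dist hC.nonempty (Γ.ax k x)
  obtain ⟨π', e, h1, h2, h3, h4⟩ := B.cluster_le Γ (x := Γ.ax k x) d (fun i => (hk _).trans (hd i)) hs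
  rw [← hC.infDist_ax k, e1, dist_eq_norm]
  refine le_of_sq_le_sq ?_ (norm_nonneg _)
  by_cases hr : π'.Ref π
  · rw [hn]
    refine le_trans (Finset.sum_le_sum fun i _ => ?_) h4
    have := ho i (fun a => 2 * (dz i a - e i a)) fun a b hab => by
      rw [hz i a b hab, h3 i a b (hr.symm_of_ncl_le h2 a b hab)]
    rw [← add_zero (∑ a, _), ← this, ← Finset.sum_add_distrib]
    exact Finset.sum_le_sum fun a _ => by nlinarith [sq_nonneg (dz i a - e i a)]
  · obtain ⟨a, b, h5, h6⟩ : ∃ a b, π' a = π' b ∧ π a ≠ π b := by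
      by_contra! hc
      exact hr hc
    obtain ⟨p, hp⟩ := B.exists_M_eq h (h1 a b h5) h6
    have h7 := pow_le_pow_left₀ (by positivity) (hl p) 2
    have h8 : (B.levi h).M p z ^ 2 ≤ 4 * (∑ i, ∑ a, (d i a - e i a) ^ 2 + ∑ i, ∑ a, (d i a - dz i a) ^ 2) := by
      rw [hp, ← Finset.sum_add_distrib, Finset.mul_sum]
      refine Finset.sum_le_sum fun i _ => ?_
      have h9 := nbM4_pair (fun e => h6 (congrArg π e)) fun c => d i c - e i c
      have h10 := nbM4_pair (fun e => h6 (congrArg π e)) fun c => d i c - dz i c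
      rw [h3 i a b h5] at h9
      change (dz i a - dz i b) ^ 2 ≤ _
      nlinarith [sq_nonneg ((d i a - e i b) + (d i b - e i b)), sq_nonneg ((d i a - dz i a) + (d i b - dz i b)),
        sq_nonneg (((d i a - e i b) - (d i b - e i b)) + ((d i a - dz i a) - (d i b - dz i b)))]
    nlinarith [sq_nonneg ‖l‖]

theorem geo {π : Lab N} (h : π.Ref σ) {j : ℕ} (hj : π.ncl = j + 1) (hσ : σ.ncl ≤ j) :
    (B.levi h).Geo (B.S Γ j) (B.S Γ (j + 1)) where
  up := B.geo_up Γ h hj
  low := B.geo_low Γ h hj hσ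
  mem z := ⟨π, h, hj.le, 1, fun i => by
    simpa using ((B.mem_range_iZ h _).1 ⟨z, rfl⟩ i)⟩
  light x hx hy hl := hj ▸ B.geo_light Γ h x hx hy hl

end BSys

/-- The top system. -/
def MatSys.toBSys (M : MatSys N 𝔤) : BSys (fun a : Fin N => (⟨0, a.pos⟩ : Fin N)) 𝔤 where
  m := M.m
  herm := M.herm
  blk _ _ _ h := absurd rfl h
  trl v c := by
    by_cases hc : c = ⟨0, c.pos⟩
    · rw [Finset.filter_true_of_mem fun a _ => hc.symm]
      exact M.traceless v
    · rw [Finset.filter_false_of_mem fun a _ h => hc h.symm]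
      simp
  inner := M.inner
  br := M.br
  surj A h1 _ h3 := by
    refine M.surj A h1 ?_
    by_cases hN : 0 < N
    · have := h3 ⟨0, hN⟩
      rwa [Finset.filter_true_of_mem fun a _ => rfl] at this
    · exact Finset.sum_eq_zero fun a _ => absurd a.pos hN

theorem BSys.subsingleton_Ls (B : BSys σ 𝔤) : Subsingleton (B.Ls id) := by
  refine subsingleton_of_forall_eq 0 fun v => Subtype.ext (B.injective (Matrix.ext fun a b => ?_))
  rcases eq_or_ne a b with rfl | h
  · simpa [Finset.filter_eq'] using v.2.2 a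
  · simpa using v.2.1 a b h

/-- For `N = 2` the centre is spanned by `diag(1, -1)`. -/
theorem MatSys.finrank_Zs (M : MatSys 2 𝔤) : Module.finrank ℝ (M.toBSys.Zs id) = 1 := by
  obtain ⟨v, hv⟩ := M.surj (Matrix.diagonal ![1, -1])
    (Matrix.isHermitian_diagonal_iff.2 fun a => by fin_cases a <;> simp [IsSelfAdjoint]) (by simp)
  refine finrank_eq_one_iff'.2 ⟨⟨v, fun a b h => (congrFun (congrFun hv a) b).trans (Matrix.diagonal_apply_ne _ h),
    fun a b h => by rw [show a = b from h]⟩, fun h => ?_, fun w => ⟨(M.m w 0 0).re, Subtype.ext ?_⟩⟩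
  · have : v = 0 := congrArg Subtype.val h
    simpa [this] using congrFun (congrFun hv 0) 0
  · refine M.toBSys.injective (Matrix.ext fun a b => ?_)
    change M.m ((M.m w 0 0).re • v) a b = M.m w a b
    have h0 : (((M.m w 0 0).re : ℝ) : ℂ) = M.m w 0 0 := M.toBSys.diag_re w 0
    have h1 : M.m w 1 1 = -M.m w 0 0 := by
      have := M.traceless w
      rw [Matrix.trace_fin_two] at this
      linear_combination this
    have h2 : M.m w 0 1 = 0 := w.2.1 0 1 (by decide)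
    have h3 : M.m w 1 0 = 0 := w.2.1 1 0 (by decide)
    rw [map_smul, hv]
    fin_cases a <;> fin_cases b <;> simp [h0, h1, h2, h3]

end Crest.Agent.R330

end
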